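import Mathlib

namespace Vale.Agent.Lib.P074u

variable {ι : Type} [Fintype ι]

/-- One index: Hellinger term against the `δ` term and the chi-square term. -/
theorem alg_one {p q m m' : ℝ} (hp : 0 < p) (hq : 0 < q) (hpm : p ≤ m) (hmp : m ≤ 26 / 25 * p)
    (hqm : q ≤ m') (hmq : m' ≤ 26 / 25 * q) (hm1 : m / 2 ≤ m') (hm2 : m' ≤ 3 / 2 * m) :
    (p + q) / 2 - Real.sqrt (p * q) ≤
      1 / 2 * (Real.sqrt (p * q) * (m' / q - m / p) ^ 2) + 1 / 2 * ((m' - m) ^ 2 / m) := by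
  have hm : 0 < m := lt_of_lt_of_le hp hpm
  have hm' : 0 < m' := lt_of_lt_of_le hq hqm
  set r := Real.sqrt (p * q) with hr
  have hr2 : r ^ 2 = p * q := Real.sq_sqrt (by positivity)
  have hrpos : 0 < r := Real.sqrt_pos.mpr (by positivity)
  have hrp : p / 2 ≤ r := Real.le_sqrt_of_sq_le (by nlinarith)
  set δ := m' / q - m / p with hδ
  set e := m' - m with he
  have hpq : p - q = (p * q / m) * δ - (p / m) * e := by
    rw [hδ, he]; field_simp; ring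
  have hA : ((p + q) / 2 - r) * (8 * r) ≤ (p - q) ^ 2 := by
    nlinarith [sq_nonneg ((p + q) / 2 - r)]
  have hB : (p - q) ^ 2 ≤ 2 * ((p * q / m) * δ) ^ 2 + 2 * ((p / m) * e) ^ 2 := by
    rw [hpq]; nlinarith [sq_nonneg ((p * q / m) * δ + (p / m) * e)]
  have hC : 2 * ((p * q / m) * δ) ^ 2 ≤ (1 / 2 * (r * δ ^ 2)) * (8 * r) := by
    have h1 : p * q / m ^ 2 ≤ 2 := by
      rw [div_le_iff₀ (by positivity)]; nlinarith
    have e1 : 2 * ((p * q / m) * δ) ^ 2 = 2 * (p * q / m ^ 2) * ((p * q) * δ ^ 2) := by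
      field_simp
    have e2 : (1 / 2 * (r * δ ^ 2)) * (8 * r) = 4 * ((p * q) * δ ^ 2) := by
      rw [← hr2]; ring
    rw [e1, e2]
    have h2 : 0 ≤ (p * q) * δ ^ 2 := by positivity
    nlinarith
  have hD : 2 * ((p / m) * e) ^ 2 ≤ (1 / 2 * (e ^ 2 / m)) * (8 * r) := by
    have h1 : p ^ 2 ≤ 2 * m * r := by nlinarith
    have e1 : 2 * ((p / m) * e) ^ 2 = (2 * p ^ 2) * (e ^ 2 / m ^ 2) := by
      field_simp
    have e2 : (1 / 2 * (e ^ 2 / m)) * (8 * r) = (4 * m * r) * (e ^ 2 / m ^ 2) := by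
      field_simp; ring
    rw [e1, e2]
    have h2 : 0 ≤ e ^ 2 / m ^ 2 := by positivity
    nlinarith
  have hfin : ((p + q) / 2 - r) * (8 * r) ≤
      (1 / 2 * (r * δ ^ 2) + 1 / 2 * (e ^ 2 / m)) * (8 * r) := by linarith
  exact le_of_mul_le_mul_right hfin (by positivity)

/-- First pass: the Hellinger distance is bounded by the chi-square distance of the masses. -/
theorem alg_stage1 (p q m m' : ι → ℝ) (Γ : ℝ) (hp : ∀ i, 0 < p i) (hq : ∀ i, 0 < q i)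
    (hpm : ∀ i, p i ≤ m i) (hmp : ∀ i, m i ≤ 26 / 25 * p i) (hqm : ∀ i, q i ≤ m' i)
    (hmq : ∀ i, m' i ≤ 26 / 25 * q i) (hm1 : ∀ i, m i / 2 ≤ m' i)
    (hm2 : ∀ i, m' i ≤ 3 / 2 * m i) (hsp : ∑ i, p i = Γ) (hsq : ∑ i, q i = Γ)
    (hPL : ∑ i, Real.sqrt (p i * q i) * (1 + (m' i / q i - m i / p i) ^ 2) ≤ Γ) :
    Γ - ∑ i, Real.sqrt (p i * q i) ≤ ∑ i, (m' i - m i) ^ 2 / m i := by
  have h1 : ∑ i, ((p i + q i) / 2 - Real.sqrt (p i * q i)) ≤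
      ∑ i, (1 / 2 * (Real.sqrt (p i * q i) * (m' i / q i - m i / p i) ^ 2)
        + 1 / 2 * ((m' i - m i) ^ 2 / m i)) :=
    Finset.sum_le_sum fun i _ =>
      alg_one (hp i) (hq i) (hpm i) (hmp i) (hqm i) (hmq i) (hm1 i) (hm2 i)
  have h2 : ∑ i, ((p i + q i) / 2 - Real.sqrt (p i * q i)) =
      Γ - ∑ i, Real.sqrt (p i * q i) := by
    rw [Finset.sum_sub_distrib, ← Finset.sum_div, Finset.sum_add_distrib, hsp, hsq]
    ring
  have h3 : ∑ i, (1 / 2 * (Real.sqrt (p i * q i) * (m' i / q i - m i / p i) ^ 2)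
        + 1 / 2 * ((m' i - m i) ^ 2 / m i)) =
      1 / 2 * ∑ i, Real.sqrt (p i * q i) * (m' i / q i - m i / p i) ^ 2
        + 1 / 2 * ∑ i, (m' i - m i) ^ 2 / m i := by
    rw [Finset.sum_add_distrib, Finset.mul_sum, Finset.mul_sum]
  have h4 : ∑ i, Real.sqrt (p i * q i) * (1 + (m' i / q i - m i / p i) ^ 2) =
      ∑ i, Real.sqrt (p i * q i)
        + ∑ i, Real.sqrt (p i * q i) * (m' i / q i - m i / p i) ^ 2 := by
    rw [← Finset.sum_add_distrib]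
    exact Finset.sum_congr rfl fun i _ => by ring
  rw [h2, h3] at h1
  rw [h4] at hPL
  linarith

/-- One index of the second pass. -/
theorem alg_two {V : Type*} [NormedAddCommGroup V] [NormedSpace ℝ V] {p q m m' M : ℝ}
    (A0 A1 : V) (hM : 0 < M) (hp : 0 < p) (hq : 0 < q) (hpm : p ≤ m) (hmp : m ≤ 26 / 25 * p)
    (hqm : q ≤ m') (hmq : m' ≤ 26 / 25 * q) (hm1 : m / 2 ≤ m') (hm2 : m' ≤ 3 / 2 * m)
    (hA0 : ‖A0‖ ≤ M * m) :
    ‖A1 - A0‖ ^ 2 / m ≤ 4 * (Real.sqrt (p * q) * ‖q⁻¹ • A1 - p⁻¹ • A0‖ ^ 2)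
      + 22 * M ^ 2 * ((p + q) / 2 - Real.sqrt (p * q)) := by
  have hm : 0 < m := lt_of_lt_of_le hp hpm
  have hm' : 0 < m' := lt_of_lt_of_le hq hqm
  set r := Real.sqrt (p * q) with hr
  have hr2 : r ^ 2 = p * q := Real.sq_sqrt (by positivity)
  have hrpos : 0 < r := Real.sqrt_pos.mpr (by positivity)
  have hrq : 3 / 4 * q ≤ r := Real.le_sqrt_of_sq_le (by nlinarith)
  have hrle : r ≤ (p + q) / 2 := by
    have : 0 ≤ ((p + q) / 2) ^ 2 - r ^ 2 := by rw [hr2]; nlinarith [sq_nonneg (p - q)]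
    nlinarith
  set D : V := q⁻¹ • A1 - p⁻¹ • A0 with hD
  set h := (p + q) / 2 - r with hh
  have hh0 : 0 ≤ h := by rw [hh]; linarith
  have hdec : A1 - A0 = q • D + ((q - p) / p) • A0 := by
    rw [hD, smul_sub, smul_smul, smul_smul, mul_inv_cancel₀ hq.ne', one_smul, sub_div,
      div_self hp.ne', sub_smul, one_smul, div_eq_mul_inv]
    abel
  have hn : ‖A1 - A0‖ ≤ q * ‖D‖ + |q - p| / p * (M * m) := by
    rw [hdec]
    refine (norm_add_le _ _).trans ?_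
    rw [norm_smul, norm_smul, Real.norm_eq_abs, Real.norm_eq_abs, abs_of_pos hq, abs_div,
      abs_of_pos hp]
    have : 0 ≤ |q - p| / p := by positivity
    nlinarith [mul_le_mul_of_nonneg_left hA0 this]
  have hsq : ‖A1 - A0‖ ^ 2 ≤ 2 * (q * ‖D‖) ^ 2 + 2 * (|q - p| / p * (M * m)) ^ 2 := by
    have h0 : 0 ≤ ‖A1 - A0‖ := norm_nonneg _
    have h1 : ‖A1 - A0‖ ^ 2 ≤ (q * ‖D‖ + |q - p| / p * (M * m)) ^ 2 :=
      pow_le_pow_left₀ h0 hn 2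
    nlinarith [sq_nonneg (q * ‖D‖ - |q - p| / p * (M * m))]
  have hqp : (q - p) ^ 2 ≤ 10 * m * h := by
    have e1 : (q - p) ^ 2 = 2 * h * (p + q + 2 * r) := by
      rw [hh]; nlinarith
    rw [e1]
    have : p + q + 2 * r ≤ 5 * m := by linarith
    nlinarith
  have t1 : 2 * (q * ‖D‖) ^ 2 ≤ (4 * (r * ‖D‖ ^ 2)) * m := by
    have h1 : q ^ 2 ≤ 2 * r * m := by nlinarith
    have h2 : 0 ≤ ‖D‖ ^ 2 := by positivity
    nlinarith
  have t2 : 2 * (|q - p| / p * (M * m)) ^ 2 ≤ (22 * M ^ 2 * h) * m := by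
    have e1 : 2 * (|q - p| / p * (M * m)) ^ 2 = 2 * M ^ 2 * (m / p) ^ 2 * (q - p) ^ 2 := by
      rw [mul_pow, div_pow, sq_abs]; field_simp
    rw [e1]
    have h1 : m / p ≤ 26 / 25 := by
      rw [div_le_iff₀ hp]; exact hmp
    have h0 : 0 ≤ m / p := by positivity
    have h2 : (m / p) ^ 2 ≤ (26 / 25) ^ 2 := pow_le_pow_left₀ h0 h1 2
    have h3 : 0 ≤ M ^ 2 := by positivity
    have h4 : 0 ≤ (q - p) ^ 2 := by positivity
    have h5 : 2 * M ^ 2 * (m / p) ^ 2 * (q - p) ^ 2 ≤ 2 * M ^ 2 * (26 / 25) ^ 2 * (q - p) ^ 2 := by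
      apply mul_le_mul_of_nonneg_right _ h4
      apply mul_le_mul_of_nonneg_left h2 (by positivity)
    have h6 : 2 * M ^ 2 * (26 / 25) ^ 2 * (q - p) ^ 2 ≤ 2 * M ^ 2 * (26 / 25) ^ 2 * (10 * m * h) := by
      apply mul_le_mul_of_nonneg_left hqp (by positivity)
    have h7 : 0 ≤ M ^ 2 * (m * h) := by positivity
    nlinarith
  rw [div_le_iff₀ hm]
  nlinarith

/-- Second pass: first moments. -/
theorem alg_stage2 {V : Type*} [NormedAddCommGroup V] [NormedSpace ℝ V] (p q m m' : ι → ℝ)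
    (A0 A1 : ι → V) (Γ M B : ℝ) (hM : 0 < M) (hp : ∀ i, 0 < p i) (hq : ∀ i, 0 < q i)
    (hpm : ∀ i, p i ≤ m i) (hmp : ∀ i, m i ≤ 26 / 25 * p i) (hqm : ∀ i, q i ≤ m' i)
    (hmq : ∀ i, m' i ≤ 26 / 25 * q i) (hm1 : ∀ i, m i / 2 ≤ m' i)
    (hm2 : ∀ i, m' i ≤ 3 / 2 * m i) (hsp : ∑ i, p i = Γ) (hsq : ∑ i, q i = Γ)
    (hA0 : ∀ i, ‖A0 i‖ ≤ M * m i)
    (hPL : ∑ i, Real.sqrt (p i * q i) *
      (1 + ‖(q i)⁻¹ • A1 i - (p i)⁻¹ • A0 i‖ ^ 2 / (160 * M ^ 2)) ≤ Γ)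
    (hB : Γ - ∑ i, Real.sqrt (p i * q i) ≤ B) :
    ∑ i, ‖A1 i - A0 i‖ ^ 2 / m i ≤ 700 * M ^ 2 * B := by
  have h1 : ∑ i, ‖A1 i - A0 i‖ ^ 2 / m i ≤
      ∑ i, (4 * (Real.sqrt (p i * q i) * ‖(q i)⁻¹ • A1 i - (p i)⁻¹ • A0 i‖ ^ 2)
        + 22 * M ^ 2 * ((p i + q i) / 2 - Real.sqrt (p i * q i))) :=
    Finset.sum_le_sum fun i _ =>
      alg_two (A0 i) (A1 i) hM (hp i) (hq i) (hpm i) (hmp i) (hqm i) (hmq i) (hm1 i) (hm2 i)
        (hA0 i)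
  have h2 : ∑ i, ((p i + q i) / 2 - Real.sqrt (p i * q i)) =
      Γ - ∑ i, Real.sqrt (p i * q i) := by
    rw [Finset.sum_sub_distrib, ← Finset.sum_div, Finset.sum_add_distrib, hsp, hsq]
    ring
  have h3 : ∑ i, (4 * (Real.sqrt (p i * q i) * ‖(q i)⁻¹ • A1 i - (p i)⁻¹ • A0 i‖ ^ 2)
        + 22 * M ^ 2 * ((p i + q i) / 2 - Real.sqrt (p i * q i))) =
      4 * ∑ i, Real.sqrt (p i * q i) * ‖(q i)⁻¹ • A1 i - (p i)⁻¹ • A0 i‖ ^ 2
        + 22 * M ^ 2 * (Γ - ∑ i, Real.sqrt (p i * q i)) := by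
    rw [Finset.sum_add_distrib, ← Finset.mul_sum, ← Finset.mul_sum, h2]
  have h4 : ∑ i, Real.sqrt (p i * q i) *
      (1 + ‖(q i)⁻¹ • A1 i - (p i)⁻¹ • A0 i‖ ^ 2 / (160 * M ^ 2)) =
      ∑ i, Real.sqrt (p i * q i)
        + (∑ i, Real.sqrt (p i * q i) * ‖(q i)⁻¹ • A1 i - (p i)⁻¹ • A0 i‖ ^ 2)
          / (160 * M ^ 2) := by
    rw [Finset.sum_div, ← Finset.sum_add_distrib]
    exact Finset.sum_congr rfl fun i _ => by ring
  rw [h3] at h1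
  rw [h4] at hPL
  set X := ∑ i, Real.sqrt (p i * q i) * ‖(q i)⁻¹ • A1 i - (p i)⁻¹ • A0 i‖ ^ 2 with hX
  set Sr := ∑ i, Real.sqrt (p i * q i) with hSr
  have hX0 : 0 ≤ X := Finset.sum_nonneg fun i _ => by positivity
  have hM2 : 0 < 160 * M ^ 2 := by positivity
  have h5 : X / (160 * M ^ 2) ≤ B := by linarith
  have h6 : X ≤ B * (160 * M ^ 2) := (div_le_iff₀ hM2).mp h5
  have hB0 : 0 ≤ B := le_trans (by positivity) h5
  have h7 : 22 * M ^ 2 * (Γ - Sr) ≤ 22 * M ^ 2 * B :=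
    mul_le_mul_of_nonneg_left hB (by positivity)
  have h8 : 0 ≤ M ^ 2 * B := by positivity
  nlinarith

end Vale.Agent.Lib.P074u
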