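import Vale.Agent.Lib.P074u.PLDefs

/-!
Prékopa–Leindler plus Jensen on cells: the Gaussian-weighted mass of a set containing all midpoints
of `A` and `B` dominates the geometric mean of the masses of `A` and `B`, with an exponential gain
governed by the difference of the weighted averages of an arbitrary Lipschitz tilt `q`.
-/

open MeasureTheory
open scoped ENNReal

namespace Vale.Agent.Lib.P074u

set_option linter.unusedSectionVars false

variable {X : Type*} [NormedAddCommGroup X] [InnerProductSpace ℝ X] [MeasurableSpace X]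
  [BorelSpace X]

/-- The Gaussian weight `exp (-K0 |x|^2 / 2)`. -/
noncomputable def gw (K0 : ℝ) (x : X) : ℝ := Real.exp (-(K0 * ‖x‖ ^ 2 / 2))

theorem gw_pos (K0 : ℝ) (x : X) : 0 < gw K0 x := Real.exp_pos _

theorem gw_le_one {K0 : ℝ} (hK0 : 0 ≤ K0) (x : X) : gw K0 x ≤ 1 := by
  unfold gw
  rw [Real.exp_le_one_iff]
  have : 0 ≤ K0 * ‖x‖ ^ 2 / 2 := by positivity
  linarith

theorem measurable_gw (K0 : ℝ) : Measurable (gw K0 : X → ℝ) := by
  unfold gw
  fun_prop

/-- the midpoint identity for the Gaussian weight -/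
theorem gw_mul_gw (K0 : ℝ) (x z : X) :
    gw K0 x * gw K0 z = gw K0 ((1 / 2 : ℝ) • (x + z)) ^ 2 * Real.exp (-(K0 * ‖z - x‖ ^ 2 / 4)) := by
  unfold gw
  rw [← Real.exp_add, ← Real.exp_nat_mul, ← Real.exp_add]
  congr 1
  have h1 : ‖(1 / 2 : ℝ) • (x + z)‖ ^ 2 = ‖x + z‖ ^ 2 / 4 := by
    rw [norm_smul, mul_pow]
    norm_num
    ring
  have h2 : ‖x + z‖ ^ 2 + ‖z - x‖ ^ 2 = 2 * (‖x‖ ^ 2 + ‖z‖ ^ 2) := by
    have := parallelogram_law_with_norm ℝ z x
    have h3 : z + x = x + z := add_comm _ _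
    rw [h3] at this
    nlinarith [this]
  rw [h1]
  push_cast
  linear_combination (K0 / 4) * h2

/-- Jensen for the exponential, by the tangent line inequality. -/
theorem jensen_exp (μ : Measure X) {s : Set X} (hs : MeasurableSet s) (hfin : μ s ≠ ⊤)
    {K0 : ℝ} (hK0 : 0 ≤ K0) {q : X → ℝ} (hqm : Measurable q) {M : ℝ}
    (hqb : ∀ x ∈ s, |q x| ≤ M) :
    (∫ x in s, gw K0 x ∂μ) *
        Real.exp ((∫ x in s, q x * gw K0 x ∂μ) / (∫ x in s, gw K0 x ∂μ)) ≤
      ∫ x in s, gw K0 x * Real.exp (q x) ∂μ := by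
  set p := ∫ x in s, gw K0 x ∂μ with hp
  set u0 := (∫ x in s, q x * gw K0 x ∂μ) / p with hu0
  have hM : ∀ᵐ x ∂(μ.restrict s), x ∈ s := ae_restrict_mem hs
  have iW : IntegrableOn (gw K0) s μ := by
    refine Measure.integrableOn_of_bounded (M := 1) hfin (measurable_gw K0).aestronglyMeasurable ?_
    filter_upwards with x
    rw [Real.norm_eq_abs, abs_of_pos (gw_pos K0 x)]
    exact gw_le_one hK0 x
  have iqW : IntegrableOn (fun x => q x * gw K0 x) s μ := by
    refine Measure.integrableOn_of_bounded (M := |M|) hfin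
      (hqm.mul (measurable_gw K0)).aestronglyMeasurable ?_
    filter_upwards [hM] with x hx
    rw [Real.norm_eq_abs, abs_mul, abs_of_pos (gw_pos K0 x)]
    calc |q x| * gw K0 x ≤ |M| * 1 :=
          mul_le_mul ((hqb x hx).trans (le_abs_self M)) (gw_le_one hK0 x) (gw_pos K0 x).le
            (abs_nonneg _)
      _ = |M| := mul_one _
  have iWe : IntegrableOn (fun x => gw K0 x * Real.exp (q x)) s μ := by
    refine Measure.integrableOn_of_bounded (M := Real.exp M) hfin
      ((measurable_gw K0).mul hqm.exp).aestronglyMeasurable ?_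
    filter_upwards [hM] with x hx
    rw [Real.norm_eq_abs, abs_mul, abs_of_pos (gw_pos K0 x), abs_of_pos (Real.exp_pos _)]
    calc gw K0 x * Real.exp (q x) ≤ 1 * Real.exp M :=
          mul_le_mul (gw_le_one hK0 x)
            (Real.exp_le_exp.mpr ((le_abs_self _).trans (hqb x hx))) (Real.exp_pos _).le
            zero_le_one
      _ = Real.exp M := one_mul _
  have hp0 : 0 ≤ p := setIntegral_nonneg hs (fun x _ => (gw_pos K0 x).le)
  rcases hp0.eq_or_lt with hp0 | hp0
  · rw [← hp0, zero_mul]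
    exact setIntegral_nonneg hs (fun x _ => (mul_pos (gw_pos K0 x) (Real.exp_pos _)).le)
  -- tangent line
  have key : ∀ x, Real.exp u0 * (q x * gw K0 x - u0 * gw K0 x + gw K0 x) ≤
      gw K0 x * Real.exp (q x) := by
    intro x
    have h1 : q x - u0 + 1 ≤ Real.exp (q x - u0) := Real.add_one_le_exp _
    have h2 : Real.exp (q x) = Real.exp u0 * Real.exp (q x - u0) := by
      rw [← Real.exp_add]; congr 1; ring
    rw [h2]
    have h3 : 0 < gw K0 x * Real.exp u0 := mul_pos (gw_pos K0 x) (Real.exp_pos _)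
    nlinarith [mul_le_mul_of_nonneg_left h1 h3.le]
  have hint : ∫ x in s, Real.exp u0 * (q x * gw K0 x - u0 * gw K0 x + gw K0 x) ∂μ =
      p * Real.exp u0 := by
    rw [integral_const_mul,
      integral_add (f := fun x => q x * gw K0 x - u0 * gw K0 x) (g := gw K0)
        (iqW.sub (iW.const_mul u0)) iW,
      integral_sub (f := fun x => q x * gw K0 x) (g := fun x => u0 * gw K0 x) iqW
        (iW.const_mul u0), integral_const_mul, ← hp]
    have : ∫ x in s, q x * gw K0 x ∂μ = u0 * p := by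
      rw [hu0]; field_simp
    rw [this]; ring
  rw [← hint]
  refine setIntegral_mono ?_ iWe key
  exact ((iqW.sub (iW.const_mul u0)).add iW).const_mul _

theorem integrableOn_gw_mul_exp (μ : Measure X) {s : Set X} (hs : MeasurableSet s)
    (hfin : μ s ≠ ⊤) {K0 : ℝ} (hK0 : 0 ≤ K0) {q : X → ℝ} (hqm : Measurable q) {M : ℝ}
    (hqb : ∀ x ∈ s, |q x| ≤ M) : IntegrableOn (fun x => gw K0 x * Real.exp (q x)) s μ := by
  have hM : ∀ᵐ x ∂(μ.restrict s), x ∈ s := ae_restrict_mem hs
  refine Measure.integrableOn_of_bounded (M := Real.exp M) hfin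
    ((measurable_gw K0).mul hqm.exp).aestronglyMeasurable ?_
  filter_upwards [hM] with x hx
  rw [Real.norm_eq_abs, abs_mul, abs_of_pos (gw_pos K0 x), abs_of_pos (Real.exp_pos _)]
  calc gw K0 x * Real.exp (q x) ≤ 1 * Real.exp M :=
        mul_le_mul (gw_le_one hK0 x)
          (Real.exp_le_exp.mpr ((le_abs_self _).trans (hqb x hx))) (Real.exp_pos _).le
          zero_le_one
    _ = Real.exp M := one_mul _

theorem integrableOn_gw (μ : Measure X) {s : Set X} (hfin : μ s ≠ ⊤) {K0 : ℝ} (hK0 : 0 ≤ K0) :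
    IntegrableOn (gw K0) s μ := by
  refine Measure.integrableOn_of_bounded (M := 1) hfin (measurable_gw K0).aestronglyMeasurable ?_
  filter_upwards with x
  rw [Real.norm_eq_abs, abs_of_pos (gw_pos K0 x)]
  exact gw_le_one hK0 x

/-- **Prékopa–Leindler plus Jensen on cells.** -/
theorem pl_jensen (μ : Measure X) (hPL : PLHalf X μ) {K0 L : ℝ} (hK0 : 0 < K0)
    {A B C : Set X} (hA : MeasurableSet A) (hB : MeasurableSet B) (hC : MeasurableSet C)
    (hAfin : μ A ≠ ⊤) (hBfin : μ B ≠ ⊤) (hCfin : μ C ≠ ⊤)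
    (hmid : ∀ x ∈ A, ∀ z ∈ B, (1 / 2 : ℝ) • (x + z) ∈ C)
    {q : X → ℝ} (hqm : Measurable q) {M : ℝ} (hqA : ∀ x ∈ A, |q x| ≤ M)
    (hqB : ∀ x ∈ B, |q x| ≤ M) (hq : ∀ x ∈ A, ∀ z ∈ B, q z - q x ≤ L * ‖z - x‖) :
    Real.sqrt ((∫ x in A, gw K0 x ∂μ) * (∫ x in B, gw K0 x ∂μ)) *
      Real.exp (((∫ x in B, q x * gw K0 x ∂μ) / (∫ x in B, gw K0 x ∂μ) -
        (∫ x in A, q x * gw K0 x ∂μ) / (∫ x in A, gw K0 x ∂μ)) / 2 - L ^ 2 / (2 * K0)) ≤
      ∫ x in C, gw K0 x ∂μ := by
  set c := L ^ 2 / (2 * K0) with hc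
  set p := ∫ x in A, gw K0 x ∂μ with hp
  set r := ∫ x in B, gw K0 x ∂μ with hr
  set EA := (∫ x in A, q x * gw K0 x ∂μ) / p with hEA
  set EB := (∫ x in B, q x * gw K0 x ∂μ) / r with hEB
  set IC := ∫ x in C, gw K0 x ∂μ with hIC
  have hp0 : 0 ≤ p := setIntegral_nonneg hA (fun x _ => (gw_pos K0 x).le)
  have hr0 : 0 ≤ r := setIntegral_nonneg hB (fun x _ => (gw_pos K0 x).le)
  have hIC0 : 0 ≤ IC := setIntegral_nonneg hC (fun x _ => (gw_pos K0 x).le)
  -- the three functions
  let fA : X → ℝ := fun x => gw K0 x * Real.exp (-q x) * Real.exp (-c)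
  let fB : X → ℝ := fun x => gw K0 x * Real.exp (q x) * Real.exp (-c)
  have fA0 : ∀ x, 0 ≤ fA x := fun x =>
    (mul_pos (mul_pos (gw_pos K0 x) (Real.exp_pos _)) (Real.exp_pos _)).le
  have fB0 : ∀ x, 0 ≤ fB x := fun x =>
    (mul_pos (mul_pos (gw_pos K0 x) (Real.exp_pos _)) (Real.exp_pos _)).le
  have mfA : Measurable fA := ((measurable_gw K0).mul hqm.neg.exp).mul_const _
  have mfB : Measurable fB := ((measurable_gw K0).mul hqm.exp).mul_const _
  have hpt : ∀ x z, A.indicator (fun x => ENNReal.ofReal (fA x)) x *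
      B.indicator (fun x => ENNReal.ofReal (fB x)) z ≤
      C.indicator (fun x => ENNReal.ofReal (gw K0 x)) ((1 / 2 : ℝ) • (x + z)) ^ 2 := by
    intro x z
    by_cases hx : x ∈ A
    · by_cases hz : z ∈ B
      · rw [Set.indicator_of_mem hx, Set.indicator_of_mem hz,
          Set.indicator_of_mem (hmid x hx z hz), ← ENNReal.ofReal_mul (fA0 x),
          ← ENNReal.ofReal_pow (gw_pos K0 _).le]
        apply ENNReal.ofReal_le_ofReal
        have h1 : fA x * fB z = (gw K0 x * gw K0 z) * Real.exp (q z - q x - 2 * c) := by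
          have : Real.exp (q z - q x - 2 * c) =
              Real.exp (-q x) * Real.exp (-c) * (Real.exp (q z) * Real.exp (-c)) := by
            rw [← Real.exp_add, ← Real.exp_add, ← Real.exp_add]; congr 1; ring
          rw [this]; simp only [fA, fB]; ring
        rw [h1, gw_mul_gw, mul_assoc, ← Real.exp_add]
        have h2 : -(K0 * ‖z - x‖ ^ 2 / 4) + (q z - q x - 2 * c) ≤ 0 := by
          have h3 := hq x hx z hz
          have h4 : L * ‖z - x‖ ≤ K0 * ‖z - x‖ ^ 2 / 4 + L ^ 2 / K0 := by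
            have h5 : 0 ≤ (K0 * ‖z - x‖ / 2 - L) ^ 2 / K0 := by positivity
            have h6 : (K0 * ‖z - x‖ / 2 - L) ^ 2 / K0 =
                K0 * ‖z - x‖ ^ 2 / 4 + L ^ 2 / K0 - L * ‖z - x‖ := by
              field_simp; ring
            linarith
          have h7 : 2 * c = L ^ 2 / K0 := by rw [hc]; field_simp
          linarith
        calc gw K0 ((1 / 2 : ℝ) • (x + z)) ^ 2 *
              Real.exp (-(K0 * ‖z - x‖ ^ 2 / 4) + (q z - q x - 2 * c))
            ≤ gw K0 ((1 / 2 : ℝ) • (x + z)) ^ 2 * 1 :=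
              mul_le_mul_of_nonneg_left (Real.exp_le_one_iff.mpr h2) (by positivity)
          _ = _ := mul_one _
      · rw [Set.indicator_of_notMem hz, mul_zero]; exact bot_le
    · rw [Set.indicator_of_notMem hx, zero_mul]; exact bot_le
  have hpl := hPL _ _ _ (mfA.ennreal_ofReal.indicator hA) (mfB.ennreal_ofReal.indicator hB)
    ((measurable_gw K0).ennreal_ofReal.indicator hC) hpt
  have hqA' : ∀ x ∈ A, |(fun x => -q x) x| ≤ M := fun x hx => by
    simpa [abs_neg] using hqA x hx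
  have iA : IntegrableOn fA A μ :=
    (integrableOn_gw_mul_exp μ hA hAfin hK0.le hqm.neg hqA').mul_const _
  have iB : IntegrableOn fB B μ :=
    (integrableOn_gw_mul_exp μ hB hBfin hK0.le hqm hqB).mul_const _
  have iC : IntegrableOn (gw K0) C μ := integrableOn_gw μ hCfin hK0.le
  rw [lintegral_indicator hA, lintegral_indicator hB, lintegral_indicator hC,
    ← ofReal_integral_eq_lintegral_ofReal iA (Filter.Eventually.of_forall fA0),
    ← ofReal_integral_eq_lintegral_ofReal iB (Filter.Eventually.of_forall fB0),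
    ← ofReal_integral_eq_lintegral_ofReal iC (Filter.Eventually.of_forall
      (fun x => (gw_pos K0 x).le)),
    ← ENNReal.ofReal_mul (setIntegral_nonneg hA (fun x _ => fA0 x)),
    ← ENNReal.ofReal_pow hIC0, ENNReal.ofReal_le_ofReal_iff (by positivity)] at hpl
  -- Jensen
  have jA := jensen_exp μ hA hAfin hK0.le (q := fun x => -q x) hqm.neg hqA'
  have jB := jensen_exp μ hB hBfin hK0.le hqm hqB
  have eA : (∫ x in A, -q x * gw K0 x ∂μ) / p = -EA := by
    rw [hEA, ← neg_div, ← integral_neg]; simp only [neg_mul]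
  rw [← hp, eA] at jA
  rw [← hr, ← hEB] at jB
  have IA : ∫ x in A, fA x ∂μ = (∫ x in A, gw K0 x * Real.exp (-q x) ∂μ) * Real.exp (-c) :=
    integral_mul_const _ _
  have IB : ∫ x in B, fB x ∂μ = (∫ x in B, gw K0 x * Real.exp (q x) ∂μ) * Real.exp (-c) :=
    integral_mul_const _ _
  rw [IA, IB] at hpl
  have hsq : (Real.sqrt (p * r) * Real.exp ((EB - EA) / 2 - c)) ^ 2 ≤ IC ^ 2 := by
    have e1 : (Real.sqrt (p * r) * Real.exp ((EB - EA) / 2 - c)) ^ 2 =
        (p * Real.exp (-EA) * Real.exp (-c)) * (r * Real.exp EB * Real.exp (-c)) := by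
      rw [mul_pow, Real.sq_sqrt (mul_nonneg hp0 hr0), ← Real.exp_nat_mul]
      have : Real.exp (((2 : ℕ) : ℝ) * ((EB - EA) / 2 - c)) =
          Real.exp (-EA) * Real.exp (-c) * (Real.exp EB * Real.exp (-c)) := by
        rw [← Real.exp_add, ← Real.exp_add, ← Real.exp_add]; congr 1; push_cast; ring
      rw [this]; ring
    rw [e1]
    refine le_trans ?_ hpl
    have hc0 : 0 < Real.exp (-c) := Real.exp_pos _
    apply mul_le_mul (mul_le_mul_of_nonneg_right jA hc0.le)
      (mul_le_mul_of_nonneg_right jB hc0.le)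
    · positivity
    · exact mul_nonneg (setIntegral_nonneg hA (fun x _ =>
        (mul_pos (gw_pos K0 x) (Real.exp_pos _)).le)) hc0.le
  exact (pow_le_pow_iff_left₀ (by positivity) hIC0 two_ne_zero).mp hsq

end Vale.Agent.Lib.P074u
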