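import Vale.Agent.Lib.P074u.PL
import Vale.Agent.Lib.P074u.PLJensen

open MeasureTheory
open scoped NNReal RealInnerProductSpace

namespace Vale.Agent.Lib.P074u

open Vale.Agent.Lib.P074q (E)
open Vale.Agent.Lib.P074b (unif)

variable {d : ℕ}

lemma setIntegral_unif {K V : Set (E d)} (hV : MeasurableSet V) (f : E d → ℝ) :
    ∫ x in V, f x ∂(unif K) = ((volume K)⁻¹).toReal * ∫ x in V ∩ K, f x := by
  unfold unif
  rw [Measure.restrict_smul, integral_smul_measure, Measure.restrict_restrict hV, smul_eq_mul]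

/-- Prekopa-Leindler on a triple of sets with the Gaussian weight and a Lipschitz test function
`l` (dual pair `a = l + L²/(2 K0)`, `b = -l + L²/(2 K0)`), followed by Jensen. -/
theorem cell_PL {K : Set (E d)} (hK : IsCompact K) (hKc : Convex ℝ K)
    (hKi : (interior K).Nonempty) {K0 : ℝ} (hK0 : 0 < K0) {V0 V1 Vh : Set (E d)}
    (h0 : MeasurableSet V0) (h1 : MeasurableSet V1) (hh : MeasurableSet Vh)
    (hmid : ∀ x ∈ V0, ∀ x' ∈ V1, (1 / 2 : ℝ) • (x + x') ∈ Vh)
    (l : E d → ℝ) (hl : Continuous l) {L : ℝ}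
    (hL : ∀ x ∈ K, ∀ x' ∈ K, l x' - l x ≤ L * ‖x - x'‖)
    (hp : 0 < ∫ x in V0, gam K0 x ∂(unif K)) (hq : 0 < ∫ x in V1, gam K0 x ∂(unif K)) :
    Real.sqrt ((∫ x in V0, gam K0 x ∂(unif K)) * (∫ x in V1, gam K0 x ∂(unif K))) *
      Real.exp (((∫ x in V1, gam K0 x * l x ∂(unif K)) / (∫ x in V1, gam K0 x ∂(unif K))
        - (∫ x in V0, gam K0 x * l x ∂(unif K)) / (∫ x in V0, gam K0 x ∂(unif K))) / 2
        - L ^ 2 / (2 * K0))
      ≤ ∫ x in Vh, gam K0 x ∂(unif K) := by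
  have hKm : MeasurableSet K := hK.measurableSet
  have hv0 : volume K ≠ 0 := (Measure.measure_pos_of_nonempty_interior volume hKi).ne'
  have hvT : volume K ≠ ⊤ := hK.measure_lt_top.ne
  have hκ : 0 < ((volume K)⁻¹).toReal :=
    ENNReal.toReal_pos (ENNReal.inv_ne_zero.mpr hvT) (ENNReal.inv_ne_top.mpr hv0)
  obtain ⟨M, hM⟩ := hK.exists_bound_of_continuousOn hl.continuousOn
  have fin : ∀ V : Set (E d), volume (V ∩ K) ≠ ⊤ := fun V =>
    ((measure_mono Set.inter_subset_right).trans_lt hK.measure_lt_top).ne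
  have key := pl_jensen (volume : Measure (E d)) (plHalf_E d) hK0 (h0.inter hKm) (h1.inter hKm)
    (hh.inter hKm) (fin V0) (fin V1) (fin Vh)
    (fun x hx z hz => ⟨hmid x hx.1 z hz.1, by
      have := hKc hx.2 hz.2 (by norm_num : (0 : ℝ) ≤ 1 / 2) (by norm_num : (0 : ℝ) ≤ 1 / 2)
        (by norm_num)
      rwa [← smul_add] at this⟩)
    hl.measurable (M := M) (fun x hx => by simpa using hM x hx.2)
    (fun x hx => by simpa using hM x hx.2) (L := L)
    (fun x hx z hz => by rw [norm_sub_rev]; exact hL x hx.2 z hz.2)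
  rw [setIntegral_unif h0, setIntegral_unif h1, setIntegral_unif hh, setIntegral_unif h0,
    setIntegral_unif h1]
  have eg : ∀ V : Set (E d), ∫ x in V ∩ K, gam K0 x = ∫ x in V ∩ K, gw K0 x := fun V => rfl
  have el : ∀ V : Set (E d), ∫ x in V ∩ K, gam K0 x * l x = ∫ x in V ∩ K, l x * gw K0 x := by
    intro V
    congr 1
    funext x
    exact mul_comm _ _
  rw [eg, eg, eg, el, el]
  set κ : ℝ := ((volume K)⁻¹).toReal
  set p : ℝ := ∫ x in V0 ∩ K, gw K0 x
  set q : ℝ := ∫ x in V1 ∩ K, gw K0 x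
  rw [mul_div_mul_left _ _ hκ.ne', mul_div_mul_left _ _ hκ.ne']
  have es : Real.sqrt (κ * p * (κ * q)) = κ * Real.sqrt (p * q) := by
    rw [show κ * p * (κ * q) = κ ^ 2 * (p * q) by ring, Real.sqrt_mul (by positivity),
      Real.sqrt_sq hκ.le]
  rw [es, mul_assoc]
  exact mul_le_mul_of_nonneg_left key hκ.le

end Vale.Agent.Lib.P074u
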