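import Vale.Agent.Lib.P074t.ExistDisc
import Vale.Agent.Lib.P074t.ChainAux20
import Vale.Agent.Lib.P074t.ChainAux19
import Vale.Agent.Lib.P074t.ChainFinal20
import Vale.Agent.Lib.P074e.DPrelim
import Vale.Agent.Lib.P074q.Main

/-!
From the discrete one-coordinate step (quadratic in the displacement) to the bound against an
arbitrary coupling, in every dimension at least two.
-/

open MeasureTheory
open scoped NNReal RealInnerProductSpace

namespace Vale.Agent.Lib.P074u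

open Vale.Agent.Lib.P074q (E PotPair Tight)
open Vale.Agent.Lib.P074b (unif IsOTMap Admissible)
open Vale.Agent.Lib.P074t (exists_discrete exists_offsets20 exists_quantiser20
  measurable_comp_label map_label_singleton ae_map_label_mem_range subgrad_of_diagram
  admissible_third_of_key)

variable {d : ℕ}

/-- The discrete step: the atoms are moved in the coordinate `j0` only, the coordinate `j1` is
injective, the cells have equal masses. -/
def StepProp (K : Set (E d)) (R C : ℝ≥0) : Prop :=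
  ∀ (ι : Type) [Fintype ι] [Nonempty ι] (j0 j1 : Fin d), j0 ≠ j1 →
    ∀ (P P' : ι → E d) (w w' : ι → ℝ), (∀ i, ‖P i‖ ≤ R) → (∀ i, ‖P' i‖ ≤ R) →
    (∀ i j, j ≠ j0 → P i j = P' i j) → Function.Injective (fun i => P i j1) →
    ∀ T S : E d → E d, Measurable T → Measurable S →
    (∀ᵐ x ∂(unif K), ∃ i, T x = P i ∧ ∀ j, ⟪x, P j⟫ - w j ≤ ⟪x, P i⟫ - w i) →
    (∀ᵐ x ∂(unif K), ∃ i, S x = P' i ∧ ∀ j, ⟪x, P' j⟫ - w' j ≤ ⟪x, P' i⟫ - w' i) →
    (∀ i, unif K {x | ∀ j, ⟪x, P j⟫ - w j ≤ ⟪x, P i⟫ - w i} =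
      unif K {x | ∀ j, ⟪x, P' j⟫ - w' j ≤ ⟪x, P' i⟫ - w' i}) →
    eLpNorm (fun x => T x - S x) 2 (unif K) ≤
      C * (∑ i, unif K {x | ∀ j, ⟪x, P j⟫ - w j ≤ ⟪x, P i⟫ - w i} *
        ENNReal.ofReal ((P i j0 - P' i j0) ^ 2)) ^ (1 / 6 : ℝ)

lemma abs_coord_le_norm (v : E d) (j : Fin d) : |v j| ≤ ‖v‖ := by
  have h := PiLp.norm_apply_le v j
  simpa using h

lemma norm_le_of_coord_le (v : E d) {B : ℝ} (hB : 0 ≤ B) (h : ∀ j, |v j| ≤ B) :
    ‖v‖ ≤ d * B := by
  have h1 : ‖v‖ ^ 2 ≤ (d * B) ^ 2 := by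
    rw [EuclideanSpace.norm_sq_eq]
    have h2 : ∑ j, ‖v j‖ ^ 2 ≤ ∑ _j : Fin d, B ^ 2 := by
      apply Finset.sum_le_sum
      intro j _
      rw [Real.norm_eq_abs]
      exact pow_le_pow_left₀ (abs_nonneg _) (h j) 2
    refine h2.trans ?_
    rw [Finset.sum_const, Finset.card_univ, Fintype.card_fin, nsmul_eq_mul, mul_pow]
    rcases Nat.eq_zero_or_pos d with h0 | h0
    · simp [h0]
    · have : (1 : ℝ) ≤ d := by exact_mod_cast h0
      have hB2 : 0 ≤ B ^ 2 := by positivity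
      have hd2 : (d : ℝ) ≤ (d : ℝ) ^ 2 := by nlinarith
      exact mul_le_mul_of_nonneg_right hd2 hB2
  exact abs_le_of_sq_le_sq' h1 (by positivity) |>.2

/-- A map which is a.e. a subgradient of some function on `K`, with prescribed image measure. -/
def SubG (K : Set (E d)) (μ : Measure (E d)) (T : E d → E d) : Prop :=
  Measurable T ∧ (unif K).map T = μ ∧
    ∃ φ : E d → ℝ, ∀ᵐ x ∂(unif K), ∀ z ∈ K, φ x + ⟪T x, z - x⟫ ≤ φ z

theorem subG_of_isOTMap {K : Set (E d)} (hK : IsCompact K) (hKi : (interior K).Nonempty)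
    {Y : Set (E d)} (hY : IsCompact Y) (hYne : Y.Nonempty) (μ : Measure (E d))
    [IsProbabilityMeasure μ]
    (hμY : ∀ᵐ y ∂μ, y ∈ Y) (T : E d → E d) (hT : IsOTMap (unif K) μ T) : SubG K μ T := by
  obtain ⟨M0, hM0⟩ := hK.isBounded.exists_norm_le
  obtain ⟨R0, hR0⟩ := hY.isBounded.exists_norm_le
  have hKM : ∀ z ∈ K, ‖z‖ ≤ (M0.toNNReal : ℝ) :=
    fun z hz => (hM0 z hz).trans (Real.le_coe_toNNReal M0)
  have hYR : ∀ y ∈ Y, ‖y‖ ≤ (R0.toNNReal : ℝ) :=
    fun y hy => (hR0 y hy).trans (Real.le_coe_toNNReal R0)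
  have hv0 : volume K ≠ 0 := (Measure.measure_pos_of_nonempty_interior volume hKi).ne'
  obtain ⟨a, b, hp, ht⟩ :=
    Vale.Agent.Lib.P074q.potPair_of_isOTMap hK hv0 hY hYne hKM hYR μ hμY T hT
  refine ⟨hT.1, hT.2.1, a, ?_⟩
  have hTY : ∀ᵐ x ∂(unif K), T x ∈ Y := by
    have h := hμY
    rw [← hT.2.1] at h
    exact (ae_map_iff hT.1.aemeasurable hY.measurableSet).mp h
  filter_upwards [hTY, ht] with x hx1 hx2 z _
  have h1 := hp.fy z (T x) hx1
  rw [inner_sub_right, real_inner_comm z (T x), real_inner_comm x (T x)]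
  linarith

theorem subG_of_discrete {K : Set (E d)} {ι : Type} [Fintype ι] [Nonempty ι] (P : ι → E d)
    (w : ι → ℝ) (μ : Measure (E d)) (T : E d → E d) (hT : Measurable T)
    (hmap : (unif K).map T = μ)
    (h : ∀ᵐ x ∂(unif K), ∃ i, T x = P i ∧ ∀ j, ⟪x, P j⟫ - w j ≤ ⟪x, P i⟫ - w i) :
    SubG K μ T :=
  ⟨hT, hmap, subgrad_of_diagram (unif K) K P w T h⟩

/-- The Hölder one quarter step, for images of one probability measure. -/
theorem quarter_step (K : Set (E d)) (hK : IsCompact K) (hKi : (interior K).Nonempty)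
    (Yt : Set (E d)) (hYt : IsCompact Yt) (hYtne : Yt.Nonempty) :
    ∃ C : ℝ≥0, ∀ (π : Measure (E d × E d)), IsProbabilityMeasure π →
      ∀ F G : E d × E d → E d, Measurable F → Measurable G →
      (∀ᵐ p ∂π, F p ∈ Yt) → (∀ᵐ p ∂π, G p ∈ Yt) →
      ∀ T S : E d → E d, SubG K (π.map F) T → SubG K (π.map G) S →
      ∀ x : ℝ, 0 ≤ x → (∫⁻ p, ENNReal.ofReal ‖F p - G p‖ ∂π ≤ ENNReal.ofReal ((2 * x) ^ 4)) →
      eLpNorm (fun z => T z - S z) 2 (unif K) ≤ C * (2 * ENNReal.ofReal x) := by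
  obtain ⟨C, hC⟩ := Vale.Agent.Lib.P074q.stability_of_subgradient_maps d K hK hKi Yt hYt hYtne
  refine ⟨C, ?_⟩
  intro π hπ F G hF hG hFY hGY T S hT hS x hx hW
  have h1 := hC (π.map F) (π.map G) (Measure.isProbabilityMeasure_map hF.aemeasurable)
    (Measure.isProbabilityMeasure_map hG.aemeasurable)
    ((ae_map_iff hF.aemeasurable hYt.measurableSet).mpr hFY)
    ((ae_map_iff hG.aemeasurable hYt.measurableSet).mpr hGY)
    T S hT.1 hS.1 hT.2.1 hS.2.1 hT.2.2 hS.2.2
  refine h1.trans ?_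
  have h2 : Vale.Agent.Lib.P074c.Wass 1 (π.map F) (π.map G) ≤ ENNReal.ofReal ((2 * x) ^ 4) :=
    (Vale.Agent.Lib.P074e.wass_one_map_map_le π hF hG).trans hW
  have h3 : ENNReal.ofReal ((2 * x) ^ 4) ^ (1 / 4 : ℝ) = 2 * ENNReal.ofReal x := by
    rw [ENNReal.ofReal_rpow_of_nonneg (by positivity) (by norm_num)]
    have := Real.pow_rpow_inv_natCast (x := 2 * x) (by positivity) (n := 4) (by norm_num)
    rw [show (1 / 4 : ℝ) = ((4 : ℕ) : ℝ)⁻¹ by norm_num, this,
      ENNReal.ofReal_mul (by norm_num)]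
    simp
  rw [← h3]
  gcongr

/-- Power diagram for the image of a probability measure under a finitely valued map. -/
theorem exists_discrete_label (K : Set (E d)) (hK : IsCompact K) (hKi : (interior K).Nonempty)
    (π : Measure (E d × E d)) [IsProbabilityMeasure π] (ι : Type) [Fintype ι] [Nonempty ι]
    [MeasurableSpace ι] [MeasurableSingletonClass ι] (label : E d × E d → ι)
    (hl : Measurable label) (P : ι → E d) (hP : Function.Injective P) :
    ∃ (T : E d → E d) (w : ι → ℝ), Measurable T ∧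
      (unif K).map T = π.map (fun p => P (label p)) ∧
      (∀ᵐ x ∂(unif K), ∃ i, T x = P i ∧ ∀ j, ⟪x, P j⟫ - w j ≤ ⟪x, P i⟫ - w i) ∧
      (∀ i, unif K {x | ∀ j, ⟪x, P j⟫ - w j ≤ ⟪x, P i⟫ - w i} = π (label ⁻¹' {i})) := by
  have hm : Measurable (fun p => P (label p)) := measurable_comp_label hl P
  have hprob : IsProbabilityMeasure (π.map (fun p => P (label p))) :=
    Measure.isProbabilityMeasure_map hm.aemeasurable
  obtain ⟨T, w, hT, hmap, hae, hmass⟩ := exists_discrete K hK hKi ι P hP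
    (π.map (fun p => P (label p))) (ae_map_label_mem_range π hl P)
  refine ⟨T, w, hT, hmap, hae, fun i => ?_⟩
  rw [hmass i, map_label_singleton π hl hP i]

/-- Integration of the pointwise bound. -/
lemma lintegral_bound (π : Measure (E d × E d)) [IsProbabilityMeasure π]
    (f : E d × E d → ℝ) {A B cr : ℝ} (hA : 0 ≤ A) (hB : 0 ≤ B)
    (hc : ∫⁻ p, ENNReal.ofReal (‖p.1 - p.2‖ ^ 2) ∂π = ENNReal.ofReal cr)
    (hf : ∀ᵐ p ∂π, f p ≤ A + B * ‖p.1 - p.2‖ ^ 2) :
    ∫⁻ p, ENNReal.ofReal (f p) ∂π ≤ ENNReal.ofReal A + ENNReal.ofReal B * ENNReal.ofReal cr := by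
  have h1 : ∫⁻ p, ENNReal.ofReal (f p) ∂π ≤
      ∫⁻ p, (ENNReal.ofReal A + ENNReal.ofReal B * ENNReal.ofReal (‖p.1 - p.2‖ ^ 2)) ∂π := by
    apply lintegral_mono_ae
    filter_upwards [hf] with p hp
    rw [← ENNReal.ofReal_mul hB, ← ENNReal.ofReal_add hA (by positivity)]
    exact ENNReal.ofReal_le_ofReal hp
  refine h1.trans (le_of_eq ?_)
  rw [lintegral_add_left measurable_const, lintegral_const_mul _ (by fun_prop), hc,
    lintegral_const, measure_univ, mul_one]

/-- A finite sum against the masses of the labels is an integral. -/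
lemma sum_label_eq_lintegral (π : Measure (E d × E d)) (ι : Type) [Fintype ι]
    [MeasurableSpace ι] [MeasurableSingletonClass ι] (label : E d × E d → ι)
    (hl : Measurable label) (g : ι → ENNReal) :
    ∑ i, π (label ⁻¹' {i}) * g i = ∫⁻ p, g (label p) ∂π := by
  have h1 : ∫⁻ p, g (label p) ∂π = ∫⁻ i, g i ∂(π.map label) :=
    (lintegral_map (Measurable.of_discrete) hl).symm
  rw [h1, lintegral_fintype]
  apply Finset.sum_congr rfl
  intro i _
  rw [Measure.map_apply hl (measurableSet_singleton i), mul_comm]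

lemma ofReal_pow_rpow_inv {y : ℝ} (hy : 0 ≤ y) (n : ℕ) (hn : n ≠ 0) :
    ENNReal.ofReal (y ^ n) ^ (1 / (n : ℝ)) = ENNReal.ofReal y := by
  rw [ENNReal.ofReal_rpow_of_nonneg (by positivity) (by positivity)]
  congr 1
  rw [one_div]
  exact Real.pow_rpow_inv_natCast hy hn

lemma eLpNorm_tri {ρ : Measure (E d)} {A B C : E d → E d} (hA : Measurable A) (hB : Measurable B)
    (hC : Measurable C) :
    eLpNorm (fun x => A x - C x) 2 ρ ≤
      eLpNorm (fun x => A x - B x) 2 ρ + eLpNorm (fun x => B x - C x) 2 ρ := by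
  have : (fun x => A x - C x) = (fun x => A x - B x) + (fun x => B x - C x) := by
    funext x
    simp
  rw [this]
  exact eLpNorm_add_le (hA.sub hB).aestronglyMeasurable (hB.sub hC).aestronglyMeasurable
    (by norm_num)

/-- The chain through `d + 1` finitely supported measures. -/
theorem chain_discrete (hd : 2 ≤ d) (K : Set (E d)) (hK : IsCompact K)
    (hKi : (interior K).Nonempty) (Rt C2 : ℝ≥0) (hstep : StepProp K Rt C2) :
    ∃ C1 : ℝ≥0, ∀ (π : Measure (E d × E d)), IsProbabilityMeasure π →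
      ∀ (ι : Type) [Fintype ι] [Nonempty ι] [MeasurableSpace ι] [MeasurableSingletonClass ι]
      (label : E d × E d → ι), Measurable label → ∀ (Q : ℕ → ι → E d),
      (∀ k i, ‖Q k i‖ ≤ Rt) →
      (∀ k (hk : k < d) i j, j ≠ ⟨k, hk⟩ → Q k i j = Q (k + 1) i j) →
      (∀ k j, Function.Injective (fun i => Q k i j)) →
      ∀ x : ℝ, 0 < x →
      (∀ k (hk : k < d), ∫⁻ p, ENNReal.ofReal
        ((Q k (label p) ⟨k, hk⟩ - Q (k + 1) (label p) ⟨k, hk⟩) ^ 2) ∂π ≤
          ENNReal.ofReal ((2 * x) ^ 6)) →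
      ∀ T S : E d → E d, SubG K (π.map Prod.fst) T → SubG K (π.map Prod.snd) S →
      (∀ᵐ p ∂π, p.1 ∈ Metric.closedBall (0 : E d) Rt) →
      (∀ᵐ p ∂π, p.2 ∈ Metric.closedBall (0 : E d) Rt) →
      (∫⁻ p, ENNReal.ofReal ‖p.1 - Q 0 (label p)‖ ∂π ≤ ENNReal.ofReal ((2 * x) ^ 4)) →
      (∫⁻ p, ENNReal.ofReal ‖Q d (label p) - p.2‖ ∂π ≤ ENNReal.ofReal ((2 * x) ^ 4)) →
      eLpNorm (fun z => T z - S z) 2 (unif K) ≤
        (4 * C1 + 2 * d * C2 : ℝ≥0) * ENNReal.ofReal x := by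
  obtain ⟨C1, hC1⟩ := quarter_step K hK hKi (Metric.closedBall 0 Rt) (isCompact_closedBall _ _)
    ⟨0, by simp⟩
  refine ⟨C1, ?_⟩
  intro π hπ ι _ _ _ _ label hl Q hn hsame hinj x hx hcost T S hT hS hY1 hY2 hW0 hWd
  have hQ : ∀ k, Function.Injective (Q k) := fun k i j h =>
    hinj k ⟨0, by omega⟩ (congrArg (fun v : E d => v ⟨0, by omega⟩) h)
  choose Tk wk hTm hTmap hTae hTmass using
    fun k => exists_discrete_label K hK hKi π ι label hl (Q k) (hQ k)
  have hs : ∀ k, SubG K (π.map fun p => Q k (label p)) (Tk k) :=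
    fun k => subG_of_discrete (Q k) (wk k) _ (Tk k) (hTm k) (hTmap k) (hTae k)
  have hmP : ∀ P : ι → E d, Measurable (fun p => P (label p)) :=
    fun P => (Measurable.of_discrete (f := P)).comp hl
  have e1 : eLpNorm (fun z => T z - Tk 0 z) 2 (unif K) ≤ C1 * (2 * ENNReal.ofReal x) :=
    hC1 π hπ Prod.fst (fun p => Q 0 (label p)) measurable_fst (hmP _) hY1
      (Filter.Eventually.of_forall fun p => by simpa using hn 0 _) T (Tk 0) hT (hs 0) x hx.le hW0
  have e3 : eLpNorm (fun z => Tk d z - S z) 2 (unif K) ≤ C1 * (2 * ENNReal.ofReal x) :=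
    hC1 π hπ (fun p => Q d (label p)) Prod.snd (hmP _) measurable_snd
      (Filter.Eventually.of_forall fun p => by simpa using hn d _) hY2 (Tk d) S (hs d) hS x hx.le
      hWd
  have estep : ∀ k, k < d → eLpNorm (fun z => Tk k z - Tk (k + 1) z) 2 (unif K) ≤
      C2 * (2 * ENNReal.ofReal x) := by
    intro k hk
    obtain ⟨j1, hj1⟩ : ∃ j1 : Fin d, (⟨k, hk⟩ : Fin d) ≠ j1 := by
      by_cases h0 : k = 0
      · exact ⟨⟨1, by omega⟩, by simp [Fin.ext_iff, h0]⟩
      · exact ⟨⟨0, by omega⟩, by simp [Fin.ext_iff, h0]⟩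
    have h1 := hstep ι ⟨k, hk⟩ j1 hj1 (Q k) (Q (k + 1)) (wk k) (wk (k + 1)) (hn k) (hn (k + 1))
      (hsame k hk) (hinj k j1) (Tk k) (Tk (k + 1)) (hTm k) (hTm (k + 1)) (hTae k) (hTae (k + 1))
      (fun i => by rw [hTmass, hTmass])
    refine h1.trans ?_
    have h2 : ∑ i, unif K {x | ∀ j, ⟪x, Q k j⟫ - wk k j ≤ ⟪x, Q k i⟫ - wk k i} *
        ENNReal.ofReal ((Q k i ⟨k, hk⟩ - Q (k + 1) i ⟨k, hk⟩) ^ 2) ≤
        ENNReal.ofReal ((2 * x) ^ 6) := by
      refine le_trans (le_of_eq ?_) (hcost k hk)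
      rw [← sum_label_eq_lintegral π ι label hl
        (fun i => ENNReal.ofReal ((Q k i ⟨k, hk⟩ - Q (k + 1) i ⟨k, hk⟩) ^ 2))]
      apply Finset.sum_congr rfl
      intro i _
      rw [hTmass]
    have h3 : ENNReal.ofReal ((2 * x) ^ 6) ^ (1 / 6 : ℝ) = 2 * ENNReal.ofReal x := by
      have := ofReal_pow_rpow_inv (y := 2 * x) (by positivity) 6 (by norm_num)
      rw [ENNReal.ofReal_mul (by norm_num)] at this
      simpa using this
    rw [← h3]
    gcongr
  have eind : ∀ n, n ≤ d → eLpNorm (fun z => Tk 0 z - Tk n z) 2 (unif K) ≤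
      n * (C2 * (2 * ENNReal.ofReal x)) := by
    intro n
    induction n with
    | zero =>
      intro _
      simp
    | succ n ih =>
      intro hn'
      refine (eLpNorm_tri (hTm 0) (hTm n) (hTm (n + 1))).trans ?_
      refine (add_le_add (ih (by omega)) (estep n (by omega))).trans (le_of_eq ?_)
      push_cast
      ring
  refine (eLpNorm_tri hT.1 (hTm 0) hS.1).trans ?_
  refine (add_le_add e1 (eLpNorm_tri (hTm 0) (hTm d) hS.1)).trans ?_
  refine (add_le_add le_rfl (add_le_add (eind d le_rfl) e3)).trans (le_of_eq ?_)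
  push_cast
  ring

/-- The interpolating sites: the first `k` coordinates are taken from `b`, the others from `a`,
and everything is shifted by `o`. -/
noncomputable def mix (k : ℕ) (a b : E d) (o : ℝ) : E d :=
  WithLp.toLp 2 (fun j : Fin d => (if (j : ℕ) < k then b j else a j) + o)

@[simp] lemma mix_apply (k : ℕ) (a b : E d) (o : ℝ) (j : Fin d) :
    mix k a b o j = (if (j : ℕ) < k then b j else a j) + o := rfl

lemma norm_sub_mix_zero_le (v a b : E d) {o η : ℝ} (hη : 0 ≤ η) (h : ‖v - a‖ ≤ η) (ho : 0 ≤ o)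
    (ho' : o ≤ η) : ‖v - mix 0 a b o‖ ≤ d * (2 * η) := by
  apply norm_le_of_coord_le _ (by positivity)
  intro j
  have h0 := (abs_coord_le_norm (v - a) j).trans h
  simp only [PiLp.sub_apply, mix_apply, not_lt_zero, if_false] at h0 ⊢
  rw [abs_le] at h0 ⊢
  constructor <;> linarith [h0.1, h0.2]

lemma norm_mix_top_sub_le (v a b : E d) {o η : ℝ} (hη : 0 ≤ η) (h : ‖v - b‖ ≤ η) (ho : 0 ≤ o)
    (ho' : o ≤ η) : ‖mix d a b o - v‖ ≤ d * (2 * η) := by
  apply norm_le_of_coord_le _ (by positivity)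
  intro j
  have h0 := (abs_coord_le_norm (v - b) j).trans h
  simp only [PiLp.sub_apply, mix_apply, j.isLt, if_true] at h0 ⊢
  rw [abs_le] at h0 ⊢
  constructor <;> linarith [h0.1, h0.2]

/-- The bound against an arbitrary coupling, from the discrete step. -/
theorem key_bound_all (hd : 2 ≤ d) (K : Set (E d)) (hK : IsCompact K)
    (hKi : (interior K).Nonempty) (hstep : ∀ R : ℝ≥0, ∃ C : ℝ≥0, StepProp K R C)
    (Y : Set (E d)) (hY : IsCompact Y) (hYne : Y.Nonempty) :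
    ∃ C : ℝ≥0, ∀ μ ν : Measure (E d), IsProbabilityMeasure μ → IsProbabilityMeasure ν →
      (∀ᵐ y ∂μ, y ∈ Y) → (∀ᵐ y ∂ν, y ∈ Y) →
      ∀ T S : E d → E d, IsOTMap (unif K) μ T → IsOTMap (unif K) ν S →
      ∀ π : Measure (E d × E d), π.fst = μ → π.snd = ν →
      eLpNorm (fun x => T x - S x) 2 (unif K) ≤
        C * (∫⁻ p, ENNReal.ofReal (‖p.1 - p.2‖ ^ 2) ∂π) ^ (1 / 6 : ℝ) := by
  classical
  have hd0 : (0 : ℝ) < d := by
    have : 0 < d := by omega
    exact_mod_cast this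
  have hd1 : (1 : ℝ) ≤ d := by
    have : 1 ≤ d := by omega
    exact_mod_cast this
  obtain ⟨R0, hR0⟩ := hY.isBounded.exists_norm_le
  have hR0nn : 0 ≤ R0 := (norm_nonneg _).trans (hR0 _ hYne.some_mem)
  obtain ⟨Rt, hRt⟩ : ∃ Rt : ℝ≥0, (Rt : ℝ) = d * (R0 + 1) :=
    ⟨(d * (R0 + 1)).toNNReal, Real.coe_toNNReal _ (by positivity)⟩
  have hYYt : ∀ y ∈ Y, y ∈ Metric.closedBall (0 : E d) Rt := fun y hy => by
    rw [mem_closedBall_zero_iff, hRt]
    nlinarith [hR0 y hy]
  obtain ⟨C0, hC0⟩ := quarter_step K hK hKi (Metric.closedBall 0 Rt) (isCompact_closedBall _ _)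
    ⟨0, by simp⟩
  obtain ⟨C2, hC2⟩ := hstep Rt
  obtain ⟨C1, hC⟩ := chain_discrete hd K hK hKi Rt C2 hC2
  refine ⟨4 * C1 + 2 * d * C2 + 1, ?_⟩
  intro μ ν hμ hν hμY hνY T S hT hS π hπ1 hπ2
  have hπ : IsProbabilityMeasure π := by
    constructor
    have h1 : μ Set.univ = 1 := measure_univ
    rw [← hπ1, Measure.fst_univ] at h1
    exact h1
  have hTs : SubG K (π.map Prod.fst) T := by
    have := subG_of_isOTMap hK hKi hY hYne μ hμY T hT
    rwa [← hπ1] at this
  have hSs : SubG K (π.map Prod.snd) S := by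
    have := subG_of_isOTMap hK hKi hY hYne ν hνY S hS
    rwa [← hπ2] at this
  have hY1 : ∀ᵐ p ∂π, p.1 ∈ Y := by
    have h := hμY
    rw [← hπ1] at h
    exact (ae_map_iff measurable_fst.aemeasurable hY.measurableSet).mp h
  have hY2 : ∀ᵐ p ∂π, p.2 ∈ Y := by
    have h := hνY
    rw [← hπ2] at h
    exact (ae_map_iff measurable_snd.aemeasurable hY.measurableSet).mp h
  have hY1t : ∀ᵐ p ∂π, p.1 ∈ Metric.closedBall (0 : E d) Rt := hY1.mono fun p hp => hYYt _ hp
  have hY2t : ∀ᵐ p ∂π, p.2 ∈ Metric.closedBall (0 : E d) Rt := hY2.mono fun p hp => hYYt _ hp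
  rcases eq_or_ne (∫⁻ p, ENNReal.ofReal (‖p.1 - p.2‖ ^ 2) ∂π) ⊤ with hctop | hctop
  · rw [hctop, ENNReal.top_rpow_of_pos (by norm_num), ENNReal.mul_top (by simp)]
    exact le_top
  rcases eq_or_ne (∫⁻ p, ENNReal.ofReal (‖p.1 - p.2‖ ^ 2) ∂π) 0 with hc0 | hc0
  · have hz : ∫⁻ p, ENNReal.ofReal ‖p.1 - p.2‖ ∂π ≤ ENNReal.ofReal ((2 * 0) ^ 4) := by
      have hae := (lintegral_eq_zero_iff (by fun_prop)).mp hc0
      have h0 : ∫⁻ p, ENNReal.ofReal ‖p.1 - p.2‖ ∂π = 0 := by
        rw [lintegral_eq_zero_iff (by fun_prop)]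
        filter_upwards [hae] with p hp
        simp only [Pi.zero_apply, ENNReal.ofReal_eq_zero] at hp ⊢
        nlinarith [norm_nonneg (p.1 - p.2)]
      rw [h0]
      exact zero_le
    have := hC0 π hπ Prod.fst Prod.snd measurable_fst measurable_snd hY1t hY2t T S hTs hSs 0
      le_rfl hz
    refine this.trans ?_
    simp
  · obtain ⟨cr, hcr, hccr⟩ : ∃ cr : ℝ, 0 < cr ∧
        ∫⁻ p, ENNReal.ofReal (‖p.1 - p.2‖ ^ 2) ∂π = ENNReal.ofReal cr :=
      ⟨_, ENNReal.toReal_pos hc0 hctop, (ENNReal.ofReal_toReal hctop).symm⟩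
    obtain ⟨x, hx, hx6⟩ : ∃ x : ℝ, 0 < x ∧ x ^ 6 = cr :=
      ⟨cr ^ (((6 : ℕ) : ℝ)⁻¹), Real.rpow_pos_of_pos hcr _,
        Real.rpow_inv_natCast_pow hcr.le (by norm_num)⟩
    have hcx : (∫⁻ p, ENNReal.ofReal (‖p.1 - p.2‖ ^ 2) ∂π) ^ (1 / 6 : ℝ) = ENNReal.ofReal x := by
      rw [hccr, ← hx6]
      have := ofReal_pow_rpow_inv hx.le 6 (by norm_num)
      simpa using this
    rw [hcx]
    obtain ⟨η, hη, hη1, hη2, hη3⟩ : ∃ η : ℝ, 0 < η ∧ η ≤ x ^ 3 ∧ η ≤ x ^ 4 / d ∧ η ≤ 1 :=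
      ⟨min (x ^ 3) (min (x ^ 4 / d) 1), by positivity, min_le_left _ _,
        (min_le_right _ _).trans (min_le_left _ _), (min_le_right _ _).trans (min_le_right _ _)⟩
    obtain ⟨N, e, idx, hidx, heY, hnet⟩ := exists_quantiser20 Y hY hYne hη
    have hlabel : Measurable (fun p : E d × E d => (idx p.1, idx p.2)) :=
      (hidx.comp measurable_fst).prodMk (hidx.comp measurable_snd)
    obtain ⟨o, ho, hinj⟩ := exists_offsets20 (Fin (N + 1) × Fin (N + 1))
      (Finset.univ.image (fun (j : Fin d) (i : Fin (N + 1) × Fin (N + 1)) => e i.1 j) ∪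
        Finset.univ.image (fun (j : Fin d) (i : Fin (N + 1) × Fin (N + 1)) => e i.2 j)) hη
    have hec : ∀ k j, |e k j| ≤ R0 := fun k j => (abs_coord_le_norm _ _).trans (hR0 _ (heY k))
    have hn : ∀ (k : ℕ) (i : Fin (N + 1) × Fin (N + 1)), ‖mix k (e i.1) (e i.2) (o i)‖ ≤ Rt := by
      intro k i
      rw [hRt]
      apply norm_le_of_coord_le _ (by positivity)
      intro j
      have h1 := ho i
      rw [mix_apply]
      split_ifs
      · have := hec i.2 j
        rw [abs_le] at this ⊢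
        constructor <;> linarith [h1.1, h1.2, this.1, this.2]
      · have := hec i.1 j
        rw [abs_le] at this ⊢
        constructor <;> linarith [h1.1, h1.2, this.1, this.2]
    have hsame : ∀ k (hk : k < d) (i : Fin (N + 1) × Fin (N + 1)) (j : Fin d), j ≠ ⟨k, hk⟩ →
        mix k (e i.1) (e i.2) (o i) j = mix (k + 1) (e i.1) (e i.2) (o i) j := by
      intro k hk i j hj
      have hj' : (j : ℕ) ≠ k := fun h => hj (Fin.ext h)
      rw [mix_apply, mix_apply]
      by_cases h : (j : ℕ) < k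
      · rw [if_pos h, if_pos (by omega)]
      · rw [if_neg h, if_neg (by omega)]
    have hinjQ : ∀ (k : ℕ) (j : Fin d), Function.Injective
        (fun i : Fin (N + 1) × Fin (N + 1) => mix k (e i.1) (e i.2) (o i) j) := by
      intro k j
      by_cases h : (j : ℕ) < k
      · have := hinj (fun i => e i.2 j) (Finset.mem_union_right _
          (Finset.mem_image.mpr ⟨j, Finset.mem_univ _, rfl⟩))
        simpa [mix_apply, h] using this
      · have := hinj (fun i => e i.1 j) (Finset.mem_union_left _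
          (Finset.mem_image.mpr ⟨j, Finset.mem_univ _, rfl⟩))
        simpa [mix_apply, h] using this
    have hcost : ∀ k (hk : k < d), ∫⁻ p, ENNReal.ofReal
        ((mix k (e (idx p.1)) (e (idx p.2)) (o (idx p.1, idx p.2)) ⟨k, hk⟩ -
          mix (k + 1) (e (idx p.1)) (e (idx p.2)) (o (idx p.1, idx p.2)) ⟨k, hk⟩) ^ 2) ∂π ≤
          ENNReal.ofReal ((2 * x) ^ 6) := by
      intro k hk
      refine (lintegral_bound π _ (A := 8 * η ^ 2) (B := 2) (by positivity) (by norm_num) hccr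
        ?_).trans ?_
      · filter_upwards [hY1, hY2] with p hp1 hp2
        simp only [mix_apply, lt_irrefl, if_false, Nat.lt_succ_self, if_true]
        have h4 := hnet _ hp1
        have h5 := hnet _ hp2
        have h3 : ‖e (idx p.1) - e (idx p.2)‖ ≤
            ‖p.1 - e (idx p.1)‖ + ‖p.1 - p.2‖ + ‖p.2 - e (idx p.2)‖ := by
          have e1 : e (idx p.1) - e (idx p.2) =
              -(p.1 - e (idx p.1)) + (p.1 - p.2) + (p.2 - e (idx p.2)) := by abel
          rw [e1]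
          refine (norm_add_le _ _).trans ?_
          refine add_le_add ((norm_add_le _ _).trans ?_) le_rfl
          rw [norm_neg]
        have h6 := abs_coord_le_norm (e (idx p.1) - e (idx p.2)) ⟨k, hk⟩
        simp only [PiLp.sub_apply] at h6
        have h7 : |e (idx p.1) ⟨k, hk⟩ - e (idx p.2) ⟨k, hk⟩| ≤ ‖p.1 - p.2‖ + 2 * η := by
          linarith
        have h8 : (e (idx p.1) ⟨k, hk⟩ + o (idx p.1, idx p.2) -
            (e (idx p.2) ⟨k, hk⟩ + o (idx p.1, idx p.2))) ^ 2 =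
            |e (idx p.1) ⟨k, hk⟩ - e (idx p.2) ⟨k, hk⟩| ^ 2 := by
          rw [sq_abs]
          ring
        rw [h8]
        have h9 := pow_le_pow_left₀ (abs_nonneg _) h7 2
        nlinarith [sq_nonneg (‖p.1 - p.2‖ - 2 * η)]
      · rw [← ENNReal.ofReal_mul (by norm_num), ← ENNReal.ofReal_add (by positivity)
          (by positivity)]
        apply ENNReal.ofReal_le_ofReal
        have h1 : η ^ 2 ≤ (x ^ 3) ^ 2 := pow_le_pow_left₀ hη.le hη1 2
        rw [← hx6]
        nlinarith [pow_pos hx 6]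
    have hdη : d * (2 * η) ≤ (2 * x) ^ 4 := by
      have h1 : d * η ≤ x ^ 4 := by
        rw [le_div_iff₀ hd0] at hη2
        linarith
      nlinarith [pow_pos hx 4]
    have hW0 : ∫⁻ p, ENNReal.ofReal ‖p.1 - mix 0 (e (idx p.1)) (e (idx p.2))
        (o (idx p.1, idx p.2))‖ ∂π ≤ ENNReal.ofReal ((2 * x) ^ 4) := by
      refine (lintegral_bound π _ (A := d * (2 * η)) (B := 0) (by positivity) le_rfl hccr
        ?_).trans ?_
      · filter_upwards [hY1] with p hp
        have := norm_sub_mix_zero_le p.1 (e (idx p.1)) (e (idx p.2)) hη.le (hnet _ hp)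
          (ho (idx p.1, idx p.2)).1 (ho (idx p.1, idx p.2)).2
        linarith
      · simp only [ENNReal.ofReal_zero, zero_mul, add_zero]
        exact ENNReal.ofReal_le_ofReal hdη
    have hWd : ∫⁻ p, ENNReal.ofReal ‖mix d (e (idx p.1)) (e (idx p.2))
        (o (idx p.1, idx p.2)) - p.2‖ ∂π ≤ ENNReal.ofReal ((2 * x) ^ 4) := by
      refine (lintegral_bound π _ (A := d * (2 * η)) (B := 0) (by positivity) le_rfl hccr
        ?_).trans ?_
      · filter_upwards [hY2] with p hp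
        have := norm_mix_top_sub_le p.2 (e (idx p.1)) (e (idx p.2)) hη.le (hnet _ hp)
          (ho (idx p.1, idx p.2)).1 (ho (idx p.1, idx p.2)).2
        linarith
      · simp only [ENNReal.ofReal_zero, zero_mul, add_zero]
        exact ENNReal.ofReal_le_ofReal hdη
    have hmain := hC π hπ (Fin (N + 1) × Fin (N + 1)) (fun p => (idx p.1, idx p.2)) hlabel
      (fun k i => mix k (e i.1) (e i.2) (o i)) hn hsame hinjQ x hx hcost T S hTs hSs hY1t hY2t
      hW0 hWd
    exact hmain.trans (mul_le_mul' (ENNReal.coe_le_coe.mpr le_self_add) le_rfl)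

/-- Admissibility of one third in dimension `d ≥ 2`, from the discrete step. -/
theorem admissible_third_of_step (hd : 2 ≤ d)
    (hstep : ∀ K : Set (E d), IsCompact K → Convex ℝ K → (interior K).Nonempty →
      ∀ R : ℝ≥0, ∃ C : ℝ≥0, StepProp K R C) : Admissible d (1 / 3) :=
  admissible_third_of_key fun K hK hKc hKi Y hY hYne =>
    key_bound_all hd K hK hKi (hstep K hK hKc hKi) Y hY hYne

end Vale.Agent.Lib.P074u
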