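import Vale.Agent.Lib.P074q.Main

open MeasureTheory
open scoped NNReal RealInnerProductSpace

namespace Vale.Agent.Lib.P074u

open Vale.Agent.Lib.P074q (E)

/-- coordinates are bounded by the norm -/
theorem abs_coord_le17 {d : ℕ} (x : E d) (j : Fin d) : |x j| ≤ ‖x‖ := by
  have := PiLp.norm_apply_le (p := 2) x j
  simpa using this

/-- The discrete quadratic cost of one coordinate move is controlled by the cost of the coupling. -/
theorem cost_le17 {d : ℕ} (π : Measure (E d × E d)) [IsProbabilityMeasure π] {n : ℕ}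
    (label : E d × E d → Fin (n + 1)) (hlabel : Measurable label) (c c' : Fin (n + 1) → E d)
    {η : ℝ} (hη : 0 ≤ η)
    (hnear : ∀ᵐ p ∂π, ‖p.1 - c (label p)‖ ≤ η ∧ ‖p.2 - c' (label p)‖ ≤ η) (j0 : Fin d) :
    ENNReal.ofReal (∑ i, (π (label ⁻¹' {i})).toReal * (c i j0 - c' i j0) ^ 2) ≤
      2 * (∫⁻ p, ENNReal.ofReal (‖p.1 - p.2‖ ^ 2) ∂π) + ENNReal.ofReal (8 * η ^ 2) := by
  have e1 : ENNReal.ofReal (∑ i, (π (label ⁻¹' {i})).toReal * (c i j0 - c' i j0) ^ 2) =
      ∫⁻ p, ENNReal.ofReal ((c (label p) j0 - c' (label p) j0) ^ 2) ∂π := by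
    have h1 : ∫⁻ p, ENNReal.ofReal ((c (label p) j0 - c' (label p) j0) ^ 2) ∂π =
        ∫⁻ i, ENNReal.ofReal ((c i j0 - c' i j0) ^ 2) ∂(π.map label) := by
      rw [lintegral_map (measurable_of_countable _) hlabel]
    rw [h1, lintegral_fintype, ENNReal.ofReal_sum_of_nonneg (fun i _ => by positivity)]
    apply Finset.sum_congr rfl
    intro i _
    rw [Measure.map_apply hlabel (measurableSet_singleton _),
      ENNReal.ofReal_mul ENNReal.toReal_nonneg, ENNReal.ofReal_toReal (measure_ne_top _ _), mul_comm]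
  rw [e1]
  calc ∫⁻ p, ENNReal.ofReal ((c (label p) j0 - c' (label p) j0) ^ 2) ∂π
      ≤ ∫⁻ p, (2 * ENNReal.ofReal (‖p.1 - p.2‖ ^ 2) + ENNReal.ofReal (8 * η ^ 2)) ∂π := by
        refine lintegral_mono_ae ?_
        filter_upwards [hnear] with p hp
        have h2 : 2 * ENNReal.ofReal (‖p.1 - p.2‖ ^ 2) + ENNReal.ofReal (8 * η ^ 2) =
            ENNReal.ofReal (2 * ‖p.1 - p.2‖ ^ 2 + 8 * η ^ 2) := by
          rw [ENNReal.ofReal_add (by positivity) (by positivity),
            ENNReal.ofReal_mul (by norm_num)]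
          simp
        rw [h2]
        apply ENNReal.ofReal_le_ofReal
        have h3 : |(c (label p) - c' (label p)) j0| ≤ ‖c (label p) - c' (label p)‖ :=
          abs_coord_le17 _ j0
        have h4 : (c (label p) - c' (label p)) j0 = c (label p) j0 - c' (label p) j0 := by simp
        rw [h4] at h3
        have h5 : ‖c (label p) - c' (label p)‖ ≤ ‖p.1 - p.2‖ + 2 * η := by
          have e : c (label p) - c' (label p) =
              -(p.1 - c (label p)) + (p.1 - p.2) + (p.2 - c' (label p)) := by abel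
          calc ‖c (label p) - c' (label p)‖
              = ‖-(p.1 - c (label p)) + (p.1 - p.2) + (p.2 - c' (label p))‖ := by rw [e]
            _ ≤ ‖-(p.1 - c (label p))‖ + ‖p.1 - p.2‖ + ‖p.2 - c' (label p)‖ := norm_add₃_le
            _ ≤ ‖p.1 - p.2‖ + 2 * η := by rw [norm_neg]; linarith [hp.1, hp.2]
        have h6 : |c (label p) j0 - c' (label p) j0| ≤ ‖p.1 - p.2‖ + 2 * η := h3.trans h5
        have h7 : (c (label p) j0 - c' (label p) j0) ^ 2 ≤ (‖p.1 - p.2‖ + 2 * η) ^ 2 := by
          rw [← sq_abs]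
          exact pow_le_pow_left₀ (abs_nonneg _) h6 2
        nlinarith [sq_nonneg (‖p.1 - p.2‖ - 2 * η)]
    _ = 2 * (∫⁻ p, ENNReal.ofReal (‖p.1 - p.2‖ ^ 2) ∂π) + ENNReal.ofReal (8 * η ^ 2) := by
        rw [lintegral_add_right _ measurable_const, lintegral_const_mul _ (by fun_prop),
          lintegral_const, measure_univ, mul_one]

end Vale.Agent.Lib.P074u
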