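import Vale.Agent.Lib.P074t.ExistDisc
import Vale.Agent.Lib.P074t.ChainGlue17
import Vale.Agent.Lib.P074t.ChainAux17

open MeasureTheory
open scoped NNReal RealInnerProductSpace

namespace Vale.Agent.Lib.P074u

open Vale.Agent.Lib.P074q (E PotPair Tight)
open Vale.Agent.Lib.P074b (unif)
open Vale.Agent.Lib.P074t (exists_discrete map_label_singleton good_of_discrete exists_quantiser
  exists_offsets)

/-- everything we need about the power diagram attached to a relabelled coupling -/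
theorem discrete_pack17 {d : ℕ} (K : Set (E d)) (hK : IsCompact K) (hKi : (interior K).Nonempty)
    {Yt : Set (E d)} {M R : ℝ≥0}
    (hKM : ∀ z ∈ K, ‖z‖ ≤ M) (hYR : ∀ y ∈ Yt, ‖y‖ ≤ R)
    {Ω : Type} [MeasurableSpace Ω] (π : Measure Ω) [IsProbabilityMeasure π]
    (ι : Type) [Fintype ι] [Nonempty ι] [MeasurableSpace ι] [MeasurableSingletonClass ι]
    (label : Ω → ι) (hl : Measurable label) (P : ι → E d) (hP : Function.Injective P)
    (hPY : ∀ i, P i ∈ Yt) :
    ∃ (T : E d → E d) (w : ι → ℝ), Measurable T ∧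
      (unif K).map T = π.map (fun p => P (label p)) ∧
      (∀ᵐ x ∂(unif K), ∃ i, T x = P i ∧ ∀ j, ⟪x, P j⟫ - w j ≤ ⟪x, P i⟫ - w i) ∧
      (∀ i, unif K {x | ∀ j, ⟪x, P j⟫ - w j ≤ ⟪x, P i⟫ - w i} = π (label ⁻¹' {i})) ∧
      (∃ a b : E d → ℝ, PotPair Yt M R a b ∧ Tight (unif K) T a b) ∧
      (∀ᵐ y ∂(π.map (fun p => P (label p))), y ∈ Yt) := by
  have hm : Measurable (fun p => P (label p)) := (measurable_of_countable P).comp hl
  have hprob : IsProbabilityMeasure (π.map (fun p => P (label p))) :=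
    Measure.isProbabilityMeasure_map hm.aemeasurable
  have hrange : ∀ᵐ y ∂(π.map (fun p => P (label p))), y ∈ Set.range P := by
    refine (ae_map_iff hm.aemeasurable (p := fun y => y ∈ Set.range P)
      (Set.finite_range P).measurableSet).mpr ?_
    exact Filter.Eventually.of_forall (fun p => Set.mem_range_self _)
  obtain ⟨T, w, hT, hmap, hae, hmass⟩ :=
    exists_discrete K hK hKi ι P hP (π.map (fun p => P (label p))) hrange
  have hv0 : volume K ≠ 0 := (Measure.measure_pos_of_nonempty_interior volume hKi).ne'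
  have hvT : volume K ≠ ⊤ := hK.measure_lt_top.ne
  have hρ : IsProbabilityMeasure (unif K) := Vale.Agent.Lib.P074q.isProbabilityMeasure_unif hv0 hvT
  refine ⟨T, w, hT, hmap, hae, fun i => ?_, ?_, ?_⟩
  · rw [hmass i, map_label_singleton π label hl P hP i]
  · exact good_of_discrete hKM hYR (unif K)
      (Vale.Agent.Lib.P074q.ae_mem_unif hK.measurableSet) P w hPY T hae
  · filter_upwards [hrange] with y hy
    obtain ⟨i, rfl⟩ := hy
    exact hPY i

/-- A finite measurable labelling of a coupling, all of whose labels have positive mass. -/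
theorem exists_labelling17 {d : ℕ} (Y : Set (E d)) (hY : IsCompact Y) (hYne : Y.Nonempty)
    (π : Measure (E d × E d)) [IsProbabilityMeasure π]
    (h1 : ∀ᵐ p ∂π, p.1 ∈ Y) (h2 : ∀ᵐ p ∂π, p.2 ∈ Y) {η : ℝ} (hη : 0 < η) :
    ∃ (n : ℕ) (label : E d × E d → Fin (n + 1)) (c c' : Fin (n + 1) → E d), Measurable label ∧
      (∀ i, c i ∈ Y) ∧ (∀ i, c' i ∈ Y) ∧ (∀ i, π (label ⁻¹' {i}) ≠ 0) ∧
      ∀ᵐ p ∂π, ‖p.1 - c (label p)‖ ≤ η ∧ ‖p.2 - c' (label p)‖ ≤ η := by
  classical
  obtain ⟨N, e, idx, hidx, heY, hnet⟩ := exists_quantiser Y hY hYne hη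
  let label0 : E d × E d → Fin (N + 1) × Fin (N + 1) := fun p => (idx p.1, idx p.2)
  have hlabel0 : Measurable label0 :=
    (hidx.comp measurable_fst).prodMk (hidx.comp measurable_snd)
  let ι' : Type := {i : Fin (N + 1) × Fin (N + 1) // π (label0 ⁻¹' {i}) ≠ 0}
  -- almost every point has a label of positive mass
  have hgood : ∀ᵐ p ∂π, π (label0 ⁻¹' {label0 p}) ≠ 0 := by
    have hnull : π (⋃ i ∈ {i : Fin (N + 1) × Fin (N + 1) | π (label0 ⁻¹' {i}) = 0},
        label0 ⁻¹' {i}) = 0 := by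
      refine (measure_biUnion_null_iff (Set.to_countable _)).mpr ?_
      intro i hi
      exact hi
    rw [ae_iff]
    refine measure_mono_null ?_ hnull
    intro p hp
    simp only [ne_eq, not_not, Set.mem_setOf_eq] at hp
    simp only [Set.mem_iUnion, Set.mem_setOf_eq, Set.mem_preimage, Set.mem_singleton_iff,
      exists_prop]
    exact ⟨label0 p, hp, rfl⟩
  have hne : Nonempty ι' := by
    have hex : ∃ p, π (label0 ⁻¹' {label0 p}) ≠ 0 := by
      have := hgood.exists
      exact this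
    obtain ⟨p, hp⟩ := hex
    exact ⟨⟨label0 p, hp⟩⟩
  obtain ⟨n, hn⟩ : ∃ n, Fintype.card ι' = n + 1 :=
    Nat.exists_eq_succ_of_ne_zero Fintype.card_ne_zero
  let eq : ι' ≃ Fin (n + 1) := Fintype.equivFinOfCardEq hn
  let i0 : ι' := Classical.choice hne
  let g : Fin (N + 1) × Fin (N + 1) → Fin (n + 1) :=
    fun i => if h : π (label0 ⁻¹' {i}) ≠ 0 then eq ⟨i, h⟩ else eq i0
  have hg : ∀ i (h : π (label0 ⁻¹' {i}) ≠ 0), g i = eq ⟨i, h⟩ := by
    intro i h
    simp only [g, dif_pos h]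
  refine ⟨n, fun p => g (label0 p), fun k => e (eq.symm k).1.1, fun k => e (eq.symm k).1.2,
    (measurable_of_countable g).comp hlabel0, fun _ => heY _, fun _ => heY _, ?_, ?_⟩
  · intro k hk
    apply (eq.symm k).2
    refine measure_mono_null ?_ hk
    intro p hp
    simp only [Set.mem_preimage, Set.mem_singleton_iff] at hp ⊢
    have h3 : π (label0 ⁻¹' {label0 p}) ≠ 0 := by rw [hp]; exact (eq.symm k).2
    rw [hg _ h3]
    have : (⟨label0 p, h3⟩ : ι') = eq.symm k := Subtype.ext hp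
    rw [this]
    simp
  · filter_upwards [hgood, h1, h2] with p hp hp1 hp2
    rw [hg _ hp]
    simp only [Equiv.symm_apply_apply]
    exact ⟨hnet p.1 hp1, hnet p.2 hp2⟩

end Vale.Agent.Lib.P074u
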