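import Vale.Agent.Lib.P074t.ChainAux17

open MeasureTheory
open scoped NNReal RealInnerProductSpace

namespace Vale.Agent.Lib.P074u

open Vale.Agent.Lib.P074q (E)
open Vale.Agent.Lib.P074t (exists_offsets)

/-- The path of atom families: coordinates are switched one at a time. -/
theorem exists_path17 {d : ℕ} {ι : Type} [Fintype ι] (c c' : ι → E d) {R0 η : ℝ}
    (hc : ∀ i, ‖c i‖ ≤ R0) (hc' : ∀ i, ‖c' i‖ ≤ R0) (hη : 0 < η) :
    ∃ Q : ℕ → ι → E d,
      (∀ k i, ‖Q k i‖ ≤ 2 * R0 + η) ∧
      (∀ k (j : Fin d), Function.Injective (fun i => Q k i j)) ∧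
      (∀ k i (j : Fin d), (j : ℕ) ≠ k → Q k i j = Q (k + 1) i j) ∧
      (∀ k i (j : Fin d), (j : ℕ) = k → Q k i j - Q (k + 1) i j = c i j - c' i j) ∧
      (∀ i, ‖c i - Q 0 i‖ ≤ η) ∧ (∀ i, ‖c' i - Q d i‖ ≤ η) := by
  classical
  let f : Fin d × Bool → ι → ℝ := fun q i => if q.2 then c' i q.1 else c i q.1
  have hε : 0 < η / (d + 1) := by positivity
  obtain ⟨o, ho0, hoη, hinj⟩ := exists_offsets f hε
  let ones : E d := WithLp.toLp 2 (fun _ => (1 : ℝ))
  let mix : ℕ → ι → E d := fun k i => WithLp.toLp 2 (fun j : Fin d => if (j : ℕ) < k then c' i j else c i j)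
  have hones : ‖ones‖ ≤ d + 1 := by
    rw [EuclideanSpace.norm_eq]
    apply Real.sqrt_le_iff.mpr
    constructor
    · positivity
    · simp only [ones, PiLp.toLp_apply, norm_one, one_pow, Finset.sum_const, Finset.card_univ,
        Fintype.card_fin, nsmul_eq_mul, mul_one]
      nlinarith [(Nat.cast_nonneg d : (0 : ℝ) ≤ d)]
  have hou : ∀ i, ‖o i • ones‖ ≤ η := by
    intro i
    rw [norm_smul, Real.norm_eq_abs, abs_of_nonneg (ho0 i)]
    calc o i * ‖ones‖ ≤ η / (d + 1) * (d + 1) :=
          mul_le_mul (hoη i) hones (norm_nonneg _) hε.le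
      _ = η := by field_simp
  have hmix : ∀ k i, ‖mix k i‖ ≤ 2 * R0 := by
    intro k i
    have hR0 : 0 ≤ R0 := (norm_nonneg _).trans (hc i)
    have h1 : ‖mix k i‖ ^ 2 ≤ ‖c' i‖ ^ 2 + ‖c i‖ ^ 2 := by
      rw [EuclideanSpace.real_norm_sq_eq, EuclideanSpace.real_norm_sq_eq,
        EuclideanSpace.real_norm_sq_eq, ← Finset.sum_add_distrib]
      apply Finset.sum_le_sum
      intro j _
      by_cases h : (j : ℕ) < k
      · simp only [mix, PiLp.toLp_apply, h, if_true]
        nlinarith [sq_nonneg (c i j)]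
      · simp only [mix, PiLp.toLp_apply, h, if_false]
        nlinarith [sq_nonneg (c' i j)]
    have h2 : ‖c' i‖ ^ 2 ≤ R0 ^ 2 := pow_le_pow_left₀ (norm_nonneg _) (hc' i) 2
    have h3 : ‖c i‖ ^ 2 ≤ R0 ^ 2 := pow_le_pow_left₀ (norm_nonneg _) (hc i) 2
    by_contra hcon
    have hcon' : 2 * R0 < ‖mix k i‖ := not_le.mp hcon
    nlinarith [norm_nonneg (mix k i)]
  have hcoord : ∀ k i (j : Fin d), (mix k i + o i • ones) j =
      (if (j : ℕ) < k then c' i j else c i j) + o i := by
    intro k i j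
    simp [mix, ones]
  refine ⟨fun k i => mix k i + o i • ones, ?_, ?_, ?_, ?_, ?_, ?_⟩
  · intro k i
    have := norm_add_le (mix k i) (o i • ones)
    linarith [hmix k i, hou i]
  · intro k j a b hab
    simp only [hcoord] at hab
    by_cases h : (j : ℕ) < k
    · apply hinj (j, true)
      simpa [f, h] using hab
    · apply hinj (j, false)
      simpa [f, h] using hab
  · intro k i j hj
    simp only [hcoord]
    by_cases h : (j : ℕ) < k
    · have h' : (j : ℕ) < k + 1 := by omega
      simp [h, h']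
    · have h' : ¬ (j : ℕ) < k + 1 := by omega
      simp [h, h']
  · intro k i j hj
    simp only [hcoord]
    have h : ¬ (j : ℕ) < k := by omega
    have h' : (j : ℕ) < k + 1 := by omega
    simp [h, h']
  · intro i
    have e0 : mix 0 i = c i := by
      ext j
      simp [mix]
    have : c i - (mix 0 i + o i • ones) = -(o i • ones) := by rw [e0]; abel
    rw [this, norm_neg]
    exact hou i
  · intro i
    have e0 : mix d i = c' i := by
      ext j
      simp [mix, j.isLt]
    have : c' i - (mix d i + o i • ones) = -(o i • ones) := by rw [e0]; abel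
    rw [this, norm_neg]
    exact hou i

end Vale.Agent.Lib.P074u
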