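import Vale.Agent.Lib.P074u.DiscStab
import Vale.Agent.Lib.P074u.ChainDPack17
import Vale.Agent.Lib.P074u.ChainDPts17
import Vale.Agent.Lib.P074u.ChainDCost17

open MeasureTheory
open scoped NNReal RealInnerProductSpace

namespace Vale.Agent.Lib.P074u

open Vale.Agent.Lib.P074q (E PotPair Tight)
open Vale.Agent.Lib.P074b (unif IsOTMap W2 Admissible)
open Vale.Agent.Lib.P074t (wass_one_map_le le_W2_third_of_forall_coupling)

lemma eLpNorm_tri17 {d : ℕ} {ρ : Measure (E d)} {A B C : E d → E d} (hA : Measurable A)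
    (hB : Measurable B) (hC : Measurable C) :
    eLpNorm (fun x => A x - C x) 2 ρ ≤
      eLpNorm (fun x => A x - B x) 2 ρ + eLpNorm (fun x => B x - C x) 2 ρ := by
  have : (fun x => A x - C x) = (fun x => A x - B x) + (fun x => B x - C x) := by
    funext x
    simp
  rw [this]
  exact eLpNorm_add_le (hA.sub hB).aestronglyMeasurable (hB.sub hC).aestronglyMeasurable
    (by norm_num)

/-- The bound against an arbitrary coupling, in every dimension, from the discrete statement. -/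
theorem key_bound17 {d : ℕ} (hd : 2 ≤ d) (hDS : DiscStab d) (K : Set (E d)) (hK : IsCompact K)
    (hKc : Convex ℝ K) (hKi : (interior K).Nonempty) (Y : Set (E d)) (hY : IsCompact Y)
    (hYne : Y.Nonempty) :
    ∃ C : ℝ≥0, ∀ μ ν : Measure (E d), IsProbabilityMeasure μ → IsProbabilityMeasure ν →
      (∀ᵐ y ∂μ, y ∈ Y) → (∀ᵐ y ∂ν, y ∈ Y) →
      ∀ T S : E d → E d, IsOTMap (unif K) μ T → IsOTMap (unif K) ν S →
      ∀ π : Measure (E d × E d), π.fst = μ → π.snd = ν →
      eLpNorm (fun x => T x - S x) 2 (unif K) ≤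
        C * (∫⁻ p, ENNReal.ofReal (‖p.1 - p.2‖ ^ 2) ∂π) ^ (1 / 6 : ℝ) := by
  classical
  obtain ⟨R0', hR0'⟩ := hY.isBounded.exists_norm_le
  set R0 : ℝ := max R0' 0 with hR0def
  have hR0 : 0 ≤ R0 := le_max_right _ _
  have hYR0 : ∀ y ∈ Y, ‖y‖ ≤ R0 := fun y hy => (hR0' y hy).trans (le_max_left _ _)
  let R1 : ℝ≥0 := ⟨2 * R0 + 1, by positivity⟩
  have hR1 : (R1 : ℝ) = 2 * R0 + 1 := rfl
  let Yt : Set (E d) := Metric.closedBall 0 (R1 : ℝ)
  have hYtc : IsCompact Yt := isCompact_closedBall _ _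
  have hmemYt : ∀ y : E d, ‖y‖ ≤ 2 * R0 + 1 → y ∈ Yt := by
    intro y hy
    simpa [Yt, hR1] using hy
  have hYYt : ∀ y ∈ Y, y ∈ Yt := fun y hy => hmemYt y (by linarith [hYR0 y hy])
  obtain ⟨M, R, C1, hKM, hYR, hC1⟩ :=
    Vale.Agent.Lib.P074q.stability_of_potPairs K hK hKi Yt hYtc
  obtain ⟨C2, hC2⟩ := hDS K hK hKc hKi R1
  refine ⟨2 * C1 + d * (C2 * 2), ?_⟩
  intro μ ν hμ hν hμY hνY T S hT hS π hπ1 hπ2
  have hv0 : volume K ≠ 0 := (Measure.measure_pos_of_nonempty_interior volume hKi).ne'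
  have hvT : volume K ≠ ⊤ := hK.measure_lt_top.ne
  have hρ : IsProbabilityMeasure (unif K) := Vale.Agent.Lib.P074q.isProbabilityMeasure_unif hv0 hvT
  have hπprob : IsProbabilityMeasure π := by
    constructor
    have h1 : π.fst Set.univ = 1 := by rw [hπ1]; exact measure_univ
    rwa [Measure.fst_univ] at h1
  have hπY1 : ∀ᵐ p ∂π, p.1 ∈ Y := by
    have h := hμY
    rw [← hπ1] at h
    exact (ae_map_iff measurable_fst.aemeasurable hY.measurableSet).mp h
  have hπY2 : ∀ᵐ p ∂π, p.2 ∈ Y := by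
    have h := hνY
    rw [← hπ2] at h
    exact (ae_map_iff measurable_snd.aemeasurable hY.measurableSet).mp h
  have hμYt : ∀ᵐ y ∂μ, y ∈ Yt := hμY.mono hYYt
  have hνYt : ∀ᵐ y ∂ν, y ∈ Yt := hνY.mono hYYt
  have hgT : ∃ a b : E d → ℝ, PotPair Yt M R a b ∧ Tight (unif K) T a b :=
    Vale.Agent.Lib.P074q.potPair_of_isOTMap hK hv0 hYtc ⟨0, hmemYt 0 (by simp; positivity)⟩
      hKM hYR μ hμYt T hT
  have hgS : ∃ a b : E d → ℝ, PotPair Yt M R a b ∧ Tight (unif K) S a b :=
    Vale.Agent.Lib.P074q.potPair_of_isOTMap hK hv0 hYtc ⟨0, hmemYt 0 (by simp; positivity)⟩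
      hKM hYR ν hνYt S hS
  have hTmap : (unif K).map T = π.map Prod.fst := hT.2.1.trans hπ1.symm
  have hSmap : (unif K).map S = π.map Prod.snd := hS.2.1.trans hπ2.symm
  -- the W₁ step
  have stepW : ∀ (F G : E d × E d → E d), Measurable F → Measurable G →
      ∀ (A B : E d → E d), Measurable A → Measurable B →
      (unif K).map A = π.map F → (unif K).map B = π.map G →
      (∀ᵐ y ∂(π.map F), y ∈ Yt) → (∀ᵐ y ∂(π.map G), y ∈ Yt) →
      (∃ a b : E d → ℝ, PotPair Yt M R a b ∧ Tight (unif K) A a b) →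
      (∃ a b : E d → ℝ, PotPair Yt M R a b ∧ Tight (unif K) B a b) →
      ∀ b : ENNReal, (∫⁻ p, ENNReal.ofReal ‖F p - G p‖ ∂π) ≤ b →
      eLpNorm (fun x => A x - B x) 2 (unif K) ≤ C1 * b ^ (1 / 4 : ℝ) := by
    intro F G hF hG A B hA hB hAm hBm hFY hGY hgA hgB b hb
    refine (hC1 (π.map F) (π.map G) hFY hGY A B hA hB hAm hBm hgA hgB).trans ?_
    gcongr
    exact (wass_one_map_le π F G hF hG).trans hb
  set cE : ENNReal := ∫⁻ p, ENNReal.ofReal (‖p.1 - p.2‖ ^ 2) ∂π with hcE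
  have hTm : Measurable T := hT.1
  have hSm : Measurable S := hS.1
  have hfY : ∀ᵐ y ∂(π.map Prod.fst), y ∈ Yt := by
    have : π.map Prod.fst = μ := hπ1
    rw [this]; exact hμYt
  have hsY : ∀ᵐ y ∂(π.map Prod.snd), y ∈ Yt := by
    have : π.map Prod.snd = ν := hπ2
    rw [this]; exact hνYt
  -- the three cases
  rcases eq_or_ne cE ⊤ with hctop | hctop
  · rw [hctop, ENNReal.top_rpow_of_pos (by norm_num)]
    rcases eq_or_ne ((2 * C1 + d * (C2 * 2) : ℝ≥0) : ENNReal) 0 with hz | hz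
    · -- impossible to conclude by infinity: use boundedness instead
      exfalso
      -- the cost of a coupling of measures on a bounded set is finite
      have hfin : cE ≤ ENNReal.ofReal ((2 * R0) ^ 2) := by
        calc cE ≤ ∫⁻ _, ENNReal.ofReal ((2 * R0) ^ 2) ∂π := by
              refine lintegral_mono_ae ?_
              filter_upwards [hπY1, hπY2] with p hp1 hp2
              apply ENNReal.ofReal_le_ofReal
              have h1 : ‖p.1 - p.2‖ ≤ 2 * R0 := by
                have := norm_sub_le p.1 p.2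
                linarith [hYR0 _ hp1, hYR0 _ hp2]
              exact pow_le_pow_left₀ (norm_nonneg _) h1 2
          _ = ENNReal.ofReal ((2 * R0) ^ 2) := by
              rw [lintegral_const, measure_univ, mul_one]
      rw [hctop] at hfin
      exact ENNReal.ofReal_ne_top (top_le_iff.mp hfin)
    · rw [ENNReal.mul_top hz]
      exact le_top
  rcases eq_or_ne cE 0 with hc0 | hc0
  · -- zero cost
    have hz : ∀ᵐ p ∂π, ENNReal.ofReal (‖p.1 - p.2‖ ^ 2) = 0 := by
      have := (lintegral_eq_zero_iff (by fun_prop)).mp hc0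
      exact this
    have hz' : (∫⁻ p, ENNReal.ofReal ‖(Prod.fst p : E d) - Prod.snd p‖ ∂π) ≤ 0 := by
      have : (∫⁻ p, ENNReal.ofReal ‖(Prod.fst p : E d) - Prod.snd p‖ ∂π) = ∫⁻ _, 0 ∂π := by
        refine lintegral_congr_ae ?_
        filter_upwards [hz] with p hp
        have h1 : ‖p.1 - p.2‖ ^ 2 ≤ 0 := ENNReal.ofReal_eq_zero.mp hp
        have h2 : ‖p.1 - p.2‖ = 0 := by
          have := pow_eq_zero_iff (two_ne_zero) |>.mp (le_antisymm h1 (sq_nonneg _))
          exact this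
        rw [h2]; simp
      rw [this]; simp
    have := stepW Prod.fst Prod.snd measurable_fst measurable_snd T S hTm hSm hTmap hSmap hfY hsY
      hgT hgS 0 hz'
    rw [ENNReal.zero_rpow_of_pos (by norm_num), mul_zero] at this
    exact this.trans zero_le
  -- main case
  set c : ℝ := cE.toReal with hcdef
  have hcpos : 0 < c := ENNReal.toReal_pos hc0 hctop
  have hcE' : cE = ENNReal.ofReal c := (ENNReal.ofReal_toReal hctop).symm
  set t : ℝ := c ^ (1 / 6 : ℝ) with htdef
  have ht : 0 < t := Real.rpow_pos_of_pos hcpos _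
  have ht6 : t ^ 6 = c := by
    rw [htdef, ← Real.rpow_natCast, ← Real.rpow_mul hcpos.le]
    norm_num
  set η : ℝ := min (t ^ 4 / 2) (min (t ^ 3) 1) with hηdef
  have hη : 0 < η := by
    refine lt_min (by positivity) (lt_min (by positivity) (by norm_num))
  have hη1 : 2 * η ≤ t ^ 4 := by
    have : η ≤ t ^ 4 / 2 := min_le_left _ _
    linarith
  have hη2 : η ≤ t ^ 3 := (min_le_right _ _).trans (min_le_left _ _)
  have hη3 : η ≤ 1 := (min_le_right _ _).trans (min_le_right _ _)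
  obtain ⟨n, label, cc, cc', hlabel, hcY, hc'Y, hpos, hnear⟩ :=
    exists_labelling17 Y hY hYne π hπY1 hπY2 hη
  obtain ⟨Q, hQn, hQinj, hQfix, hQmove, hQ0, hQd⟩ :=
    exists_path17 cc cc' (R0 := R0) (η := η) (fun i => hYR0 _ (hcY i)) (fun i => hYR0 _ (hc'Y i)) hη
  have hQn' : ∀ k i, ‖Q k i‖ ≤ 2 * R0 + 1 := fun k i => (hQn k i).trans (by linarith)
  have j00 : Fin d := ⟨0, by omega⟩
  have hQI : ∀ k, Function.Injective (Q k) := by
    intro k a b hab
    exact hQinj k j00 (congrArg (fun x : E d => x j00) hab)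
  have pack := fun k => discrete_pack17 K hK hKi hKM hYR π (Fin (n + 1)) label hlabel (Q k) (hQI k)
      (fun i => hmemYt _ (hQn' k i))
  choose Tk wk hTkm hTkmap hTkae hTkmass hTkg hTkY using pack
  have hmP : ∀ P : Fin (n + 1) → E d, Measurable (fun p => P (label p)) :=
    fun P => (measurable_of_countable P).comp hlabel
  set x : ENNReal := ENNReal.ofReal t with hx
  have hx6 : x ^ 6 = cE := by
    rw [hx, ← ENNReal.ofReal_pow ht.le, ht6, hcE']
  -- first and last steps
  have b1 : (∫⁻ p, ENNReal.ofReal ‖Prod.fst p - Q 0 (label p)‖ ∂π) ≤ x ^ 4 := by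
    calc (∫⁻ p, ENNReal.ofReal ‖Prod.fst p - Q 0 (label p)‖ ∂π)
        ≤ ∫⁻ _, ENNReal.ofReal (t ^ 4) ∂π := by
          refine lintegral_mono_ae ?_
          filter_upwards [hnear] with p hp
          apply ENNReal.ofReal_le_ofReal
          have h2 := hQ0 (label p)
          have e1 : p.1 - Q 0 (label p) = (p.1 - cc (label p)) + (cc (label p) - Q 0 (label p)) := by
            abel
          calc ‖p.1 - Q 0 (label p)‖ ≤ ‖p.1 - cc (label p)‖ + ‖cc (label p) - Q 0 (label p)‖ := by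
                rw [e1]; exact norm_add_le _ _
            _ ≤ η + η := add_le_add hp.1 h2
            _ ≤ t ^ 4 := by linarith
      _ = x ^ 4 := by
          rw [lintegral_const, measure_univ, mul_one, ENNReal.ofReal_pow ht.le]
  have b5 : (∫⁻ p, ENNReal.ofReal ‖Q d (label p) - Prod.snd p‖ ∂π) ≤ x ^ 4 := by
    calc (∫⁻ p, ENNReal.ofReal ‖Q d (label p) - Prod.snd p‖ ∂π)
        ≤ ∫⁻ _, ENNReal.ofReal (t ^ 4) ∂π := by
          refine lintegral_mono_ae ?_
          filter_upwards [hnear] with p hp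
          apply ENNReal.ofReal_le_ofReal
          have h2 := hQd (label p)
          have e1 : Q d (label p) - p.2 =
              -((p.2 - cc' (label p)) + (cc' (label p) - Q d (label p))) := by
            abel
          calc ‖Q d (label p) - p.2‖ ≤ ‖p.2 - cc' (label p)‖ + ‖cc' (label p) - Q d (label p)‖ := by
                rw [e1, norm_neg]; exact norm_add_le _ _
            _ ≤ η + η := add_le_add hp.2 h2
            _ ≤ t ^ 4 := by linarith
      _ = x ^ 4 := by
          rw [lintegral_const, measure_univ, mul_one, ENNReal.ofReal_pow ht.le]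
  have s1 := stepW Prod.fst (fun p => Q 0 (label p)) measurable_fst (hmP (Q 0)) T (Tk 0) hTm
    (hTkm 0) hTmap (hTkmap 0) hfY (hTkY 0) hgT (hTkg 0) _ b1
  have s5 := stepW (fun p => Q d (label p)) Prod.snd (hmP (Q d)) measurable_snd (Tk d) S (hTkm d)
    hSm (hTkmap d) hSmap (hTkY d) hsY (hTkg d) hgS _ b5
  have a1 : (x ^ 4) ^ (1 / 4 : ℝ) = x := by
    rw [← ENNReal.rpow_natCast, ← ENNReal.rpow_mul]
    norm_num
  have a6 : cE ^ (1 / 6 : ℝ) = x := by
    rw [← hx6, ← ENNReal.rpow_natCast, ← ENNReal.rpow_mul]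
    norm_num
  rw [a1] at s1 s5
  rw [a6]
  -- the middle steps
  have mid : ∀ k, k < d → eLpNorm (fun y => Tk k y - Tk (k + 1) y) 2 (unif K) ≤ C2 * (2 * x) := by
    intro k hk
    let j0 : Fin d := ⟨k, hk⟩
    obtain ⟨j1, hj1⟩ : ∃ j1 : Fin d, j0 ≠ j1 := by
      by_cases h0 : k = 0
      · exact ⟨⟨1, by omega⟩, by simp [j0, Fin.ext_iff, h0]⟩
      · exact ⟨⟨0, by omega⟩, by simp [j0, Fin.ext_iff, h0]⟩
    have h := hC2 (Fin (n + 1)) j0 j1 hj1 (Q k) (Q (k + 1)) (wk k) (wk (k + 1)) (hQn' k)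
      (hQn' (k + 1)) (fun i j hj => hQfix k i j (fun h => hj (Fin.ext h))) (hQinj k j1)
      (Tk k) (Tk (k + 1)) (hTkm k) (hTkm (k + 1)) (hTkae k) (hTkae (k + 1))
      (fun i => (hTkmass k i).trans (hTkmass (k + 1) i).symm)
      (fun i => by rw [hTkmass k i]; exact hpos i)
    refine h.trans ?_
    gcongr
    have e1 : (∑ i, (unif K {x | ∀ j, ⟪x, Q k j⟫ - wk k j ≤ ⟪x, Q k i⟫ - wk k i}).toReal *
        (Q k i j0 - Q (k + 1) i j0) ^ 2) =
        ∑ i, (π (label ⁻¹' {i})).toReal * (cc i j0 - cc' i j0) ^ 2 := by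
      apply Finset.sum_congr rfl
      intro i _
      rw [hTkmass k i, hQmove k i j0 rfl]
    rw [e1]
    have h2 := cost_le17 π label hlabel cc cc' hη.le hnear j0
    have h3 : ENNReal.ofReal (8 * η ^ 2) ≤ 8 * cE := by
      rw [hcE', ENNReal.ofReal_mul (by norm_num)]
      gcongr
      · simp
      · rw [← ht6]
        calc η ^ 2 ≤ (t ^ 3) ^ 2 := pow_le_pow_left₀ hη.le hη2 2
          _ = t ^ 6 := by ring
    have h4 : ENNReal.ofReal (∑ i, (π (label ⁻¹' {i})).toReal * (cc i j0 - cc' i j0) ^ 2) ≤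
        (2 * x) ^ 6 := by
      calc ENNReal.ofReal (∑ i, (π (label ⁻¹' {i})).toReal * (cc i j0 - cc' i j0) ^ 2)
          ≤ 2 * cE + 8 * cE := h2.trans (by gcongr)
        _ = 10 * cE := by ring
        _ ≤ 64 * cE := by gcongr; norm_num
        _ = (2 * x) ^ 6 := by rw [mul_pow, hx6]; norm_num
    calc ENNReal.ofReal (∑ i, (π (label ⁻¹' {i})).toReal * (cc i j0 - cc' i j0) ^ 2) ^ (1 / 6 : ℝ)
        ≤ ((2 * x) ^ 6) ^ (1 / 6 : ℝ) := ENNReal.rpow_le_rpow h4 (by norm_num)
      _ = 2 * x := by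
          rw [← ENNReal.rpow_natCast, ← ENNReal.rpow_mul]
          norm_num
  have tele : ∀ k, k ≤ d → eLpNorm (fun y => Tk 0 y - Tk k y) 2 (unif K) ≤ k * (C2 * (2 * x)) := by
    intro k
    induction k with
    | zero =>
      intro _
      simp
    | succ k ih =>
      intro hk
      refine (eLpNorm_tri17 (hTkm 0) (hTkm k) (hTkm (k + 1))).trans ?_
      have h1 := ih (by omega)
      have h2 := mid k (by omega)
      calc eLpNorm (fun y => Tk 0 y - Tk k y) 2 (unif K) +
            eLpNorm (fun y => Tk k y - Tk (k + 1) y) 2 (unif K)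
          ≤ k * (C2 * (2 * x)) + C2 * (2 * x) := add_le_add h1 h2
        _ = ((k + 1 : ℕ) : ENNReal) * (C2 * (2 * x)) := by
            push_cast
            ring
  calc eLpNorm (fun y => T y - S y) 2 (unif K)
      ≤ eLpNorm (fun y => T y - Tk 0 y) 2 (unif K) + (eLpNorm (fun y => Tk 0 y - Tk d y) 2 (unif K) +
          eLpNorm (fun y => Tk d y - S y) 2 (unif K)) := by
        refine (eLpNorm_tri17 hTm (hTkm 0) hSm).trans ?_
        gcongr
        exact eLpNorm_tri17 (hTkm 0) (hTkm d) hSm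
    _ ≤ C1 * x + (d * (C2 * (2 * x)) + C1 * x) := by
        gcongr
        exact tele d le_rfl
    _ = ((2 * C1 + d * (C2 * 2) : ℝ≥0) : ENNReal) * x := by
        push_cast
        ring

/-- The exponent `1/3` is admissible in every dimension `d ≥ 2`, given the discrete statement. -/
theorem admissible_third_of_discStab (d : ℕ) (hd : 2 ≤ d) (h : DiscStab d) :
    Admissible d (1 / 3) := by
  refine ⟨by norm_num, by norm_num, ?_⟩
  intro K hK hKc hKi Y hY hYne
  obtain ⟨C, hC⟩ := key_bound17 hd h K hK hKc hKi Y hY hYne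
  refine ⟨C, ?_⟩
  intro μ ν hμ hν hμY hνY T S hT hS
  exact le_W2_third_of_forall_coupling (fun π h1 h2 => hC μ ν hμ hν hμY hνY T S hT hS π h1 h2)

end Vale.Agent.Lib.P074u
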