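import Vale.Agent.Lib.P074q.Defs
import Vale.Agent.Lib.P074b.Defs

/-!
Power diagrams in a convex body: the weights are determined by the cell volumes up to an additive
constant, and they depend continuously on the cell volumes.
-/

open MeasureTheory Filter Topology
open scoped NNReal RealInnerProductSpace

namespace Vale.Agent.Lib.P074u

open Vale.Agent.Lib.P074q (E)
open Vale.Agent.Lib.P074b (unif)

variable {d : ℕ} {ι : Type} [Fintype ι] [Nonempty ι]

/-- The cell of index `i` of the power diagram with sites `P` and weights `w`, inside `K`. -/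
def cellU (K : Set (E d)) (P : ι → E d) (w : ι → ℝ) (i : ι) : Set (E d) :=
  {x | x ∈ K ∧ ∀ j, ⟪x, P j⟫ - w j ≤ ⟪x, P i⟫ - w i}

omit [Fintype ι] [Nonempty ι] in
lemma cellU_eq (K : Set (E d)) (P : ι → E d) (w : ι → ℝ) (i : ι) :
    cellU K P w i = K ∩ ⋂ j, {x | ⟪x, P j⟫ - w j ≤ ⟪x, P i⟫ - w i} := by
  ext x; simp [cellU]

omit [Fintype ι] [Nonempty ι] in
lemma isClosed_cellU {K : Set (E d)} (hK : IsClosed K) (P : ι → E d) (w : ι → ℝ) (i : ι) :
    IsClosed (cellU K P w i) := by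
  rw [cellU_eq]
  exact hK.inter (isClosed_iInter fun j => isClosed_le (by fun_prop) (by fun_prop))

omit [Fintype ι] [Nonempty ι] in
lemma cellU_subset (K : Set (E d)) (P : ι → E d) (w : ι → ℝ) (i : ι) : cellU K P w i ⊆ K :=
  fun _ hx => hx.1

omit [Fintype ι] [Nonempty ι] in
lemma cellU_shift (K : Set (E d)) (P : ι → E d) (w : ι → ℝ) (c : ℝ) (i : ι) :
    cellU K P (fun j => w j - c) i = cellU K P w i := by
  ext x
  simp only [cellU, Set.mem_ofPred_eq]
  constructor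
  · rintro ⟨h1, h2⟩
    exact ⟨h1, fun j => by have := h2 j; linarith⟩
  · rintro ⟨h1, h2⟩
    exact ⟨h1, fun j => by have := h2 j; linarith⟩

lemma pos_of_relOpen {K : Set (E d)} (hKc : Convex ℝ K) (hKi : (interior K).Nonempty)
    {O : Set (E d)} (hO : IsOpen O) {x : E d} (hxK : x ∈ K) (hxO : x ∈ O) :
    0 < volume (O ∩ K) := by
  have hcl : x ∈ closure (interior K) := by
    rw [hKc.closure_interior_eq_closure_of_nonempty_interior hKi]
    exact subset_closure hxK
  obtain ⟨z, hzO, hzI⟩ := mem_closure_iff.mp hcl O hO hxO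
  have h1 : 0 < volume (O ∩ interior K) :=
    (hO.inter isOpen_interior).measure_pos volume ⟨z, hzO, hzI⟩
  exact h1.trans_le (measure_mono (Set.inter_subset_inter_right _ interior_subset))

/-- Uniqueness of the weights: if no cell loses volume, the weights differ by a constant. -/
theorem weights_unique {K : Set (E d)} (hK : IsCompact K) (hKc : Convex ℝ K)
    (hKi : (interior K).Nonempty) (P : ι → E d) (w0 w1 : ι → ℝ)
    (hpos : ∀ i, 0 < volume (cellU K P w0 i))
    (hle : ∀ i, volume (cellU K P w0 i) ≤ volume (cellU K P w1 i)) :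
    ∃ c, ∀ i, w1 i = w0 i + c := by
  classical
  obtain ⟨i0, hi0⟩ := Finite.exists_max (fun i => w1 i - w0 i)
  refine ⟨w1 i0 - w0 i0, fun j0 => ?_⟩
  by_contra hne
  have hj0 : w1 j0 - w0 j0 < w1 i0 - w0 i0 :=
    lt_of_le_of_ne (hi0 j0) (fun h => hne (by linarith))
  set S : Set ι := {i | w1 i - w0 i = w1 i0 - w0 i0} with hS
  set U1 : Set (E d) := ⋃ i ∈ S, cellU K P w1 i with hU1
  set O : Set (E d) := ⋃ i ∈ S, ⋂ j ∈ Sᶜ, {x | ⟪x, P j⟫ - w0 j < ⟪x, P i⟫ - w0 i} with hO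
  have hnS : ∀ j, j ∉ S → w1 j - w0 j < w1 i0 - w0 i0 := fun j hj =>
    lt_of_le_of_ne (hi0 j) hj
  have hU1c : IsClosed U1 :=
    Set.Finite.isClosed_biUnion (Set.toFinite S) (fun i _ => isClosed_cellU hK.isClosed P w1 i)
  have hOo : IsOpen O :=
    isOpen_biUnion fun i _ => Set.Finite.isOpen_biInter (Set.toFinite _)
      (fun j _ => isOpen_lt (by fun_prop) (by fun_prop))
  have hU1O : U1 ⊆ O := by
    intro x hx
    simp only [hU1, Set.mem_iUnion] at hx
    obtain ⟨i, hiS, hxK, hxi⟩ := hx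
    simp only [hO, Set.mem_iUnion, Set.mem_iInter]
    refine ⟨i, hiS, fun j hj => ?_⟩
    have h1 := hxi j
    have h2 := hnS j hj
    have h3 : w1 i - w0 i = w1 i0 - w0 i0 := hiS
    show ⟪x, P j⟫ - w0 j < ⟪x, P i⟫ - w0 i
    linarith
  have hsub : ∀ i ∈ S, cellU K P w1 i ⊆ cellU K P w0 i := by
    intro i hiS x hx
    refine ⟨hx.1, fun j => ?_⟩
    have h1 := hx.2 j
    have h2 := hi0 j
    have h3 : w1 i - w0 i = w1 i0 - w0 i0 := hiS
    linarith
  have hnull : ∀ i ∈ S, volume (cellU K P w0 i \ cellU K P w1 i) = 0 := by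
    intro i hiS
    have hfin : volume (cellU K P w1 i) ≠ ⊤ :=
      ((measure_mono (cellU_subset K P w1 i)).trans_lt hK.measure_lt_top).ne
    rw [measure_sdiff (hsub i hiS) (isClosed_cellU hK.isClosed P w1 i).nullMeasurableSet hfin]
    exact tsub_eq_zero_of_le (hle i)
  have hcover : (O ∩ U1ᶜ) ∩ K ⊆ ⋃ i ∈ S, (cellU K P w0 i \ cellU K P w1 i) := by
    rintro x ⟨⟨hxO, hxU⟩, hxK⟩
    obtain ⟨i1, hi1⟩ := Finite.exists_max (fun i => ⟪x, P i⟫ - w0 i)
    have hi1S : i1 ∈ S := by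
      by_contra hcon
      simp only [hO, Set.mem_iUnion, Set.mem_iInter] at hxO
      obtain ⟨i, hiS, hi⟩ := hxO
      have h1 : ⟪x, P i1⟫ - w0 i1 < ⟪x, P i⟫ - w0 i := hi i1 hcon
      have h2 := hi1 i
      linarith
    simp only [Set.mem_iUnion]
    refine ⟨i1, hi1S, ⟨hxK, hi1⟩, fun hcon => hxU ?_⟩
    simp only [hU1, Set.mem_iUnion]
    exact ⟨i1, hi1S, hcon⟩
  have hnull2 : volume ((O ∩ U1ᶜ) ∩ K) = 0 := by
    refine measure_mono_null hcover ?_
    exact (measure_biUnion_null_iff (Set.to_countable S)).mpr hnull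
  have hempty : ∀ x ∈ K, x ∈ O → x ∈ U1 := by
    intro x hxK hxO
    by_contra hcon
    have := pos_of_relOpen hKc hKi (hOo.inter hU1c.isOpen_compl) hxK ⟨hxO, hcon⟩
    rw [hnull2] at this
    exact lt_irrefl _ this
  have hi0S : i0 ∈ S := rfl
  -- a point of `K ∩ O`
  obtain ⟨x1, hx1⟩ : (cellU K P w1 i0).Nonempty := by
    apply nonempty_of_measure_ne_zero (μ := volume)
    exact ((hpos i0).trans_le (hle i0)).ne'
  have hx1U : x1 ∈ U1 := by
    simp only [hU1, Set.mem_iUnion]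
    exact ⟨i0, hi0S, hx1⟩
  -- a point of `K` outside `O`
  obtain ⟨x2, hx2⟩ : (cellU K P w0 j0).Nonempty := by
    apply nonempty_of_measure_ne_zero (μ := volume)
    exact (hpos j0).ne'
  have hj0S : j0 ∉ S := fun h => by
    have h3 : w1 j0 - w0 j0 = w1 i0 - w0 i0 := h
    linarith
  have hx2O : x2 ∉ O := by
    intro hcon
    simp only [hO, Set.mem_iUnion, Set.mem_iInter] at hcon
    obtain ⟨i, hiS, hi⟩ := hcon
    have h1 : ⟪x2, P j0⟫ - w0 j0 < ⟪x2, P i⟫ - w0 i := hi j0 hj0S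
    have h2 := hx2.2 i
    linarith
  have hx2U : x2 ∈ U1ᶜ := fun h => hx2O (hU1O h)
  have hconn := hKc.isPreconnected O U1ᶜ hOo hU1c.isOpen_compl
    (fun x _ => by
      by_cases hx : x ∈ U1
      · exact Or.inl (hU1O hx)
      · exact Or.inr hx)
    ⟨x1, hx1.1, hU1O hx1U⟩ ⟨x2, hx2.1, hx2U⟩
  obtain ⟨x, hxK, hxO, hxU⟩ := hconn
  exact hxU (hempty x hxK hxO)

omit [Nonempty ι] in
/-- Upper semicontinuity of the cell volumes in the weights. -/
lemma cellU_usc {K : Set (E d)} (hK : IsCompact K) (P : ι → E d) (a : ι → ℝ) (v : ℕ → ι → ℝ)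
    (hv : Tendsto v atTop (𝓝 a)) (i : ι) (m : ENNReal)
    (hm : Tendsto (fun n => volume (cellU K P (v n) i)) atTop (𝓝 m)) :
    m ≤ volume (cellU K P a i) := by
  set A : ℕ → Set (E d) := fun k =>
    K ∩ ⋂ j, {x | ⟪x, P j⟫ - a j ≤ ⟪x, P i⟫ - a i + 1 / ((k : ℝ) + 1)} with hA
  have hAc : ∀ k, IsClosed (A k) := fun k =>
    hK.isClosed.inter (isClosed_iInter fun j => isClosed_le (by fun_prop) (by fun_prop))
  have hAanti : Antitone A := by
    intro k l hkl x hx
    refine ⟨hx.1, ?_⟩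
    have hx2 := hx.2
    simp only [Set.mem_iInter] at hx2 ⊢
    intro j
    have h1 : ⟪x, P j⟫ - a j ≤ ⟪x, P i⟫ - a i + 1 / ((l : ℝ) + 1) := hx2 j
    have h2 : 1 / ((l : ℝ) + 1) ≤ 1 / ((k : ℝ) + 1) := by
      apply one_div_le_one_div_of_le (by positivity)
      have : (k : ℝ) ≤ l := by exact_mod_cast hkl
      linarith
    show ⟪x, P j⟫ - a j ≤ ⟪x, P i⟫ - a i + 1 / ((k : ℝ) + 1)
    linarith
  have hAint : ⋂ k, A k = cellU K P a i := by
    ext x
    simp only [hA, Set.mem_iInter, Set.mem_inter_iff, cellU]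
    constructor
    · intro h
      refine ⟨(h 0).1, fun j => ?_⟩
      have hlim : Tendsto (fun k : ℕ => ⟪x, P i⟫ - a i + 1 / ((k : ℝ) + 1)) atTop
          (𝓝 (⟪x, P i⟫ - a i + 0)) :=
        tendsto_const_nhds.add tendsto_one_div_add_atTop_nhds_zero_nat
      rw [add_zero] at hlim
      exact ge_of_tendsto' hlim (fun k => (h k).2 j)
    · rintro ⟨h1, h2⟩ k
      refine ⟨h1, fun j => ?_⟩
      have h3 := h2 j
      have h4 : 0 < 1 / ((k : ℝ) + 1) := by positivity
      show ⟪x, P j⟫ - a j ≤ ⟪x, P i⟫ - a i + 1 / ((k : ℝ) + 1)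
      linarith
  have hlimA : Tendsto (fun k => volume (A k)) atTop (𝓝 (volume (cellU K P a i))) := by
    rw [← hAint]
    exact tendsto_measure_iInter_atTop (fun k => (hAc k).nullMeasurableSet) hAanti
      ⟨0, ((measure_mono Set.inter_subset_left).trans_lt hK.measure_lt_top).ne⟩
  refine ge_of_tendsto' hlimA (fun k => ?_)
  refine le_of_tendsto hm ?_
  have hε : 0 < 1 / ((k : ℝ) + 1) / 2 := by positivity
  have hev : ∀ᶠ n in atTop, dist (v n) a < 1 / ((k : ℝ) + 1) / 2 :=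
    (Metric.tendsto_nhds.mp hv) _ hε
  filter_upwards [hev] with n hn
  apply measure_mono
  intro x hx
  refine ⟨hx.1, ?_⟩
  simp only [Set.mem_iInter]
  intro j
  have h1 := hx.2 j
  have h2 : dist (v n j) (a j) < 1 / ((k : ℝ) + 1) / 2 := (dist_le_pi_dist _ _ j).trans_lt hn
  have h3 : dist (v n i) (a i) < 1 / ((k : ℝ) + 1) / 2 := (dist_le_pi_dist _ _ i).trans_lt hn
  rw [Real.dist_eq, abs_lt] at h2 h3
  show ⟪x, P j⟫ - a j ≤ ⟪x, P i⟫ - a i + 1 / ((k : ℝ) + 1)
  linarith [h2.1, h2.2, h3.1, h3.2]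

/-- Continuity of the weights in the cell volumes, tested against a vector of zero sum. -/
theorem weights_tendsto {K : Set (E d)} (hK : IsCompact K) (hKc : Convex ℝ K)
    (hKi : (interior K).Nonempty) (P : ι → E d) (w : ι → ℝ)
    (hpos : ∀ i, 0 < volume (cellU K P w i)) (wn : ℕ → ι → ℝ)
    (hconv : ∀ i, Tendsto (fun n => volume (cellU K P (wn n) i)) atTop
      (𝓝 (volume (cellU K P w i))))
    (F : ι → ℝ) (hF : ∑ i, F i = 0) :
    Tendsto (fun n => ∑ i, F i * wn n i) atTop (𝓝 (∑ i, F i * w i)) := by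
  classical
  apply tendsto_of_subseq_tendsto
  intro ns hns
  have i0 : ι := Classical.arbitrary ι
  set v : ℕ → ι → ℝ := fun n i => wn (ns n) i - wn (ns n) i0 with hv
  have hcellv : ∀ n i, cellU K P (v n) i = cellU K P (wn (ns n)) i := fun n i =>
    cellU_shift K P (wn (ns n)) (wn (ns n) i0) i
  have hev : ∀ᶠ n in atTop, ∀ i, 0 < volume (cellU K P (v n) i) := by
    rw [eventually_all]
    intro i
    have := ((hconv i).comp hns).eventually (lt_mem_nhds (hpos i))
    filter_upwards [this] with n hn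
    rw [hcellv]
    exact hn
  obtain ⟨M, hM⟩ : ∃ M, ∀ x ∈ K, ‖x‖ ≤ M := hK.isBounded.exists_norm_le
  obtain ⟨i1, hi1⟩ := Finite.exists_max (fun i => ‖P i‖)
  set B : ℝ := M * (2 * ‖P i1‖) with hB
  have hbd : ∀ᶠ n in atTop, v n ∈ Set.pi Set.univ (fun _ : ι => Set.Icc (-B) B) := by
    filter_upwards [hev] with n hn
    intro i _
    have key : ∀ i j, v n i - v n j ≤ B := by
      intro i j
      obtain ⟨x, hx⟩ : (cellU K P (v n) i).Nonempty :=
        nonempty_of_measure_ne_zero (μ := volume) (hn i).ne'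
      have h1 := hx.2 j
      have h2 : ⟪x, P i - P j⟫ ≤ ‖x‖ * ‖P i - P j‖ := real_inner_le_norm _ _
      have h3 : ‖P i - P j‖ ≤ 2 * ‖P i1‖ := by
        have := norm_sub_le (P i) (P j)
        have h4 := hi1 i
        have h5 := hi1 j
        linarith
      have h6 : ‖x‖ * ‖P i - P j‖ ≤ M * (2 * ‖P i1‖) :=
        mul_le_mul (hM x hx.1) h3 (norm_nonneg _) ((norm_nonneg x).trans (hM x hx.1))
      rw [inner_sub_right] at h2
      linarith
    have h0 : v n i0 = 0 := by simp [hv]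
    have h1 := key i i0
    have h2 := key i0 i
    rw [h0] at h1 h2
    exact ⟨by linarith, by linarith⟩
  have hcomp : IsCompact (Set.pi Set.univ (fun _ : ι => Set.Icc (-B) B)) :=
    isCompact_univ_pi (fun _ => isCompact_Icc)
  obtain ⟨a, -, φ, hφ, hlim⟩ := hcomp.tendsto_subseq' hbd.frequently
  have hle : ∀ i, volume (cellU K P w i) ≤ volume (cellU K P a i) := by
    intro i
    apply cellU_usc hK P a (v ∘ φ) hlim i
    have h1 := ((hconv i).comp hns).comp hφ.tendsto_atTop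
    refine h1.congr (fun n => ?_)
    simp only [Function.comp]
    rw [hcellv]
  obtain ⟨c, hc⟩ := weights_unique hK hKc hKi P w a hpos hle
  refine ⟨φ, ?_⟩
  have h1 : Tendsto (fun n => ∑ i, F i * (v ∘ φ) n i) atTop (𝓝 (∑ i, F i * a i)) := by
    apply tendsto_finsetSum
    intro i _
    exact ((tendsto_pi_nhds.mp hlim) i).const_mul (F i)
  have h2 : ∑ i, F i * a i = ∑ i, F i * w i := by
    have : ∑ i, F i * a i = ∑ i, F i * w i + (∑ i, F i) * c := by
      rw [Finset.sum_mul, ← Finset.sum_add_distrib]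
      exact Finset.sum_congr rfl (fun i _ => by rw [hc i]; ring)
    rw [this, hF]; ring
  rw [h2] at h1
  refine h1.congr (fun n => ?_)
  have : ∑ i, F i * (v ∘ φ) n i = ∑ i, F i * wn (ns (φ n)) i - (∑ i, F i) * wn (ns (φ n)) i0 := by
    rw [Finset.sum_mul, ← Finset.sum_sub_distrib]
    exact Finset.sum_congr rfl (fun i _ => by simp only [Function.comp, hv]; ring)
  rw [this, hF]; ring

omit [Fintype ι] [Nonempty ι] in
lemma vol_cellU_eq {K : Set (E d)} (hK : IsCompact K) (hKi : (interior K).Nonempty)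
    (P : ι → E d) (w : ι → ℝ) (i : ι) :
    volume (cellU K P w i) =
      volume K * unif K {x | ∀ j, ⟪x, P j⟫ - w j ≤ ⟪x, P i⟫ - w i} := by
  have hv0 : volume K ≠ 0 := (Measure.measure_pos_of_nonempty_interior volume hKi).ne'
  have hvT : volume K ≠ ⊤ := hK.measure_lt_top.ne
  unfold unif
  rw [Measure.smul_apply, Measure.restrict_apply' hK.measurableSet, smul_eq_mul, ← mul_assoc,
    ENNReal.mul_inv_cancel hv0 hvT, one_mul]
  congr 1
  ext x; simp [cellU, and_comm]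

/-- `weights_unique` in terms of the uniform probability measure on `K`. -/
theorem weights_unique_unif {K : Set (E d)} (hK : IsCompact K) (hKc : Convex ℝ K)
    (hKi : (interior K).Nonempty) (P : ι → E d) (w0 w1 : ι → ℝ)
    (hpos : ∀ i, 0 < unif K {x | ∀ j, ⟪x, P j⟫ - w0 j ≤ ⟪x, P i⟫ - w0 i})
    (hle : ∀ i, unif K {x | ∀ j, ⟪x, P j⟫ - w0 j ≤ ⟪x, P i⟫ - w0 i} ≤
      unif K {x | ∀ j, ⟪x, P j⟫ - w1 j ≤ ⟪x, P i⟫ - w1 i}) :
    ∃ c, ∀ i, w1 i = w0 i + c := by
  have hv0 : volume K ≠ 0 := (Measure.measure_pos_of_nonempty_interior volume hKi).ne'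
  apply weights_unique hK hKc hKi P w0 w1
  · intro i
    rw [vol_cellU_eq hK hKi]
    exact ENNReal.mul_pos hv0 (hpos i).ne'
  · intro i
    rw [vol_cellU_eq hK hKi, vol_cellU_eq hK hKi]
    exact mul_le_mul_right (hle i) _

/-- `weights_tendsto` in terms of the uniform probability measure on `K`. -/
theorem weights_tendsto_unif {K : Set (E d)} (hK : IsCompact K) (hKc : Convex ℝ K)
    (hKi : (interior K).Nonempty) (P : ι → E d) (w : ι → ℝ)
    (hpos : ∀ i, 0 < unif K {x | ∀ j, ⟪x, P j⟫ - w j ≤ ⟪x, P i⟫ - w i}) (wn : ℕ → ι → ℝ)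
    (hconv : ∀ i, Tendsto
      (fun n => unif K {x | ∀ j, ⟪x, P j⟫ - wn n j ≤ ⟪x, P i⟫ - wn n i}) atTop
      (𝓝 (unif K {x | ∀ j, ⟪x, P j⟫ - w j ≤ ⟪x, P i⟫ - w i})))
    (F : ι → ℝ) (hF : ∑ i, F i = 0) :
    Tendsto (fun n => ∑ i, F i * wn n i) atTop (𝓝 (∑ i, F i * w i)) := by
  have hv0 : volume K ≠ 0 := (Measure.measure_pos_of_nonempty_interior volume hKi).ne'
  have hvT : volume K ≠ ⊤ := hK.measure_lt_top.ne
  apply weights_tendsto hK hKc hKi P w _ wn _ F hF
  · intro i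
    rw [vol_cellU_eq hK hKi]
    exact ENNReal.mul_pos hv0 (hpos i).ne'
  · intro i
    simp only [vol_cellU_eq hK hKi]
    exact ENNReal.Tendsto.const_mul (hconv i) (Or.inr hvT)

end Vale.Agent.Lib.P074u
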