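import Vale.Agent.Lib.P074u.Defs
import Vale.Agent.Lib.P074u.WeightsCont

/-!
Continuity (and uniqueness up to constants) of the weights of a power diagram as a function of
the masses of the cells, in terms of the definitions of `Defs`.
-/

open MeasureTheory Filter Topology
open scoped NNReal RealInnerProductSpace

namespace Vale.Agent.Lib.P074u

open Vale.Agent.Lib.P074q (E)
open Vale.Agent.Lib.P074b (unif)

variable {d : ℕ} {ι : Type} [Fintype ι]

omit [Fintype ι] in
lemma unif_ne_top {K : Set (E d)} (hK : IsCompact K) (hKi : (interior K).Nonempty)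
    (s : Set (E d)) : unif K s ≠ ⊤ := by
  have hv0 : volume K ≠ 0 := (Measure.measure_pos_of_nonempty_interior volume hKi).ne'
  unfold unif
  rw [Measure.smul_apply, smul_eq_mul]
  refine ENNReal.mul_ne_top (ENNReal.inv_ne_top.mpr hv0) ?_
  have h1 : (volume.restrict K) s ≤ volume K := by
    rw [Measure.restrict_apply' hK.measurableSet]
    exact measure_mono Set.inter_subset_right
  exact (h1.trans_lt hK.measure_lt_top).ne

/-- Uniqueness of the weights up to a constant. -/
theorem weights_unique_mass [Nonempty ι] {K : Set (E d)} (hK : IsCompact K) (hKc : Convex ℝ K)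
    (hKi : (interior K).Nonempty) (P : ι → E d) (w0 w1 : ι → ℝ)
    (hm : ∀ i, 0 < mass K P w0 i) (hle : ∀ i, mass K P w0 i ≤ mass K P w1 i) :
    ∃ c, ∀ i, w1 i = w0 i + c := by
  apply weights_unique_unif hK hKc hKi P w0 w1
  · intro i
    exact (ENNReal.toReal_pos_iff.mp (hm i)).1
  · intro i
    exact (ENNReal.toReal_le_toReal (unif_ne_top hK hKi _) (unif_ne_top hK hKi _)).mp (hle i)

/-- Sequential continuity of the weights in the masses, tested against a vector of zero sum. -/
theorem weights_tendsto_mass [Nonempty ι] {K : Set (E d)} (hK : IsCompact K) (hKc : Convex ℝ K)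
    (hKi : (interior K).Nonempty) (P : ι → E d) (w : ι → ℝ)
    (hm : ∀ i, 0 < mass K P w i) (wn : ℕ → ι → ℝ)
    (hconv : ∀ i, Tendsto (fun n => mass K P (wn n) i) atTop (𝓝 (mass K P w i)))
    (F : ι → ℝ) (hF : ∑ i, F i = 0) :
    Tendsto (fun n => ∑ i, F i * wn n i) atTop (𝓝 (∑ i, F i * w i)) := by
  apply weights_tendsto_unif hK hKc hKi P w _ wn _ F hF
  · intro i
    exact (ENNReal.toReal_pos_iff.mp (hm i)).1
  · intro i
    exact (ENNReal.tendsto_toReal_iff (fun n => unif_ne_top hK hKi _)
      (unif_ne_top hK hKi _)).mp (hconv i)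

/-- Continuity (and uniqueness up to constants) of the weights as a function of the masses. -/
theorem weights_continuous [Nonempty ι] {K : Set (E d)} (hK : IsCompact K) (hKc : Convex ℝ K)
    (hKi : (interior K).Nonempty) {P : ι → E d} (hP : Function.Injective P) (w : ι → ℝ)
    (hm : ∀ i, 0 < mass K P w i) {η : ℝ} (hη : 0 < η) :
    ∃ δ : ℝ, 0 < δ ∧ ∀ v : ι → ℝ, (∀ i, |mass K P v i - mass K P w i| ≤ δ) →
      ∀ i j, (v i - w i) - (v j - w j) ≤ η := by
  classical
  by_contra hcon
  push Not at hcon
  have hn : ∀ n : ℕ, ∃ v : ι → ℝ, (∀ i, |mass K P v i - mass K P w i| ≤ 1 / ((n : ℝ) + 1)) ∧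
      ∃ i j, η < (v i - w i) - (v j - w j) := fun n => hcon (1 / ((n : ℝ) + 1)) (by positivity)
  choose wn hwn1 hwn2 using hn
  have hconv : ∀ i, Tendsto (fun n => mass K P (wn n) i) atTop (𝓝 (mass K P w i)) := by
    intro i
    rw [tendsto_iff_dist_tendsto_zero]
    refine squeeze_zero (fun n => dist_nonneg) (fun n => ?_)
      tendsto_one_div_add_atTop_nhds_zero_nat
    rw [Real.dist_eq]
    exact hwn1 n i
  have hpair : ∀ i j : ι, ∀ᶠ n in atTop, (wn n i - w i) - (wn n j - w j) < η := by
    intro i j
    by_cases hij : i = j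
    · subst hij
      exact Eventually.of_forall (fun n => by simpa using hη)
    set F : ι → ℝ := fun k => (if k = i then 1 else 0) - (if k = j then 1 else 0) with hFdef
    have hF : ∑ k, F k = 0 := by
      simp [hFdef, Finset.sum_sub_distrib]
    have hval : ∀ u : ι → ℝ, ∑ k, F k * u k = u i - u j := by
      intro u
      simp [hFdef, sub_mul, Finset.sum_sub_distrib]
    have ht := weights_tendsto_mass hK hKc hKi P w hm wn hconv F hF
    simp only [hval] at ht
    have := ht.eventually (gt_mem_nhds (show w i - w j < w i - w j + η by linarith))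
    filter_upwards [this] with n hn
    linarith
  have hall : ∀ᶠ n in atTop, ∀ i j : ι, (wn n i - w i) - (wn n j - w j) < η := by
    rw [eventually_all]
    intro i
    rw [eventually_all]
    exact hpair i
  obtain ⟨n, hn⟩ := hall.exists
  obtain ⟨i, j, hij⟩ := hwn2 n
  exact lt_irrefl _ (hij.trans (hn i j))

end Vale.Agent.Lib.P074u
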