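import Vale.Agent.Lib.P074b.Defs
import Vale.Agent.Lib.P074q.Defs

/-!
Power diagrams in `E d`: definitions for the `L²` Lipschitz stability of the potentials of
finitely supported targets with respect to the quadratic transport cost (all dimensions).
-/

open MeasureTheory
open scoped NNReal RealInnerProductSpace

namespace Vale.Agent.Lib.P074u

open Vale.Agent.Lib.P074q (E)
open Vale.Agent.Lib.P074b (unif)

variable {d : ℕ} {ι : Type} [Fintype ι]

/-- The affine piece `⟪x, P i⟫ - w i`. -/
noncomputable def aff (P : ι → E d) (w : ι → ℝ) (i : ι) (x : E d) : ℝ := ⟪x, P i⟫ - w i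

/-- The piecewise affine convex potential. -/
noncomputable def pot (P : ι → E d) (w : ι → ℝ) (x : E d) : ℝ := ⨆ i, aff P w i x

/-- The cell of index `i` (not intersected with the source body). -/
def cell (P : ι → E d) (w : ι → ℝ) (i : ι) : Set (E d) :=
  {x | ∀ j, aff P w j x ≤ aff P w i x}

/-- Mass of the cell for the uniform measure on `K`. -/
noncomputable def mass (K : Set (E d)) (P : ι → E d) (w : ι → ℝ) (i : ι) : ℝ :=
  (unif K (cell P w i)).toReal

/-- First moment of the cell for the uniform measure on `K`. -/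
noncomputable def mom (K : Set (E d)) (P : ι → E d) (w : ι → ℝ) (i : ι) : E d :=
  ∫ x in cell P w i, x ∂(unif K)

/-- The value `∑ i, ⟪mom i, P i⟫` of the diagram. -/
noncomputable def val (K : Set (E d)) (P : ι → E d) (w : ι → ℝ) : ℝ :=
  ∑ i, ⟪mom K P w i, P i⟫

/-- The Gaussian weight. -/
noncomputable def gam (K0 : ℝ) (x : E d) : ℝ := Real.exp (-(K0 * ‖x‖ ^ 2 / 2))

end Vale.Agent.Lib.P074u
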