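import Vale.Agent.Lib.P074e.SupToL2Sub

open MeasureTheory ENNReal
open scoped NNReal RealInnerProductSpace

namespace Vale.Agent.Lib.P074u
open Vale.Agent.Lib.P074q Vale.Agent.Lib.P074e

variable {d : ℕ}

/-- the elementary pointwise inequality behind the finite difference argument, `L²` version -/
lemma pointwise_fd2 {r R t t' s s' da da' k k' : ℝ} (hr : 0 < r)
    (ht : |t| ≤ R) (hs : |s| ≤ R) (ht' : |t'| ≤ R) (hs' : |s'| ≤ R)
    (h1 : r * t ≤ da) (h2 : da ≤ r * t') (h3 : r * s ≤ da') (h4 : da' ≤ r * s')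
    (hk : k' - k = da' - da) :
    r ^ 2 * (s - t) ^ 2 ≤ 4 * k' ^ 2 + 4 * k ^ 2 + 8 * R * r ^ 2 * ((t' - t) + (s' - s)) := by
  have hτ : 0 ≤ t' - t := by nlinarith
  have hσ : 0 ≤ s' - s := by nlinarith
  have hR : 0 ≤ R := (abs_nonneg t).trans ht
  rw [abs_le] at ht hs ht' hs'
  set D : ℝ := (t' - t) + (s' - s) with hD
  have hD0 : 0 ≤ D := by linarith
  have hD4 : D ≤ 4 * R := by linarith [ht.1, ht.2, hs.1, hs.2, ht'.1, ht'.2, hs'.1, hs'.2]
  have l1 : -(r * D) ≤ (k' - k) - r * (s - t) := by rw [hk]; nlinarith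
  have l2 : (k' - k) - r * (s - t) ≤ r * D := by rw [hk]; nlinarith
  have hrD : 0 ≤ r * D := mul_nonneg hr.le hD0
  have e1 : ((k' - k) - r * (s - t)) ^ 2 ≤ (r * D) ^ 2 := by
    apply sq_le_sq'
    · linarith
    · exact l2
  have e2 : (r * D) ^ 2 ≤ 4 * R * r ^ 2 * D := by
    have : D * D ≤ 4 * R * D := mul_le_mul_of_nonneg_right hD4 hD0
    have hr2 : 0 ≤ r ^ 2 := by positivity
    nlinarith
  have e3 : (r * (s - t)) ^ 2 ≤ 2 * (k' - k) ^ 2 + 2 * ((k' - k) - r * (s - t)) ^ 2 := by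
    nlinarith [sq_nonneg ((k' - k) + ((k' - k) - r * (s - t)) - (k' - k) * 2 + (k' - k) - r * (s - t) + r * (s - t)),
      sq_nonneg (2 * (k' - k) - r * (s - t))]
  have e4 : (k' - k) ^ 2 ≤ 2 * k' ^ 2 + 2 * k ^ 2 := by nlinarith [sq_nonneg (k' + k)]
  have e5 : r ^ 2 * (s - t) ^ 2 = (r * (s - t)) ^ 2 := by ring
  rw [e5]
  linarith

/-- integral of a nonnegative continuous function over a shifted subset -/
lemma shift_integral_le {K A : Set (E d)} (hK : IsCompact K)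
    (w : E d) (hAw : ∀ x ∈ A, x + w ∈ K) {f : E d → ℝ} (hf : Continuous f) (hf0 : ∀ x, 0 ≤ f x) :
    ∫ x in A, f (x + w) ≤ ∫ x in K, f x := by
  set s : Set (E d) := (fun y => y - w) ⁻¹' A with hs
  have hsK : s ⊆ K := by
    intro y hy
    have := hAw (y - w) hy
    simpa using this
  have hpre : (fun x => x + w) ⁻¹' s = A := by
    ext x; simp [hs]
  have h1 : ∫ x in A, f (x + w) = ∫ y in s, f y := by
    have := (measurePreserving_add_right (volume : Measure (E d)) w).setIntegral_preimage_emb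
      (measurableEmbedding_addRight w) f s
    rw [hpre] at this
    exact this
  rw [h1]
  exact setIntegral_mono_set (hf.continuousOn.integrableOn_compact hK)
    (Filter.Eventually.of_forall hf0) (Filter.Eventually.of_forall hsK)

/-- The coordinate estimate on the inner body, `L²` version. -/
theorem coord_est_L2 {K A : Set (E d)} {R : ℝ≥0} (hK : IsCompact K)
    (hA : MeasurableSet A) (hAK : A ⊆ K) {r : ℝ} (hr : 0 < r) (j : Fin d)
    (hAw : ∀ x ∈ A, x + EuclideanSpace.single j r ∈ K)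
    {T S : E d → E d} (hT : Measurable T) (hS : Measurable S)
    {a a' : E d → ℝ} (ca : Continuous a) (ca' : Continuous a')
    (btj : ∀ᵐ x ∂(volume.restrict K), |T x j| ≤ R) (bsj : ∀ᵐ x ∂(volume.restrict K), |S x j| ≤ R)
    (t1 : ∀ᵐ x ∂(volume.restrict K), ∀ z, a x + ⟪T x, z - x⟫ ≤ a z)
    (t2 : ∀ᵐ x ∂(volume.restrict K), ∀ z, a' x + ⟪S x, z - x⟫ ≤ a' z)
    {c X : ℝ} (hk : ∫ x in K, (a' x - a x - c) ^ 2 ≤ X) :
    r ^ 2 * ∫ x in A, (S x j - T x j) ^ 2 ≤
      8 * X + 32 * R ^ 2 * r ^ 2 * ((volume K).toReal - (volume A).toReal) := by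
  have hKm := hK.measurableSet
  have hKfin : volume K ≠ ⊤ := hK.measure_lt_top.ne
  set w : E d := EuclideanSpace.single j r with hw
  set β : ℝ := (volume K).toReal - (volume A).toReal with hβ
  set tj : E d → ℝ := fun x => T x j with htj
  set sj : E d → ℝ := fun x => S x j with hsj
  set k : E d → ℝ := fun x => a' x - a x - c with hkdef
  have mtj : Measurable tj := (EuclideanSpace.proj j).continuous.measurable.comp hT
  have msj : Measurable sj := (EuclideanSpace.proj j).continuous.measurable.comp hS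
  have ck : Continuous k := (ca'.sub ca).sub continuous_const
  have ck2 : Continuous (fun x => k x ^ 2) := ck.pow 2
  have hR0 : (0 : ℝ) ≤ R := R.coe_nonneg
  -- good points
  have hG : ∀ᵐ x ∂(volume.restrict K), (|T x j| ≤ R ∧ |S x j| ≤ R) ∧
      ((∀ z, a x + ⟪T x, z - x⟫ ≤ a z) ∧ ∀ z, a' x + ⟪S x, z - x⟫ ≤ a' z) := by
    filter_upwards [btj, bsj, t1, t2] with x g1 g2 g3 g4
    exact ⟨⟨g1, g2⟩, g3, g4⟩
  have hGA := ae_restrict_of_ae_restrict_of_subset hAK hG
  have hGAw : ∀ᵐ x ∂(volume.restrict A), (|T (x + w) j| ≤ R ∧ |S (x + w) j| ≤ R) ∧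
      ((∀ z, a (x + w) + ⟪T (x + w), z - (x + w)⟫ ≤ a z) ∧
        ∀ z, a' (x + w) + ⟪S (x + w), z - (x + w)⟫ ≤ a' z) := by
    have g1 := (ae_restrict_iff' hKm).mp hG
    have g2 := (measurePreserving_add_right (volume : Measure (E d)) w).quasiMeasurePreserving.ae g1
    rw [ae_restrict_iff' hA]
    filter_upwards [g2] with x hx hxA
    exact hx (hAw x hxA)
  have key : ∀ᵐ x ∂(volume.restrict A), r ^ 2 * (sj x - tj x) ^ 2 ≤
      4 * k (x + w) ^ 2 + 4 * k x ^ 2 +
        8 * R * r ^ 2 * ((tj (x + w) - tj x) + (sj (x + w) - sj x)) := by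
    filter_upwards [hGA, hGAw] with x g g'
    obtain ⟨⟨g1, g2⟩, g3, g4⟩ := g
    obtain ⟨⟨g1', g2'⟩, g3', g4'⟩ := g'
    have f1 := g3 (x + w)
    have f2 := g3' x
    have f3 := g4 (x + w)
    have f4 := g4' x
    have e1 : x + w - x = w := by abel
    have e2 : x - (x + w) = -w := by abel
    rw [e1, real_inner_comm, hw, inner_single_right_real] at f1 f3
    rw [e2, inner_neg_right, real_inner_comm, hw, inner_single_right_real] at f2 f4
    refine pointwise_fd2 (da := a (x + w) - a x) (da' := a' (x + w) - a' x) hr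
      g1 g2 g1' g2' ?_ ?_ ?_ ?_ ?_
    · simp only [htj, hw]; linarith
    · simp only [htj, hw]; linarith
    · simp only [hsj, hw]; linarith
    · simp only [hsj, hw]; linarith
    · simp only [hkdef]; ring
  obtain ⟨it, itw⟩ := shift_integrable hKm hA hKfin w hAK hAw mtj btj
  obtain ⟨is, isw⟩ := shift_integrable hKm hA hKfin w hAK hAw msj bsj
  have dt := shift_diff hA hKfin w hAK hAw mtj btj
  have ds := shift_diff hA hKfin w hAK hAw msj bsj
  have ik : IntegrableOn (fun x => k x ^ 2) A volume :=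
    (ck2.continuousOn.integrableOn_compact hK).mono_set hAK
  have ikw : IntegrableOn (fun x => k (x + w) ^ 2) A volume :=
    ((ck2.comp (continuous_add_const w)).continuousOn.integrableOn_compact hK).mono_set hAK
  have i2 : Integrable (fun x => tj (x + w) - tj x) (volume.restrict A) := itw.sub it
  have i3 : Integrable (fun x => sj (x + w) - sj x) (volume.restrict A) := isw.sub is
  have i4 : Integrable (fun x => (tj (x + w) - tj x) + (sj (x + w) - sj x))
      (volume.restrict A) := i2.add i3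
  have i5 : Integrable (fun x => 8 * R * r ^ 2 * ((tj (x + w) - tj x) + (sj (x + w) - sj x)))
      (volume.restrict A) := i4.const_mul _
  have i6 : Integrable (fun x => 4 * k (x + w) ^ 2) (volume.restrict A) := ikw.const_mul _
  have i7 : Integrable (fun x => 4 * k x ^ 2) (volume.restrict A) := ik.const_mul _
  have hint : ∫ x in A, r ^ 2 * (sj x - tj x) ^ 2 ≤
      ∫ x in A, (4 * k (x + w) ^ 2 + 4 * k x ^ 2 +
        8 * R * r ^ 2 * ((tj (x + w) - tj x) + (sj (x + w) - sj x))) := by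
    apply integral_mono_of_nonneg
    · exact Filter.Eventually.of_forall (fun x => by positivity)
    · exact (i6.add i7).add i5
    · exact key
  rw [integral_const_mul] at hint
  have e1 : ∫ x in A, (4 * k (x + w) ^ 2 + 4 * k x ^ 2 +
        8 * R * r ^ 2 * ((tj (x + w) - tj x) + (sj (x + w) - sj x))) =
      4 * (∫ x in A, k (x + w) ^ 2) + 4 * (∫ x in A, k x ^ 2) + 8 * R * r ^ 2 *
        (((∫ x in A, tj (x + w)) - ∫ x in A, tj x) + ((∫ x in A, sj (x + w)) - ∫ x in A, sj x)) := by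
    have i67 : Integrable (fun x => 4 * k (x + w) ^ 2 + 4 * k x ^ 2) (volume.restrict A) :=
      i6.add i7
    rw [integral_add i67 i5, integral_add i6 i7, integral_const_mul, integral_const_mul,
      integral_const_mul, integral_add i2 i3, integral_sub itw it, integral_sub isw is]
  rw [e1] at hint
  have hkw : ∫ x in A, k (x + w) ^ 2 ≤ X :=
    (shift_integral_le hK w hAw ck2 (fun x => sq_nonneg _)).trans hk
  have hkA : ∫ x in A, k x ^ 2 ≤ X :=
    (setIntegral_mono_set (ck2.continuousOn.integrableOn_compact hK)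
      (Filter.Eventually.of_forall (fun x => sq_nonneg _))
      (Filter.Eventually.of_forall hAK)).trans hk
  have dt' := (le_abs_self _).trans dt
  have ds' := (le_abs_self _).trans ds
  rw [← hβ] at dt' ds'
  have hc : 0 ≤ 8 * (R : ℝ) * r ^ 2 := by positivity
  have h5 : 8 * R * r ^ 2 *
        (((∫ x in A, tj (x + w)) - ∫ x in A, tj x) + ((∫ x in A, sj (x + w)) - ∫ x in A, sj x)) ≤
      8 * R * r ^ 2 * (2 * R * β + 2 * R * β) :=
    mul_le_mul_of_nonneg_left (add_le_add dt' ds') hc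
  have e3 : (∫ x in A, (S x j - T x j) ^ 2) = ∫ x in A, (sj x - tj x) ^ 2 := rfl
  rw [e3]
  calc r ^ 2 * ∫ x in A, (sj x - tj x) ^ 2 ≤ 4 * X + 4 * X +
        8 * R * r ^ 2 * (2 * R * β + 2 * R * β) := by linarith
    _ = 8 * X + 32 * R ^ 2 * r ^ 2 * β := by ring

/-- One coordinate, on the whole body, with a free scale `r`. -/
theorem coord_est_K_L2 {K : Set (E d)} {R : ℝ≥0} (hK : IsCompact K) (hKc : Convex ℝ K)
    {x0 : E d} {ρ0 : ℝ} (hρ0 : 0 < ρ0) (hball : Metric.closedBall x0 ρ0 ⊆ K) (j : Fin d)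
    {T S : E d → E d} (hT : Measurable T) (hS : Measurable S)
    {a a' : E d → ℝ} (ca : Continuous a) (ca' : Continuous a')
    (btj : ∀ᵐ x ∂(volume.restrict K), |T x j| ≤ R) (bsj : ∀ᵐ x ∂(volume.restrict K), |S x j| ≤ R)
    (t1 : ∀ᵐ x ∂(volume.restrict K), ∀ z, a x + ⟪T x, z - x⟫ ≤ a z)
    (t2 : ∀ᵐ x ∂(volume.restrict K), ∀ z, a' x + ⟪S x, z - x⟫ ≤ a' z)
    {c X : ℝ} (hk : ∫ x in K, (a' x - a x - c) ^ 2 ≤ X) {r : ℝ} (hr0 : 0 < r) (hr : r ≤ ρ0) :
    r ^ 2 * ∫ x in K, (S x j - T x j) ^ 2 ≤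
      8 * X + 36 * R ^ 2 * (d / ρ0 * (volume K).toReal) * r ^ 3 := by
  have hKfin : volume K ≠ ⊤ := hK.measure_lt_top.ne
  have hR0 : (0 : ℝ) ≤ R := R.coe_nonneg
  set V : ℝ := (volume K).toReal with hV
  have hV0 : 0 ≤ V := ENNReal.toReal_nonneg
  have mv : Measurable (fun x => (S x j - T x j) ^ 2) :=
    (((EuclideanSpace.proj j).continuous.measurable.comp hS).sub
      ((EuclideanSpace.proj j).continuous.measurable.comp hT)).pow_const 2
  have bv : ∀ᵐ x ∂(volume.restrict K), |(S x j - T x j) ^ 2| ≤ 4 * R ^ 2 := by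
    filter_upwards [btj, bsj] with x b1 b2
    rw [abs_of_nonneg (by positivity)]
    rw [abs_le] at b1 b2
    nlinarith [b1.1, b1.2, b2.1, b2.2]
  obtain ⟨A, hA, hAK, hAw, hβ⟩ := exists_inner_body hK hKc hρ0 hball hr0 hr
  have hwn : ‖(EuclideanSpace.single j r : E d)‖ ≤ r := by
    rw [PiLp.norm_single, Real.norm_eq_abs, abs_of_pos hr0]
  have h3 := coord_est_L2 hK hA hAK hr0 j (hAw _ hwn) hT hS ca ca' btj bsj t1 t2 hk
  have h4 := (le_abs_self _).trans (sub_integral_le hA hKfin hAK mv bv)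
  set β : ℝ := (volume K).toReal - (volume A).toReal with hβdef
  have hβ' : β ≤ r * (d / ρ0 * V) := by
    calc β ≤ d * (r / ρ0) * V := hβ
      _ = r * (d / ρ0 * V) := by ring
  have hr2 : 0 ≤ r ^ 2 := by positivity
  have h7 : 36 * (R : ℝ) ^ 2 * r ^ 2 * β ≤ 36 * R ^ 2 * r ^ 2 * (r * (d / ρ0 * V)) :=
    mul_le_mul_of_nonneg_left hβ' (by positivity)
  have h8 : r ^ 2 * ∫ x in K, (S x j - T x j) ^ 2 ≤
      r ^ 2 * ((∫ x in A, (S x j - T x j) ^ 2) + 4 * R ^ 2 * β) :=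
    mul_le_mul_of_nonneg_left (by linarith) hr2
  calc r ^ 2 * ∫ x in K, (S x j - T x j) ^ 2
      ≤ r ^ 2 * ((∫ x in A, (S x j - T x j) ^ 2) + 4 * R ^ 2 * β) := h8
    _ = r ^ 2 * (∫ x in A, (S x j - T x j) ^ 2) + 4 * R ^ 2 * r ^ 2 * β := by ring
    _ ≤ 8 * X + 32 * R ^ 2 * r ^ 2 * β + 4 * R ^ 2 * r ^ 2 * β := by linarith
    _ = 8 * X + 36 * R ^ 2 * r ^ 2 * β := by ring
    _ ≤ 8 * X + 36 * R ^ 2 * r ^ 2 * (r * (d / ρ0 * V)) := by linarith
    _ = 8 * X + 36 * R ^ 2 * (d / ρ0 * V) * r ^ 3 := by ring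

/-- One coordinate, optimised scale. -/
theorem coord_est_K_opt {K : Set (E d)} {R : ℝ≥0} (hK : IsCompact K) (hKc : Convex ℝ K)
    {x0 : E d} {ρ0 : ℝ} (hρ0 : 0 < ρ0) (hball : Metric.closedBall x0 ρ0 ⊆ K) (j : Fin d)
    {T S : E d → E d} (hT : Measurable T) (hS : Measurable S)
    {a a' : E d → ℝ} (ca : Continuous a) (ca' : Continuous a')
    (btj : ∀ᵐ x ∂(volume.restrict K), |T x j| ≤ R) (bsj : ∀ᵐ x ∂(volume.restrict K), |S x j| ≤ R)
    (t1 : ∀ᵐ x ∂(volume.restrict K), ∀ z, a x + ⟪T x, z - x⟫ ≤ a z)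
    (t2 : ∀ᵐ x ∂(volume.restrict K), ∀ z, a' x + ⟪S x, z - x⟫ ≤ a' z)
    {c η : ℝ} (hη : 0 ≤ η) (hk : ∫ x in K, (a' x - a x - c) ^ 2 ≤ η ^ 3) :
    ∫ x in K, (S x j - T x j) ^ 2 ≤
      (8 + 36 * R ^ 2 * (d / ρ0 * (volume K).toReal) + 4 * R ^ 2 * (volume K).toReal / ρ0) * η := by
  have hKfin : volume K ≠ ⊤ := hK.measure_lt_top.ne
  have hR0 : (0 : ℝ) ≤ R := R.coe_nonneg
  set V : ℝ := (volume K).toReal with hV
  have hV0 : 0 ≤ V := ENNReal.toReal_nonneg
  set Q : ℝ := 36 * R ^ 2 * (d / ρ0 * V) with hQ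
  have hQ0 : 0 ≤ Q := by positivity
  have hP0 : 0 ≤ 4 * (R : ℝ) ^ 2 * V / ρ0 := by positivity
  have main := fun {r : ℝ} (hr0 : 0 < r) (hr : r ≤ ρ0) =>
    coord_est_K_L2 hK hKc hρ0 hball j hT hS ca ca' btj bsj t1 t2 hk hr0 hr
  rcases hη.eq_or_lt with h0 | hpos
  · -- `η = 0`
    rw [← h0]
    simp only [mul_zero]
    apply le_of_forall_small hρ0 hQ0
    intro r hr0 hr
    have h1 := main hr0 hr
    rw [← h0] at h1
    have hr2 : 0 < r ^ 2 := by positivity
    have h2 : r ^ 2 * ∫ x in K, (S x j - T x j) ^ 2 ≤ r ^ 2 * (0 + Q * r) := by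
      calc r ^ 2 * ∫ x in K, (S x j - T x j) ^ 2 ≤ 8 * 0 ^ 3 + Q * r ^ 3 := h1
        _ = r ^ 2 * (0 + Q * r) := by ring
    exact le_of_mul_le_mul_left h2 hr2
  · rcases le_or_gt η ρ0 with hle | hgt
    · have h1 := main hpos hle
      have hr2 : 0 < η ^ 2 := by positivity
      have h2 : η ^ 2 * ∫ x in K, (S x j - T x j) ^ 2 ≤ η ^ 2 * ((8 + Q) * η) := by
        calc η ^ 2 * ∫ x in K, (S x j - T x j) ^ 2 ≤ 8 * η ^ 3 + Q * η ^ 3 := h1
          _ = η ^ 2 * ((8 + Q) * η) := by ring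
      have h3 := le_of_mul_le_mul_left h2 hr2
      have h4 : 0 ≤ 4 * (R : ℝ) ^ 2 * V / ρ0 * η := mul_nonneg hP0 hη
      linarith
    · -- trivial bound
      have bv : ∀ᵐ x ∂(volume.restrict K), ‖(S x j - T x j) ^ 2‖ ≤ 4 * R ^ 2 := by
        filter_upwards [btj, bsj] with x b1 b2
        rw [Real.norm_eq_abs, abs_of_nonneg (by positivity)]
        rw [abs_le] at b1 b2
        nlinarith [b1.1, b1.2, b2.1, b2.2]
      have h1 := norm_setIntegral_le_of_norm_le_const_ae hKfin.lt_top bv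
      have h2 : ∫ x in K, (S x j - T x j) ^ 2 ≤ 4 * R ^ 2 * V := by
        have := (le_abs_self _).trans (by rwa [Real.norm_eq_abs] at h1)
        simpa [Measure.real, hV] using this
      have h3 : 4 * (R : ℝ) ^ 2 * V ≤ 4 * R ^ 2 * V / ρ0 * η := by
        rw [div_mul_eq_mul_div, le_div_iff₀ hρ0]
        exact mul_le_mul_of_nonneg_left hgt.le (by positivity)
      have h4 : 0 ≤ (8 + Q) * η := by positivity
      linarith

/-- `L²` closeness of two Lipschitz potentials on a convex body implies `L²` closeness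
of their subgradient maps, with exponent `1/3` (finite differences). -/
theorem L2_to_L2 (K : Set (E d)) (hK : IsCompact K) (hKc : Convex ℝ K)
    (hKi : (interior K).Nonempty) (R : ℝ≥0) :
    ∃ C : ℝ, 0 ≤ C ∧ ∀ (a a' : E d → ℝ), LipschitzWith R a → LipschitzWith R a' →
      ∀ T S : E d → E d, Measurable T → Measurable S →
      (∀ᵐ x ∂(volume.restrict K), ∀ z, a x + ⟪T x, z - x⟫ ≤ a z) →
      (∀ᵐ x ∂(volume.restrict K), ∀ z, a' x + ⟪S x, z - x⟫ ≤ a' z) →
      ∀ ε c : ℝ, 0 ≤ ε → ∫ x in K, (a' x - a x - c) ^ 2 ≤ ε ^ 2 →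
      ∫ x in K, ‖T x - S x‖ ^ 2 ≤ C * ε ^ (2 / 3 : ℝ) := by
  obtain ⟨x0, hx0⟩ := hKi
  obtain ⟨ρ0, hρ0, hball⟩ :=
    Metric.nhds_basis_closedBall.mem_iff.mp (mem_interior_iff_mem_nhds.mp hx0)
  have hvT : volume K ≠ ⊤ := hK.measure_lt_top.ne
  refine ⟨d * (8 + 36 * R ^ 2 * (d / ρ0 * (volume K).toReal) +
    4 * R ^ 2 * (volume K).toReal / ρ0), by positivity, ?_⟩
  intro a a' la la' T S hT hS t1 t2 ε c hε hk
  set η : ℝ := ε ^ (2 / 3 : ℝ) with hηdef
  have hη : 0 ≤ η := Real.rpow_nonneg hε _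
  have hη3 : η ^ 3 = ε ^ 2 := by
    rw [hηdef, ← Real.rpow_natCast, ← Real.rpow_mul hε, ← Real.rpow_natCast]
    norm_num
  rw [← hη3] at hk
  have bT : ∀ j : Fin d, ∀ᵐ x ∂(volume.restrict K), |T x j| ≤ R := fun j =>
    t1.mono (fun x hx => (abs_coord_le _ j).trans (norm_subgrad_le la hx))
  have bS : ∀ j : Fin d, ∀ᵐ x ∂(volume.restrict K), |S x j| ≤ R := fun j =>
    t2.mono (fun x hx => (abs_coord_le _ j).trans (norm_subgrad_le la' hx))
  have hco := fun j => coord_est_K_opt hK hKc hρ0 hball j hT hS la.continuous la'.continuous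
    (bT j) (bS j) t1 t2 hη hk
  have hKfin : IsFiniteMeasure (volume.restrict K) := ⟨by simpa using hvT.lt_top⟩
  have iv : ∀ j : Fin d, Integrable (fun x => (S x j - T x j) ^ 2) (volume.restrict K) := by
    intro j
    have mv : Measurable (fun x => (S x j - T x j) ^ 2) :=
      (((EuclideanSpace.proj j).continuous.measurable.comp hS).sub
        ((EuclideanSpace.proj j).continuous.measurable.comp hT)).pow_const 2
    refine Integrable.of_bound mv.aestronglyMeasurable (4 * R ^ 2) ?_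
    filter_upwards [bT j, bS j] with x b1 b2
    rw [Real.norm_eq_abs, abs_of_nonneg (by positivity)]
    rw [abs_le] at b1 b2
    nlinarith [b1.1, b1.2, b2.1, b2.2]
  have e1 : ∫ x in K, ‖T x - S x‖ ^ 2 = ∑ j : Fin d, ∫ x in K, (S x j - T x j) ^ 2 := by
    rw [← integral_finsetSum _ (fun j _ => iv j)]
    congr 1
    ext x
    rw [EuclideanSpace.norm_sq_eq]
    apply Finset.sum_congr rfl
    intro j _
    rw [Real.norm_eq_abs, sq_abs]
    simp only [PiLp.sub_apply]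
    ring
  rw [e1]
  have e2 : ∑ j : Fin d, ∫ x in K, (S x j - T x j) ^ 2 ≤
      ∑ _j : Fin d, (8 + 36 * R ^ 2 * (d / ρ0 * (volume K).toReal) +
        4 * R ^ 2 * (volume K).toReal / ρ0) * η := Finset.sum_le_sum (fun j _ => hco j)
  rw [Finset.sum_const, Finset.card_univ, Fintype.card_fin, nsmul_eq_mul] at e2
  refine e2.trans (le_of_eq ?_)
  ring

end Vale.Agent.Lib.P074u
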