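import Vale.Agent.Lib.P074u.WeightStab
import Vale.Agent.Lib.P074u.L2ToL2

/-!
`L²` stability of the weights of power diagrams implies `L²` stability of the maps, with exponent
`1/6` in the quadratic cost.
-/

open MeasureTheory
open scoped NNReal RealInnerProductSpace

namespace Vale.Agent.Lib.P074u.Glue

open Vale.Agent.Lib.P074q (E)
open Vale.Agent.Lib.P074b (unif)

variable {d : ℕ} {ι : Type} [Fintype ι] [Nonempty ι]

lemma supPot_ge (P : ι → E d) (w : ι → ℝ) (x : E d) (i : ι) :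
    ⟪x, P i⟫ - w i ≤ ⨆ i, (⟪x, P i⟫ - w i) :=
  le_ciSup (f := fun i => ⟪x, P i⟫ - w i) (Set.finite_range _).bddAbove i

lemma supPot_lipschitz (P : ι → E d) (w : ι → ℝ) (R : ℝ≥0) (hP : ∀ i, ‖P i‖ ≤ R) :
    LipschitzWith R (fun x : E d => ⨆ i, (⟪x, P i⟫ - w i)) := by
  apply LipschitzWith.of_le_add_mul
  intro x y
  apply ciSup_le
  intro i
  have h1 := supPot_ge P w y i
  have h2 : ⟪x - y, P i⟫ ≤ ‖x - y‖ * ‖P i‖ := real_inner_le_norm _ _
  have h3 : ‖x - y‖ * ‖P i‖ ≤ ‖x - y‖ * R := mul_le_mul_of_nonneg_left (hP i) (norm_nonneg _)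
  rw [inner_sub_left] at h2
  rw [dist_eq_norm]
  linarith

lemma supPot_subgrad (P : ι → E d) (w : ι → ℝ) {x t : E d}
    (h : ∃ i, t = P i ∧ ∀ j, ⟪x, P j⟫ - w j ≤ ⟪x, P i⟫ - w i) (z : E d) :
    (⨆ i, (⟪x, P i⟫ - w i)) + ⟪t, z - x⟫ ≤ ⨆ i, (⟪z, P i⟫ - w i) := by
  obtain ⟨i, rfl, hi⟩ := h
  have h1 : (⨆ i, (⟪x, P i⟫ - w i)) ≤ ⟪x, P i⟫ - w i := ciSup_le hi
  have h2 := supPot_ge P w z i
  rw [inner_sub_right, real_inner_comm z, real_inner_comm x]
  linarith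

lemma ae_unif_iff {K : Set (E d)} (hvT : volume K ≠ ⊤) {p : E d → Prop} :
    (∀ᵐ x ∂(unif K), p x) ↔ ∀ᵐ x ∂(volume.restrict K), p x := by
  unfold unif
  exact Measure.ae_ennreal_smul_measure_iff (ENNReal.inv_ne_zero.mpr hvT)

lemma eLpNorm_unif_le {K : Set (E d)} (hv0 : volume K ≠ 0) (hvT : volume K ≠ ⊤) {f : E d → E d}
    (hf : Measurable f) {B : ℝ} (hB : ∀ᵐ x ∂(volume.restrict K), ‖f x‖ ≤ B) {X : ℝ}
    (hX : ∫ x in K, ‖f x‖ ^ 2 ≤ X) :
    eLpNorm f 2 (unif K) ≤ ENNReal.ofReal (Real.sqrt ((volume K).toReal⁻¹ * X)) := by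
  have hV : 0 < (volume K).toReal := ENNReal.toReal_pos hv0 hvT
  have hfin : IsFiniteMeasure (volume.restrict K) := ⟨by simpa using hvT.lt_top⟩
  have hint : Integrable (fun x => ‖f x‖ ^ 2) (volume.restrict K) := by
    refine Integrable.of_bound (hf.norm.pow_const 2).aestronglyMeasurable (B ^ 2) ?_
    filter_upwards [hB] with x hx
    rw [Real.norm_eq_abs, abs_of_nonneg (by positivity)]
    exact pow_le_pow_left₀ (norm_nonneg _) hx 2
  rw [eLpNorm_eq_lintegral_rpow_enorm (by norm_num) (by norm_num)]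
  simp only [ENNReal.toReal_ofNat]
  have e1 : ∫⁻ x, ‖f x‖ₑ ^ (2 : ℝ) ∂(unif K) =
      ENNReal.ofReal ((volume K).toReal⁻¹ * ∫ x in K, ‖f x‖ ^ 2) := by
    unfold unif
    rw [lintegral_smul_measure, ENNReal.ofReal_mul (inv_nonneg.mpr hV.le),
      ENNReal.ofReal_inv_of_pos hV, ENNReal.ofReal_toReal hvT,
      ofReal_integral_eq_lintegral_ofReal hint (Filter.Eventually.of_forall (fun x => by positivity))]
    simp only [smul_eq_mul]
    congr 1
    apply lintegral_congr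
    intro x
    rw [← ofReal_norm_eq_enorm, ENNReal.ofReal_rpow_of_nonneg (norm_nonneg _) (by norm_num)]
    norm_num
  rw [e1, ENNReal.ofReal_rpow_of_nonneg
    (mul_nonneg (inv_nonneg.mpr hV.le) (integral_nonneg (fun x => by positivity))) (by norm_num),
    ← Real.sqrt_eq_rpow]
  apply ENNReal.ofReal_le_ofReal
  apply Real.sqrt_le_sqrt
  exact mul_le_mul_of_nonneg_left hX (inv_nonneg.mpr hV.le)

/-- the cell of the label `i` in the power diagram with sites `P` and weights `w` -/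
def cell (P : ι → E d) (w : ι → ℝ) (i : ι) : Set (E d) :=
  {x | ∀ j, ⟪x, P j⟫ - w j ≤ ⟪x, P i⟫ - w i}

lemma measurableSet_cell (P : ι → E d) (w : ι → ℝ) (i : ι) : MeasurableSet (cell P w i) := by
  have : cell P w i = ⋂ j, {x | ⟪x, P j⟫ - w j ≤ ⟪x, P i⟫ - w i} := by
    ext x; simp [cell]
  rw [this]
  exact MeasurableSet.iInter fun j =>
    (isClosed_le (by fun_prop) (by fun_prop)).measurableSet

lemma exists_cell (P : ι → E d) (w : ι → ℝ) (x : E d) : ∃ i, x ∈ cell P w i := by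
  obtain ⟨i, hi⟩ := Finite.exists_max (fun i => ⟪x, P i⟫ - w i)
  exact ⟨i, hi⟩

lemma supPot_eq_of_mem {P : ι → E d} {w : ι → ℝ} {x : E d} {i : ι} (h : x ∈ cell P w i) :
    (⨆ i, (⟪x, P i⟫ - w i)) = ⟪x, P i⟫ - w i :=
  le_antisymm (ciSup_le h) (supPot_ge P w x i)

lemma inner_diff_coord {y y' : E d} (j0 : Fin d) (h : ∀ j, j ≠ j0 → y j = y' j) (x : E d) :
    ⟪x, y'⟫ - ⟪x, y⟫ = x j0 * (y' j0 - y j0) := by
  rw [← inner_sub_right, PiLp.inner_apply]
  rw [Finset.sum_eq_single j0]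
  · simp [mul_comm]
  · intro j _ hj
    simp [h j hj]
  · intro hj
    exact absurd (Finset.mem_univ _) hj

lemma abs_coord_le' (x : E d) (j : Fin d) : |x j| ≤ ‖x‖ := by
  have := PiLp.norm_apply_le x j
  simpa using this

/-- the pointwise bound of the difference of the two potentials by the data of the two cells
containing the point -/
lemma pot_diff_sq_le (P P' : ι → E d) (w w' : ι → ℝ) (j0 : Fin d)
    (hrow : ∀ i j, j ≠ j0 → P i j = P' i j) (c M : ℝ) (x : E d) (hx : ‖x‖ ≤ M) :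
    ((⨆ i, (⟪x, P' i⟫ - w' i)) - (⨆ i, (⟪x, P i⟫ - w i)) - (-c)) ^ 2 ≤
      ∑ i, (cell P w i).indicator
        (fun _ => 2 * (w' i - w i - c) ^ 2 + 2 * M ^ 2 * (P i j0 - P' i j0) ^ 2) x +
      ∑ i, (cell P' w' i).indicator
        (fun _ => 2 * (w' i - w i - c) ^ 2 + 2 * M ^ 2 * (P i j0 - P' i j0) ^ 2) x := by
  obtain ⟨i, hi⟩ := exists_cell P w x
  obtain ⟨i', hi'⟩ := exists_cell P' w' x
  set b : ι → ℝ := fun i => 2 * (w' i - w i - c) ^ 2 + 2 * M ^ 2 * (P i j0 - P' i j0) ^ 2 with hb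
  have hb0 : ∀ i, 0 ≤ b i := fun i => by positivity
  have hxj : |x j0| ≤ M := (abs_coord_le' x j0).trans hx
  have hxj2 : (x j0) ^ 2 ≤ M ^ 2 := by
    rw [← sq_abs]; exact pow_le_pow_left₀ (abs_nonneg _) hxj 2
  have hA : ∀ i, (x j0 * (P' i j0 - P i j0) - (w' i - w i - c)) ^ 2 ≤ b i := by
    intro i
    have h1 : (x j0 * (P' i j0 - P i j0)) ^ 2 ≤ M ^ 2 * (P i j0 - P' i j0) ^ 2 := by
      have : (x j0 * (P' i j0 - P i j0)) ^ 2 = (x j0) ^ 2 * (P i j0 - P' i j0) ^ 2 := by ring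
      rw [this]
      exact mul_le_mul_of_nonneg_right hxj2 (sq_nonneg _)
    have h2 : (x j0 * (P' i j0 - P i j0) - (w' i - w i - c)) ^ 2 ≤
        2 * (x j0 * (P' i j0 - P i j0)) ^ 2 + 2 * (w' i - w i - c) ^ 2 := by
      nlinarith [sq_nonneg (x j0 * (P' i j0 - P i j0) + (w' i - w i - c))]
    simp only [hb]
    linarith
  have s1 : b i ≤ ∑ i, (cell P w i).indicator (fun _ => b i) x := by
    have := Finset.single_le_sum (f := fun i => (cell P w i).indicator (fun _ => b i) x)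
      (fun j _ => Set.indicator_nonneg (fun _ _ => hb0 j) x) (Finset.mem_univ i)
    simpa [Set.indicator_of_mem hi] using this
  have s2 : b i' ≤ ∑ i, (cell P' w' i).indicator (fun _ => b i) x := by
    have := Finset.single_le_sum (f := fun i => (cell P' w' i).indicator (fun _ => b i) x)
      (fun j _ => Set.indicator_nonneg (fun _ _ => hb0 j) x) (Finset.mem_univ i')
    simpa [Set.indicator_of_mem hi'] using this
  have lo : x j0 * (P' i j0 - P i j0) - (w' i - w i - c) ≤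
      (⨆ i, (⟪x, P' i⟫ - w' i)) - (⨆ i, (⟪x, P i⟫ - w i)) - (-c) := by
    rw [supPot_eq_of_mem hi, ← inner_diff_coord j0 (hrow i) x]
    have := supPot_ge P' w' x i
    linarith
  have up : (⨆ i, (⟪x, P' i⟫ - w' i)) - (⨆ i, (⟪x, P i⟫ - w i)) - (-c) ≤
      x j0 * (P' i' j0 - P i' j0) - (w' i' - w i' - c) := by
    rw [supPot_eq_of_mem hi', ← inner_diff_coord j0 (hrow i') x]
    have := supPot_ge P w x i'
    linarith
  have hk : ((⨆ i, (⟪x, P' i⟫ - w' i)) - (⨆ i, (⟪x, P i⟫ - w i)) - (-c)) ^ 2 ≤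
      (x j0 * (P' i j0 - P i j0) - (w' i - w i - c)) ^ 2 +
      (x j0 * (P' i' j0 - P i' j0) - (w' i' - w i' - c)) ^ 2 := by
    set k := (⨆ i, (⟪x, P' i⟫ - w' i)) - (⨆ i, (⟪x, P i⟫ - w i)) - (-c)
    set A := x j0 * (P' i j0 - P i j0) - (w' i - w i - c)
    set A' := x j0 * (P' i' j0 - P i' j0) - (w' i' - w i' - c)
    rcases le_total 0 k with h0 | h0
    · nlinarith [sq_nonneg A]
    · nlinarith [sq_nonneg A']
  have := hA i
  have := hA i'
  linarith

lemma restrict_toReal_eq {K : Set (E d)} (hv0 : volume K ≠ 0) (hvT : volume K ≠ ⊤)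
    (S : Set (E d)) :
    ((volume.restrict K) S).toReal = (volume K).toReal * (unif K S).toReal := by
  have hV : 0 < (volume K).toReal := ENNReal.toReal_pos hv0 hvT
  unfold unif
  rw [Measure.smul_apply, smul_eq_mul, ENNReal.toReal_mul, ENNReal.toReal_inv]
  field_simp

lemma integral_sum_indicator {K : Set (E d)} (hv0 : volume K ≠ 0) (hvT : volume K ≠ ⊤)
    (P : ι → E d) (w : ι → ℝ) (b : ι → ℝ) :
    Integrable (fun x => ∑ i, (cell P w i).indicator (fun _ => b i) x) (volume.restrict K) ∧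
    ∫ x in K, ∑ i, (cell P w i).indicator (fun _ => b i) x =
      (volume K).toReal * ∑ i, (unif K (cell P w i)).toReal * b i := by
  have hfin : IsFiniteMeasure (volume.restrict K) := ⟨by simpa using hvT.lt_top⟩
  have hint : ∀ i ∈ (Finset.univ : Finset ι),
      Integrable (fun x => (cell P w i).indicator (fun _ => b i) x) (volume.restrict K) :=
    fun i _ => (integrable_const (b i)).indicator (measurableSet_cell P w i)
  refine ⟨integrable_finset_sum _ hint, ?_⟩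
  rw [integral_finset_sum _ hint, Finset.mul_sum]
  refine Finset.sum_congr rfl fun i _ => ?_
  rw [integral_indicator_const _ (measurableSet_cell P w i), Measure.real,
    restrict_toReal_eq hv0 hvT, smul_eq_mul]
  ring

/-- the `L²` bound of the difference of the two potentials -/
lemma integral_pot_diff_le {K : Set (E d)} (hK : IsCompact K) (hv0 : volume K ≠ 0)
    (P P' : ι → E d) (w w' : ι → ℝ) (j0 : Fin d)
    (hrow : ∀ i j, j ≠ j0 → P i j = P' i j) (c M : ℝ) (hM : ∀ x ∈ K, ‖x‖ ≤ M)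
    (ha : Continuous (fun x : E d => ⨆ i, (⟪x, P i⟫ - w i)))
    (ha' : Continuous (fun x : E d => ⨆ i, (⟪x, P' i⟫ - w' i)))
    (hmass : ∀ i, unif K (cell P w i) = unif K (cell P' w' i)) :
    ∫ x in K, ((⨆ i, (⟪x, P' i⟫ - w' i)) - (⨆ i, (⟪x, P i⟫ - w i)) - (-c)) ^ 2 ≤
      (volume K).toReal * (4 * ∑ i, (unif K (cell P w i)).toReal * (w' i - w i - c) ^ 2 +
        4 * M ^ 2 * ∑ i, (unif K (cell P w i)).toReal * (P i j0 - P' i j0) ^ 2) := by
  have hvT : volume K ≠ ⊤ := hK.measure_lt_top.ne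
  set b : ι → ℝ := fun i => 2 * (w' i - w i - c) ^ 2 + 2 * M ^ 2 * (P i j0 - P' i j0) ^ 2 with hb
  obtain ⟨i1, e1⟩ := integral_sum_indicator hv0 hvT P w b
  obtain ⟨i2, e2⟩ := integral_sum_indicator hv0 hvT P' w' b
  have hcont : Continuous (fun x : E d =>
      ((⨆ i, (⟪x, P' i⟫ - w' i)) - (⨆ i, (⟪x, P i⟫ - w i)) - (-c)) ^ 2) :=
    ((ha'.sub ha).sub continuous_const).pow 2
  calc ∫ x in K, ((⨆ i, (⟪x, P' i⟫ - w' i)) - (⨆ i, (⟪x, P i⟫ - w i)) - (-c)) ^ 2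
      ≤ ∫ x in K, (∑ i, (cell P w i).indicator (fun _ => b i) x +
          ∑ i, (cell P' w' i).indicator (fun _ => b i) x) :=
        setIntegral_mono_on (hcont.continuousOn.integrableOn_compact hK) (i1.add i2)
          hK.measurableSet (fun x hx => pot_diff_sq_le P P' w w' j0 hrow c M x (hM x hx))
    _ = (volume K).toReal * ∑ i, (unif K (cell P w i)).toReal * b i +
          (volume K).toReal * ∑ i, (unif K (cell P' w' i)).toReal * b i := by
        rw [integral_add i1 i2, e1, e2]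
    _ = _ := by
        simp only [← hmass, hb, mul_add, Finset.sum_add_distrib, Finset.mul_sum]
        rw [← sub_eq_zero]
        simp only [← Finset.sum_add_distrib, ← Finset.sum_sub_distrib]
        refine Finset.sum_eq_zero fun i _ => ?_
        ring

end Vale.Agent.Lib.P074u.Glue

namespace Vale.Agent.Lib.P074u

open Vale.Agent.Lib.P074q (E)
open Vale.Agent.Lib.P074b (unif)
open Glue

/-- `L²` stability of the weights implies the `L²` stability of the maps with exponent `1/6` in the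
quadratic cost. -/
theorem discStab_of_weightStab (d : ℕ) (h : WeightStab d) : DiscStab d := by
  intro K hK hKc hKi R
  obtain ⟨C, hC0, hC⟩ := h K hK hKc hKi R
  obtain ⟨C3, hC30, hC3⟩ := L2_to_L2 K hK hKc hKi R
  obtain ⟨M, hM⟩ : ∃ M, ∀ x ∈ K, ‖x‖ ≤ M := hK.isBounded.exists_norm_le
  have hv0 : volume K ≠ 0 := (Measure.measure_pos_of_nonempty_interior volume hKi).ne'
  have hvT : volume K ≠ ⊤ := hK.measure_lt_top.ne
  have hV : 0 < (volume K).toReal := ENNReal.toReal_pos hv0 hvT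
  set A : ℝ := (volume K).toReal * (4 * C + 4 * M ^ 2) with hA
  have hA0 : 0 ≤ A := by positivity
  refine ⟨Real.toNNReal (Real.sqrt ((volume K).toReal⁻¹ * (C3 * A ^ (1 / 3 : ℝ)))), ?_⟩
  intro ι _ _ j0 j1 hj P P' w w' hPR hP'R hrow hinj T S hT hS hTs hSs hmass hpos
  obtain ⟨c, hc⟩ := hC ι j0 j1 hj P P' w w' hPR hP'R hrow hinj hmass hpos
  rw [ae_unif_iff hvT] at hTs hSs
  have la := supPot_lipschitz P w R hPR
  have la' := supPot_lipschitz P' w' R hP'R
  have t1 : ∀ᵐ x ∂(volume.restrict K), ∀ z,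
      (⨆ i, (⟪x, P i⟫ - w i)) + ⟪T x, z - x⟫ ≤ ⨆ i, (⟪z, P i⟫ - w i) :=
    hTs.mono (fun x hx z => supPot_subgrad P w hx z)
  have t2 : ∀ᵐ x ∂(volume.restrict K), ∀ z,
      (⨆ i, (⟪x, P' i⟫ - w' i)) + ⟪S x, z - x⟫ ≤ ⨆ i, (⟪z, P' i⟫ - w' i) :=
    hSs.mono (fun x hx z => supPot_subgrad P' w' hx z)
  set W2 : ℝ := ∑ i, (unif K {x | ∀ j, ⟪x, P j⟫ - w j ≤ ⟪x, P i⟫ - w i}).toReal *
          (P i j0 - P' i j0) ^ 2 with hW2
  have hW0 : 0 ≤ W2 := Finset.sum_nonneg fun i _ => by positivity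
  have hI0 := integral_pot_diff_le hK hv0 P P' w w' j0 hrow c M hM la.continuous la'.continuous
    hmass
  have hI1 : ∫ x in K, ((⨆ i, (⟪x, P' i⟫ - w' i)) - (⨆ i, (⟪x, P i⟫ - w i)) - (-c)) ^ 2 ≤
      (Real.sqrt (A * W2)) ^ 2 := by
    rw [Real.sq_sqrt (mul_nonneg hA0 hW0)]
    refine hI0.trans ?_
    have hAW : A * W2 = (volume K).toReal * ((4 * C + 4 * M ^ 2) * W2) := by rw [hA]; ring
    rw [hAW]
    refine mul_le_mul_of_nonneg_left ?_ hV.le
    have : (∑ i, (unif K (cell P w i)).toReal * (P i j0 - P' i j0) ^ 2) = W2 := rfl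
    rw [this]
    have hc' : (∑ i, (unif K (cell P w i)).toReal * (w' i - w i - c) ^ 2) ≤ C * W2 := hc
    nlinarith
  have hI := hC3 _ _ la la' T S hT hS t1 t2 (Real.sqrt (A * W2)) (-c) (Real.sqrt_nonneg _) hI1
  have e : (Real.sqrt (A * W2)) ^ (2 / 3 : ℝ) = A ^ (1 / 3 : ℝ) * W2 ^ (1 / 3 : ℝ) := by
    rw [Real.sqrt_eq_rpow, ← Real.rpow_mul (mul_nonneg hA0 hW0), ← Real.mul_rpow hA0 hW0]
    norm_num
  rw [e] at hI
  have hB : ∀ᵐ x ∂(volume.restrict K), ‖T x - S x‖ ≤ R + R := by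
    filter_upwards [hTs, hSs] with x ⟨i, hi, _⟩ ⟨i', hi', _⟩
    rw [hi, hi']
    exact (norm_sub_le _ _).trans (add_le_add (hPR i) (hP'R i'))
  refine (eLpNorm_unif_le hv0 hvT (hT.sub hS) hB hI).trans (le_of_eq ?_)
  rw [ENNReal.ofReal_rpow_of_nonneg hW0 (by norm_num)]
  have e2 : (volume K).toReal⁻¹ * (C3 * (A ^ (1 / 3 : ℝ) * W2 ^ (1 / 3 : ℝ))) =
      ((volume K).toReal⁻¹ * (C3 * A ^ (1 / 3 : ℝ))) * W2 ^ (1 / 3 : ℝ) := by ring
  have e3 : Real.sqrt (W2 ^ (1 / 3 : ℝ)) = W2 ^ (1 / 6 : ℝ) := by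
    rw [Real.sqrt_eq_rpow, ← Real.rpow_mul hW0]
    norm_num
  rw [e2, Real.sqrt_mul (by positivity), e3, ENNReal.ofReal_mul (Real.sqrt_nonneg _)]
  rfl

end Vale.Agent.Lib.P074u
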