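import Mathlib

/-!
Abstract duality and telescoping argument: stability of the barycentres of the cells under a change
of the masses implies stability of the optimal weights under a move of the sites.
-/

open Filter Topology

namespace Vale.Agent.Lib.P074u

variable {ι : Type} [Fintype ι]

/-- One step of the competitor inequality, written for the dual value. -/
lemma dual_step {Φ : (ι → ℝ) → (ι → ℝ) → ℝ} {Mo ma : (ι → ℝ) → (ι → ℝ) → ι → ℝ}
    (hsub : ∀ η w η' w', Φ η w + ∑ i, Mo η w i * (η' i - η i) - ∑ i, ma η w i * (w' i - w i) ≤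
      Φ η' w') {η0 w0 q : ι → ℝ} (h0 : ∀ i, ma η0 w0 i = q i) (η1 w1 : ι → ℝ) :
    (Φ η0 w0 + ∑ i, q i * w0 i) + ∑ i, Mo η0 w0 i * (η1 i - η0 i) ≤
      Φ η1 w1 + ∑ i, q i * w1 i := by
  have h := hsub η0 w0 η1 w1
  simp only [h0] at h
  have e : ∑ i, q i * (w1 i - w0 i) = ∑ i, q i * w1 i - ∑ i, q i * w0 i := by
    simp only [mul_sub, Finset.sum_sub_distrib]
  linarith

/-- Minimality of the optimal weights. -/
lemma dual_min {Φ : (ι → ℝ) → (ι → ℝ) → ℝ} {Mo ma : (ι → ℝ) → (ι → ℝ) → ι → ℝ}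
    (hsub : ∀ η w η' w', Φ η w + ∑ i, Mo η w i * (η' i - η i) - ∑ i, ma η w i * (w' i - w i) ≤
      Φ η' w') {η0 w0 q : ι → ℝ} (h0 : ∀ i, ma η0 w0 i = q i) (w1 : ι → ℝ) :
    Φ η0 w0 + ∑ i, q i * w0 i ≤ Φ η0 w1 + ∑ i, q i * w1 i := by
  have h := dual_step hsub h0 η0 w1
  simpa using h

/-- The change of the first moments paired with the displacement. -/
lemma moment_pairing {p q e M0 M1 F : ι → ℝ} {r Csk ε : ℝ} (hr : 0 ≤ r) (hC : 0 ≤ Csk)
    (hε : 0 ≤ ε)
    (hp : ∀ i, 0 < p i) (hq : ∀ i, 0 < q i) (hqp : ∀ i, q i = p i - ε * F i)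
    (hM1 : ∀ i, |M1 i| ≤ r * q i)
    (hSK : ∑ i, p i * (M1 i / q i - M0 i / p i) ^ 2 ≤ Csk * ∑ i, (q i - p i) ^ 2 / p i) :
    ∑ i, (M0 i - M1 i) * e i ≤
      ε * ((Real.sqrt Csk + r) * (Real.sqrt (∑ i, p i * e i ^ 2) *
        Real.sqrt (∑ i, F i ^ 2 / p i))) := by
  set Ne := Real.sqrt (∑ i, p i * e i ^ 2) with hNe
  set NF := Real.sqrt (∑ i, F i ^ 2 / p i) with hNF
  have hsp : ∀ i, 0 < Real.sqrt (p i) := fun i => Real.sqrt_pos.mpr (hp i)
  have hsq : ∀ i, Real.sqrt (p i) ^ 2 = p i := fun i => Real.sq_sqrt (hp i).le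
  -- decomposition
  have hdec : ∀ i, (M0 i - M1 i) * e i =
      (Real.sqrt (p i) * e i) * (Real.sqrt (p i) * (M0 i / p i - M1 i / q i)) +
        ε * ((Real.sqrt (p i) * e i) * (F i / Real.sqrt (p i) * (M1 i / q i))) := by
    intro i
    have h1 := (hp i).ne'
    have h2 := (hq i).ne'
    have h3 := (hsp i).ne'
    have e1 : (Real.sqrt (p i) * e i) * (Real.sqrt (p i) * (M0 i / p i - M1 i / q i)) =
        Real.sqrt (p i) ^ 2 * e i * (M0 i / p i - M1 i / q i) := by ring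
    have e2 : (Real.sqrt (p i) * e i) * (F i / Real.sqrt (p i) * (M1 i / q i)) =
        e i * F i * (M1 i / q i) := by
      field_simp
    rw [e1, e2, hsq]
    have e3 : ε * F i = p i - q i := by rw [hqp i]; ring
    have e4 : ε * (e i * F i * (M1 i / q i)) = (p i - q i) * e i * (M1 i / q i) := by
      rw [← e3]; ring
    rw [e4]
    field_simp
    ring
  simp only [hdec, Finset.sum_add_distrib, ← Finset.mul_sum]
  -- first term
  have hA : ∑ i, (Real.sqrt (p i) * e i) * (Real.sqrt (p i) * (M0 i / p i - M1 i / q i)) ≤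
      Ne * (ε * (Real.sqrt Csk * NF)) := by
    have h1 := Real.sum_mul_le_sqrt_mul_sqrt Finset.univ (fun i => Real.sqrt (p i) * e i)
      (fun i => Real.sqrt (p i) * (M0 i / p i - M1 i / q i))
    have h2 : ∑ i, (Real.sqrt (p i) * e i) ^ 2 = ∑ i, p i * e i ^ 2 := by
      refine Finset.sum_congr rfl fun i _ => ?_
      rw [mul_pow, hsq]
    have h3 : ∑ i, (Real.sqrt (p i) * (M0 i / p i - M1 i / q i)) ^ 2 ≤
        ε ^ 2 * (Csk * ∑ i, F i ^ 2 / p i) := by
      have h4 : ∑ i, (Real.sqrt (p i) * (M0 i / p i - M1 i / q i)) ^ 2 =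
          ∑ i, p i * (M1 i / q i - M0 i / p i) ^ 2 := by
        refine Finset.sum_congr rfl fun i _ => ?_
        rw [mul_pow, hsq]
        ring
      have h5 : ∑ i, (q i - p i) ^ 2 / p i = ε ^ 2 * ∑ i, F i ^ 2 / p i := by
        rw [Finset.mul_sum]
        refine Finset.sum_congr rfl fun i _ => ?_
        rw [hqp i]
        ring
      rw [h4]
      rw [h5] at hSK
      linarith
    have h6 : Real.sqrt (∑ i, (Real.sqrt (p i) * (M0 i / p i - M1 i / q i)) ^ 2) ≤
        ε * (Real.sqrt Csk * NF) := by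
      refine (Real.sqrt_le_sqrt h3).trans (le_of_eq ?_)
      rw [Real.sqrt_mul (by positivity), Real.sqrt_sq hε, Real.sqrt_mul hC]
    rw [h2] at h1
    exact h1.trans (mul_le_mul_of_nonneg_left h6 (Real.sqrt_nonneg _))
  -- second term
  have hB : ∑ i, (Real.sqrt (p i) * e i) * (F i / Real.sqrt (p i) * (M1 i / q i)) ≤
      Ne * (r * NF) := by
    have h1 := Real.sum_mul_le_sqrt_mul_sqrt Finset.univ (fun i => Real.sqrt (p i) * e i)
      (fun i => F i / Real.sqrt (p i) * (M1 i / q i))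
    have h2 : ∑ i, (Real.sqrt (p i) * e i) ^ 2 = ∑ i, p i * e i ^ 2 := by
      refine Finset.sum_congr rfl fun i _ => ?_
      rw [mul_pow, hsq]
    have h3 : ∑ i, (F i / Real.sqrt (p i) * (M1 i / q i)) ^ 2 ≤ r ^ 2 * ∑ i, F i ^ 2 / p i := by
      rw [Finset.mul_sum]
      refine Finset.sum_le_sum fun i _ => ?_
      rw [mul_pow, div_pow, hsq]
      have h4 : |M1 i / q i| ≤ r := by
        rw [abs_div, abs_of_pos (hq i), div_le_iff₀ (hq i)]
        exact hM1 i
      have h5 : (M1 i / q i) ^ 2 ≤ r ^ 2 := by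
        rw [← sq_abs]
        exact pow_le_pow_left₀ (abs_nonneg _) h4 2
      have h6 : 0 ≤ F i ^ 2 / p i := div_nonneg (sq_nonneg _) (hp i).le
      calc F i ^ 2 / p i * (M1 i / q i) ^ 2 ≤ F i ^ 2 / p i * r ^ 2 :=
            mul_le_mul_of_nonneg_left h5 h6
        _ = r ^ 2 * (F i ^ 2 / p i) := by ring
    have h6 : Real.sqrt (∑ i, (F i / Real.sqrt (p i) * (M1 i / q i)) ^ 2) ≤ r * NF := by
      refine (Real.sqrt_le_sqrt h3).trans (le_of_eq ?_)
      rw [Real.sqrt_mul (by positivity), Real.sqrt_sq hr]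
    rw [h2] at h1
    exact h1.trans (mul_le_mul_of_nonneg_left h6 (Real.sqrt_nonneg _))
  have hB' := mul_le_mul_of_nonneg_left hB hε
  calc _ ≤ Ne * (ε * (Real.sqrt Csk * NF)) + ε * (Ne * (r * NF)) := add_le_add hA hB'
    _ = ε * ((Real.sqrt Csk + r) * (Ne * NF)) := by ring

/-- Archimedean conclusion. -/
lemma le_of_forall_nat_div {X Y D : ℝ} (hD : 0 ≤ D)
    (h : ∀ n : ℕ, 0 < n → X ≤ Y + D / n) : X ≤ Y := by
  apply le_of_forall_pos_le_add
  intro δ hδ
  obtain ⟨n, hn⟩ := exists_nat_gt (D / δ)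
  have hn0 : (0 : ℝ) < n := lt_of_le_of_lt (div_nonneg hD hδ.le) hn
  have hn' : 0 < n := by exact_mod_cast hn0
  have h1 := h n hn'
  have h2 : D / n ≤ δ := by
    rw [div_le_iff₀ hn0]
    rw [div_lt_iff₀ hδ] at hn
    linarith
  linarith

/-- The telescoping estimate for a fixed perturbation of the masses. -/
lemma pairing_eps {Φ : (ι → ℝ) → (ι → ℝ) → ℝ} {Mo ma : (ι → ℝ) → (ι → ℝ) → ι → ℝ}
    {r Csk V : ℝ} (hr : 0 ≤ r) (hC : 0 ≤ Csk)
    (hsub : ∀ η w η' w', Φ η w + ∑ i, Mo η w i * (η' i - η i) - ∑ i, ma η w i * (w' i - w i) ≤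
      Φ η' w')
    (hMo : ∀ η w i, |Mo η w i| ≤ r * ma η w i)
    (hex : ∀ (η q : ι → ℝ), (∀ i, 0 < q i) → ∑ i, q i = V → ∃ w, ∀ i, ma η w i = q i)
    (hSK : ∀ η w0 w1, (∀ i, 0 < ma η w0 i) →
      (∀ i, |ma η w1 i - ma η w0 i| ≤ ma η w0 i / 2) →
      ∑ i, ma η w0 i * (Mo η w1 i / ma η w1 i - Mo η w0 i / ma η w0 i) ^ 2 ≤
        Csk * ∑ i, (ma η w1 i - ma η w0 i) ^ 2 / ma η w0 i)
    (η η' w' p F : ι → ℝ) (hp : ∀ i, 0 < p i) (hpV : ∑ i, p i = V)
    (h2 : ∀ i, ma η' w' i = p i) (hF : ∑ i, F i = 0) {ε : ℝ} (hε : 0 < ε)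
    (hεF : ∀ i, ε * |F i| ≤ p i / 2) (b0 : ι → ℝ) (hb0 : ∀ i, ma η b0 i = p i - ε * F i) :
    ∑ i, F i * (w' i - b0 i) ≤ (Real.sqrt Csk + r) *
      (Real.sqrt (∑ i, p i * (η' i - η i) ^ 2) * Real.sqrt (∑ i, F i ^ 2 / p i)) := by
  set e : ι → ℝ := fun i => η' i - η i with he
  set q : ι → ℝ := fun i => p i - ε * F i with hqdef
  set B : ℝ := (Real.sqrt Csk + r) *
      (Real.sqrt (∑ i, p i * e i ^ 2) * Real.sqrt (∑ i, F i ^ 2 / p i)) with hB
  have habs : ∀ i, |ε * F i| ≤ p i / 2 := fun i => by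
    rw [abs_mul, abs_of_pos hε]; exact hεF i
  have hq : ∀ i, 0 < q i := fun i => by
    have h1 := (abs_le.mp (habs i)).2
    have h3 := hp i
    simp only [hqdef]
    linarith
  have hqV : ∑ i, q i = V := by
    simp only [hqdef, Finset.sum_sub_distrib, ← Finset.mul_sum, hF, hpV]
    ring
  choose Wp hWp using fun η0 => hex η0 p hp hpV
  choose Wq hWq using fun η0 => hex η0 q hq hqV
  set D : ℝ := 2 * (r * ∑ i, q i * |e i|) with hD
  have hD0 : 0 ≤ D := by
    have : 0 ≤ ∑ i, q i * |e i| :=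
      Finset.sum_nonneg fun i _ => mul_nonneg (hq i).le (abs_nonneg _)
    positivity
  have hpair : ∀ x : ι → ℝ, ∑ i, q i * x i = ∑ i, p i * x i - ε * ∑ i, F i * x i := by
    intro x
    simp only [hqdef, sub_mul, Finset.sum_sub_distrib, Finset.mul_sum]
    congr 1
    refine Finset.sum_congr rfl fun i _ => ?_
    ring
  -- the estimate for a fixed number of steps
  have main : ∀ n : ℕ, 0 < n → ε * ∑ i, F i * (w' i - b0 i) ≤ ε * B + D / n := by
    intro n hn
    have hn0 : (0 : ℝ) < n := by exact_mod_cast hn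
    set ηk : ℕ → ι → ℝ := fun k i => η i + (k / n : ℝ) * e i with hηk
    set Gp : ℕ → ℝ := fun k => Φ (ηk k) (Wp (ηk k)) + ∑ i, p i * Wp (ηk k) i with hGp
    set Gq : ℕ → ℝ := fun k => Φ (ηk k) (Wq (ηk k)) + ∑ i, q i * Wq (ηk k) i with hGq
    set α : ℕ → ℝ := fun k => ∑ i, Mo (ηk k) (Wp (ηk k)) i * e i with hα
    set β : ℕ → ℝ := fun k => ∑ i, Mo (ηk k) (Wq (ηk k)) i * e i with hβ
    have hη0 : ηk 0 = η := by
      funext i
      simp [hηk]
    have hηn : ηk n = η' := by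
      funext i
      simp only [hηk, he]
      rw [div_self hn0.ne']
      ring
    have hdiff : ∀ k i, ηk (k + 1) i - ηk k i = e i / n := by
      intro k i
      simp only [hηk]
      push_cast
      field_simp
      ring
    have stepP : ∀ k, Gp (k + 1) - Gp k ≤ α (k + 1) / n := by
      intro k
      have h := dual_step hsub (hWp (ηk (k + 1))) (ηk k) (Wp (ηk k))
      have e1 : ∑ i, Mo (ηk (k + 1)) (Wp (ηk (k + 1))) i * (ηk k i - ηk (k + 1) i) =
          - (α (k + 1) / n) := by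
        simp only [hα, Finset.sum_div, ← Finset.sum_neg_distrib]
        refine Finset.sum_congr rfl fun i _ => ?_
        have := hdiff k i
        have e2 : ηk k i - ηk (k + 1) i = - (e i / n) := by linarith
        rw [e2]
        ring
      rw [e1] at h
      simp only [hGp]
      linarith
    have stepQ : ∀ k, β k / n ≤ Gq (k + 1) - Gq k := by
      intro k
      have h := dual_step hsub (hWq (ηk k)) (ηk (k + 1)) (Wq (ηk (k + 1)))
      have e1 : ∑ i, Mo (ηk k) (Wq (ηk k)) i * (ηk (k + 1) i - ηk k i) = β k / n := by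
        simp only [hβ, Finset.sum_div]
        refine Finset.sum_congr rfl fun i _ => ?_
        rw [hdiff k i]
        ring
      rw [e1] at h
      simp only [hGq]
      linarith
    have sumP : Gp n - Gp 0 ≤ ∑ k ∈ Finset.range n, α (k + 1) / n := by
      rw [← Finset.sum_range_sub Gp n]
      exact Finset.sum_le_sum fun k _ => stepP k
    have sumQ : ∑ k ∈ Finset.range n, β k / n ≤ Gq n - Gq 0 := by
      rw [← Finset.sum_range_sub Gq n]
      exact Finset.sum_le_sum fun k _ => stepQ k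
    -- end points
    have end1 : ε * ∑ i, F i * w' i ≤ Gp n - Gq n := by
      have g1 := dual_min hsub (hWq (ηk n)) w'
      have g2 := dual_min hsub (η0 := ηk n) (w0 := w') (q := p)
        (by rw [hηn]; exact h2) (Wp (ηk n))
      rw [hpair w'] at g1
      simp only [hGp, hGq]
      linarith
    have end0 : - (ε * ∑ i, F i * b0 i) ≤ Gq 0 - Gp 0 := by
      have g1 := dual_min hsub (hWp (ηk 0)) b0
      have g2 := dual_min hsub (η0 := ηk 0) (w0 := b0) (q := q)
        (by rw [hη0]; exact hb0) (Wq (ηk 0))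
      rw [hpair b0] at g2
      simp only [hGp, hGq]
      linarith
    -- moments
    have hαβ : ∀ k, α k - β k ≤ ε * B := by
      intro k
      have hsk := hSK (ηk k) (Wp (ηk k)) (Wq (ηk k)) (fun i => by rw [hWp]; exact hp i)
        (fun i => by
          rw [hWp, hWq]
          have : q i - p i = - (ε * F i) := by simp only [hqdef]; ring
          rw [this, abs_neg]
          exact habs i)
      simp only [hWp, hWq] at hsk
      have := moment_pairing (e := e) (M0 := Mo (ηk k) (Wp (ηk k))) (M1 := Mo (ηk k) (Wq (ηk k)))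
        hr hC hε.le hp hq (fun i => rfl) (fun i => by rw [← hWq (ηk k) i]; exact hMo _ _ i) hsk
      have e1 : α k - β k =
          ∑ i, (Mo (ηk k) (Wp (ηk k)) i - Mo (ηk k) (Wq (ηk k)) i) * e i := by
        simp only [hα, hβ, sub_mul, Finset.sum_sub_distrib]
      rw [e1]
      exact this
    have hβb : ∀ k, |β k| ≤ D / 2 := by
      intro k
      have e1 : D / 2 = ∑ i, r * (q i * |e i|) := by
        rw [hD, Finset.mul_sum]
        ring
      rw [e1]
      refine (Finset.abs_sum_le_sum_abs _ _).trans (Finset.sum_le_sum fun i _ => ?_)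
      rw [abs_mul]
      have h1 := hMo (ηk k) (Wq (ηk k)) i
      rw [hWq] at h1
      calc |Mo (ηk k) (Wq (ηk k)) i| * |e i| ≤ (r * q i) * |e i| :=
            mul_le_mul_of_nonneg_right h1 (abs_nonneg _)
        _ = r * (q i * |e i|) := by ring
    have tele : ∑ k ∈ Finset.range n, α (k + 1) / n - ∑ k ∈ Finset.range n, β k / n =
        (∑ k ∈ Finset.range n, (α (k + 1) - β (k + 1))) / n + (β n - β 0) / n := by
      rw [← Finset.sum_range_sub β n, ← Finset.sum_sub_distrib, ← add_div,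
        ← Finset.sum_add_distrib, Finset.sum_div]
      refine Finset.sum_congr rfl fun k _ => ?_
      ring
    have hs1 : (∑ k ∈ Finset.range n, (α (k + 1) - β (k + 1))) / n ≤ ε * B := by
      rw [div_le_iff₀ hn0]
      calc ∑ k ∈ Finset.range n, (α (k + 1) - β (k + 1)) ≤ ∑ _k ∈ Finset.range n, ε * B :=
            Finset.sum_le_sum fun k _ => hαβ (k + 1)
        _ = ε * B * n := by
            rw [Finset.sum_const, Finset.card_range, nsmul_eq_mul]
            ring
    have hs2 : (β n - β 0) / n ≤ D / n := by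
      apply div_le_div_of_nonneg_right _ hn0.le
      have h1 := (abs_le.mp (hβb n)).2
      have h3 := (abs_le.mp (hβb 0)).1
      linarith
    have e5 : ε * ∑ i, F i * (w' i - b0 i) = ε * ∑ i, F i * w' i - ε * ∑ i, F i * b0 i := by
      simp only [mul_sub, Finset.sum_sub_distrib]
    rw [e5]
    linarith
  have h3 := le_of_forall_nat_div hD0 main
  exact le_of_mul_le_mul_left h3 hε

/-- Passage to the limit in the perturbation of the masses. -/
lemma pairing_limit [Nonempty ι] {Φ : (ι → ℝ) → (ι → ℝ) → ℝ}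
    {Mo ma : (ι → ℝ) → (ι → ℝ) → ι → ℝ}
    {r Csk V : ℝ} (hr : 0 ≤ r) (hC : 0 ≤ Csk)
    (hsub : ∀ η w η' w', Φ η w + ∑ i, Mo η w i * (η' i - η i) - ∑ i, ma η w i * (w' i - w i) ≤
      Φ η' w')
    (hMo : ∀ η w i, |Mo η w i| ≤ r * ma η w i)
    (hex : ∀ (η q : ι → ℝ), (∀ i, 0 < q i) → ∑ i, q i = V → ∃ w, ∀ i, ma η w i = q i)
    (hSK : ∀ η w0 w1, (∀ i, 0 < ma η w0 i) →
      (∀ i, |ma η w1 i - ma η w0 i| ≤ ma η w0 i / 2) →
      ∑ i, ma η w0 i * (Mo η w1 i / ma η w1 i - Mo η w0 i / ma η w0 i) ^ 2 ≤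
        Csk * ∑ i, (ma η w1 i - ma η w0 i) ^ 2 / ma η w0 i)
    (hcont : ∀ η w (wn : ℕ → ι → ℝ), (∀ i, 0 < ma η w i) →
      (∀ i, Tendsto (fun n => ma η (wn n) i) atTop (𝓝 (ma η w i))) →
      ∀ F : ι → ℝ, ∑ i, F i = 0 →
        Tendsto (fun n => ∑ i, F i * wn n i) atTop (𝓝 (∑ i, F i * w i)))
    (η η' w w' p F : ι → ℝ) (hp : ∀ i, 0 < p i) (hpV : ∑ i, p i = V)
    (h1 : ∀ i, ma η w i = p i) (h2 : ∀ i, ma η' w' i = p i) (hF : ∑ i, F i = 0) :
    ∑ i, F i * (w' i - w i) ≤ (Real.sqrt Csk + r) *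
      (Real.sqrt (∑ i, p i * (η' i - η i) ^ 2) * Real.sqrt (∑ i, F i ^ 2 / p i)) := by
  set B : ℝ := (Real.sqrt Csk + r) *
      (Real.sqrt (∑ i, p i * (η' i - η i) ^ 2) * Real.sqrt (∑ i, F i ^ 2 / p i)) with hB
  -- a small parameter
  obtain ⟨i0, -, hi0⟩ := Finset.exists_min_image Finset.univ p Finset.univ_nonempty
  set S : ℝ := ∑ j, |F j| + 1 with hS
  have hS0 : 0 < S := by
    have : 0 ≤ ∑ j, |F j| := Finset.sum_nonneg fun j _ => abs_nonneg _
    linarith
  set ε0 : ℝ := p i0 / (2 * S) with hε0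
  have hε0pos : 0 < ε0 := div_pos (hp i0) (by positivity)
  have hε0F : ∀ i, ε0 * |F i| ≤ p i / 2 := by
    intro i
    have h3 : |F i| ≤ S := by
      have : |F i| ≤ ∑ j, |F j| :=
        Finset.single_le_sum (f := fun j => |F j|) (fun j _ => abs_nonneg _) (Finset.mem_univ i)
      linarith
    have h4 : ε0 * |F i| ≤ ε0 * S := mul_le_mul_of_nonneg_left h3 hε0pos.le
    have h5 : ε0 * S = p i0 / 2 := by
      rw [hε0]
      field_simp
    have h6 := hi0 i (Finset.mem_univ i)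
    linarith
  set εn : ℕ → ℝ := fun n => ε0 / (n + 1) with hεn
  have hεnpos : ∀ n, 0 < εn n := fun n => div_pos hε0pos (by positivity)
  have hεnle : ∀ n, εn n ≤ ε0 := fun n => by
    apply div_le_self hε0pos.le
    have : (0 : ℝ) ≤ n := Nat.cast_nonneg n
    linarith
  have hεnF : ∀ n i, εn n * |F i| ≤ p i / 2 := fun n i =>
    (mul_le_mul_of_nonneg_right (hεnle n) (abs_nonneg _)).trans (hε0F i)
  have hεnlim : Tendsto εn atTop (𝓝 0) := by
    have h3 : Tendsto (fun n : ℕ => ε0 * (1 / ((n : ℝ) + 1))) atTop (𝓝 (ε0 * 0)) :=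
      tendsto_one_div_add_atTop_nhds_zero_nat.const_mul ε0
    rw [mul_zero] at h3
    refine h3.congr fun n => ?_
    simp only [hεn]
    ring
  have hexn : ∀ n, ∃ b : ι → ℝ, ∀ i, ma η b i = p i - εn n * F i := by
    intro n
    apply hex η (fun i => p i - εn n * F i)
    · intro i
      have h3 : εn n * F i ≤ εn n * |F i| :=
        mul_le_mul_of_nonneg_left (le_abs_self _) (hεnpos n).le
      have h4 := hεnF n i
      have h5 := hp i
      linarith
    · simp only [Finset.sum_sub_distrib, ← Finset.mul_sum, hF, hpV]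
      ring
  choose b hb using hexn
  have hlim := hcont η w b (fun i => by rw [h1]; exact hp i) (fun i => by
    simp only [hb, h1]
    have : Tendsto (fun n => p i - εn n * F i) atTop (𝓝 (p i - 0 * F i)) :=
      tendsto_const_nhds.sub (hεnlim.mul_const _)
    simpa using this) F hF
  have hall : ∀ n, ∑ i, F i * w' i - B ≤ ∑ i, F i * b n i := by
    intro n
    have := pairing_eps hr hC hsub hMo hex hSK η η' w' p F hp hpV h2 hF (hεnpos n) (hεnF n)
      (b n) (hb n)
    simp only [mul_sub, Finset.sum_sub_distrib] at this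
    linarith
  have h7 := ge_of_tendsto' hlim hall
  simp only [mul_sub, Finset.sum_sub_distrib]
  linarith

/-- **Stability of the optimal weights** (abstract form): if the barycentres of the cells are
stable under changes of the masses, then the optimal weights are `L²`-Lipschitz in the sites. -/
theorem weights_stability [Nonempty ι] (Φ : (ι → ℝ) → (ι → ℝ) → ℝ)
    (Mo ma : (ι → ℝ) → (ι → ℝ) → ι → ℝ)
    (r Csk V : ℝ) (hr : 0 ≤ r) (hC : 0 ≤ Csk)
    (hsub : ∀ η w η' w', Φ η w + ∑ i, Mo η w i * (η' i - η i) - ∑ i, ma η w i * (w' i - w i) ≤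
      Φ η' w')
    (hMo : ∀ η w i, |Mo η w i| ≤ r * ma η w i)
    (hex : ∀ (η q : ι → ℝ), (∀ i, 0 < q i) → ∑ i, q i = V → ∃ w, ∀ i, ma η w i = q i)
    (hSK : ∀ η w0 w1, (∀ i, 0 < ma η w0 i) →
      (∀ i, |ma η w1 i - ma η w0 i| ≤ ma η w0 i / 2) →
      ∑ i, ma η w0 i * (Mo η w1 i / ma η w1 i - Mo η w0 i / ma η w0 i) ^ 2 ≤
        Csk * ∑ i, (ma η w1 i - ma η w0 i) ^ 2 / ma η w0 i)
    (hcont : ∀ η w (wn : ℕ → ι → ℝ), (∀ i, 0 < ma η w i) →
      (∀ i, Tendsto (fun n => ma η (wn n) i) atTop (𝓝 (ma η w i))) →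
      ∀ F : ι → ℝ, ∑ i, F i = 0 →
        Tendsto (fun n => ∑ i, F i * wn n i) atTop (𝓝 (∑ i, F i * w i)))
    (η η' w w' p : ι → ℝ) (hp : ∀ i, 0 < p i) (hpV : ∑ i, p i = V)
    (h1 : ∀ i, ma η w i = p i) (h2 : ∀ i, ma η' w' i = p i) :
    ∃ c, ∑ i, p i * (w' i - w i - c) ^ 2 ≤
      (Real.sqrt Csk + r) ^ 2 * ∑ i, p i * (η' i - η i) ^ 2 := by
  have hV : 0 < V := by
    rw [← hpV]
    exact Finset.sum_pos (fun i _ => hp i) Finset.univ_nonempty
  set u : ι → ℝ := fun i => w' i - w i with hu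
  set c : ℝ := (∑ i, p i * u i) / V with hc
  set F : ι → ℝ := fun i => p i * (u i - c) with hFdef
  refine ⟨c, ?_⟩
  have hF : ∑ i, F i = 0 := by
    simp only [hFdef, mul_sub, Finset.sum_sub_distrib, ← Finset.sum_mul, hpV]
    rw [hc]
    field_simp
    ring
  set X : ℝ := ∑ i, p i * (u i - c) ^ 2 with hX
  have hX0 : 0 ≤ X := Finset.sum_nonneg fun i _ => mul_nonneg (hp i).le (sq_nonneg _)
  have e1 : ∑ i, F i * (w' i - w i) = X := by
    have e2 : ∑ i, F i * (w' i - w i) = ∑ i, (p i * (u i - c) ^ 2 + c * F i) := by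
      refine Finset.sum_congr rfl fun i _ => ?_
      simp only [hFdef, hu]
      ring
    rw [e2, Finset.sum_add_distrib, ← Finset.mul_sum, hF]
    simp [hX]
  have e3 : ∑ i, F i ^ 2 / p i = X := by
    refine Finset.sum_congr rfl fun i _ => ?_
    simp only [hFdef]
    have := (hp i).ne'
    field_simp
  have key := pairing_limit hr hC hsub hMo hex hSK hcont η η' w w' p F hp hpV h1 h2 hF
  rw [e1, e3] at key
  set Y : ℝ := ∑ i, p i * (η' i - η i) ^ 2 with hY
  have hY0 : 0 ≤ Y := Finset.sum_nonneg fun i _ => mul_nonneg (hp i).le (sq_nonneg _)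
  set a : ℝ := (Real.sqrt Csk + r) * Real.sqrt Y with ha
  have ha0 : 0 ≤ a := mul_nonneg (add_nonneg (Real.sqrt_nonneg _) hr) (Real.sqrt_nonneg _)
  have key' : X ≤ a * Real.sqrt X := by
    rw [ha]
    linarith
  have hfin : X ≤ a ^ 2 := by
    rcases hX0.eq_or_lt with h0 | hpos
    · rw [← h0]; positivity
    · have hs : 0 < Real.sqrt X := Real.sqrt_pos.mpr hpos
      have h3 : Real.sqrt X * Real.sqrt X ≤ a * Real.sqrt X := by
        rw [Real.mul_self_sqrt hX0]; exact key'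
      have h4 : Real.sqrt X ≤ a := le_of_mul_le_mul_right h3 hs
      calc X = Real.sqrt X ^ 2 := (Real.sq_sqrt hX0).symm
        _ ≤ a ^ 2 := pow_le_pow_left₀ hs.le h4 2
  have e4 : a ^ 2 = (Real.sqrt Csk + r) ^ 2 * Y := by
    rw [ha, mul_pow, Real.sq_sqrt hY0]
  rw [← e4]
  exact hfin

end Vale.Agent.Lib.P074u
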