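import Vale.Agent.Lib.P074u.DiscStab

/-!
The target statement for the weights of power diagrams: `L²` stability of the optimal weights, with
respect to the common masses, when one coordinate of the atoms is moved.
-/

open MeasureTheory
open scoped NNReal RealInnerProductSpace

namespace Vale.Agent.Lib.P074u

open Vale.Agent.Lib.P074q (E)
open Vale.Agent.Lib.P074b (unif)

/-- Stability of the weights for finitely supported targets with the same positive masses, whose
atoms differ in the single coordinate `j0`, another coordinate `j1` being injective: up to an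
additive constant, the weights move in `L²` of the masses by at most a constant times the
quadratic cost of the move. -/
def WeightStab (d : ℕ) : Prop :=
  ∀ (K : Set (E d)), IsCompact K → Convex ℝ K → (interior K).Nonempty → ∀ R : ℝ≥0,
    ∃ C : ℝ, 0 ≤ C ∧ ∀ (ι : Type) [Fintype ι] [Nonempty ι] (j0 j1 : Fin d), j0 ≠ j1 →
      ∀ (P P' : ι → E d) (w w' : ι → ℝ),
      (∀ i, ‖P i‖ ≤ R) → (∀ i, ‖P' i‖ ≤ R) →
      (∀ i j, j ≠ j0 → P i j = P' i j) → Function.Injective (fun i => P i j1) →
      (∀ i, unif K {x | ∀ j, ⟪x, P j⟫ - w j ≤ ⟪x, P i⟫ - w i} =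
        unif K {x | ∀ j, ⟪x, P' j⟫ - w' j ≤ ⟪x, P' i⟫ - w' i}) →
      (∀ i, unif K {x | ∀ j, ⟪x, P j⟫ - w j ≤ ⟪x, P i⟫ - w i} ≠ 0) →
      ∃ c : ℝ, ∑ i, (unif K {x | ∀ j, ⟪x, P j⟫ - w j ≤ ⟪x, P i⟫ - w i}).toReal *
          (w' i - w i - c) ^ 2 ≤
        C * ∑ i, (unif K {x | ∀ j, ⟪x, P j⟫ - w j ≤ ⟪x, P i⟫ - w i}).toReal *
          (P i j0 - P' i j0) ^ 2

end Vale.Agent.Lib.P074u
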