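import Vale.Agent.Lib.P074u.Mixed
import Vale.Agent.Lib.P074u.Cont
import Vale.Agent.Lib.P074u.WeightStab

open MeasureTheory
open scoped NNReal RealInnerProductSpace

namespace Vale.Agent.Lib.P074u

open Vale.Agent.Lib.P074q (E)
open Vale.Agent.Lib.P074b (unif)

variable {d : ℕ} {ι : Type} [Fintype ι]

/-- From `V ≤ a * √V * √W` to `V ≤ a² W`. -/
theorem sq_bound_of_sqrt {V W a : ℝ} (hV : 0 ≤ V) (hW : 0 ≤ W) (ha : 0 ≤ a)
    (h : V ≤ a * Real.sqrt V * Real.sqrt W) : V ≤ a ^ 2 * W := by
  rcases hV.eq_or_lt with h0 | hpos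
  · rw [← h0]; positivity
  have hs : 0 < Real.sqrt V := Real.sqrt_pos.mpr hpos
  have h1 : Real.sqrt V * Real.sqrt V = V := Real.mul_self_sqrt hV
  have h2 : Real.sqrt V ≤ a * Real.sqrt W := by
    have : Real.sqrt V * Real.sqrt V ≤ (a * Real.sqrt W) * Real.sqrt V := by
      rw [h1]; linarith [h]
    exact le_of_mul_le_mul_right this hs
  have h3 : Real.sqrt W * Real.sqrt W = W := Real.mul_self_sqrt hW
  calc V = Real.sqrt V * Real.sqrt V := h1.symm
    _ ≤ (a * Real.sqrt W) * (a * Real.sqrt W) :=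
        mul_le_mul h2 h2 hs.le (by positivity)
    _ = a ^ 2 * (Real.sqrt W * Real.sqrt W) := by ring
    _ = a ^ 2 * W := by rw [h3]

/-- Weighted variance of the difference of the weights. -/
theorem weights_var [Nonempty ι] {K : Set (E d)} (hK : IsCompact K) (hKc : Convex ℝ K)
    (hKi : (interior K).Nonempty) {M : ℝ} (hM : 0 < M) (hKM : ∀ x ∈ K, ‖x‖ ≤ M)
    (j1 : Fin d) (P P' : ι → E d) (hj : ∀ i, P i j1 = P' i j1)
    (hinj : Function.Injective (fun i => P i j1)) (w w' : ι → ℝ)
    (hm : ∀ i, 0 < mass K P w i) (hmass : ∀ i, mass K P w i = mass K P' w' i) :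
    ∑ i, mass K P w i * ((w' i - w i) - ∑ k, mass K P w k * (w' k - w k)) ^ 2 ≤
      729 * M ^ 2 * ∑ i, mass K P w i * ‖P' i - P i‖ ^ 2 := by
  classical
  have hP : Function.Injective P := fun a b hab => hinj (by simp only [hab])
  have hP' : Function.Injective P' := fun a b hab => hinj (by simp only [hj, hab])
  set m : ι → ℝ := fun i => mass K P w i with hmdef
  have hsum : ∑ i, m i = 1 := sum_mass hK hKi hP w
  set ubar : ℝ := ∑ k, m k * (w' k - w k) with hubar
  set F0 : ι → ℝ := fun i => (w' i - w i) - ubar with hF0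
  have hF0sum : ∑ i, m i * F0 i = 0 := by
    have e : ∀ i, m i * F0 i = m i * (w' i - w i) - m i * ubar := fun i => by
      simp only [hF0]; ring
    simp only [e, Finset.sum_sub_distrib, ← Finset.sum_mul, hsum, one_mul]
    exact sub_self _
  set V : ℝ := ∑ i, m i * F0 i ^ 2 with hV
  set W : ℝ := ∑ i, m i * ‖P' i - P i‖ ^ 2 with hW
  have hV0 : 0 ≤ V := Finset.sum_nonneg fun i _ => mul_nonneg (hm i).le (sq_nonneg _)
  have hW0 : 0 ≤ W := Finset.sum_nonneg fun i _ => mul_nonneg (hm i).le (sq_nonneg _)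
  have hm1 : ∀ i, m i ≤ 1 := fun i => by
    rw [← hsum]
    exact Finset.single_le_sum (f := m) (fun k _ => (hm k).le) (Finset.mem_univ i)
  set B : ℝ := 1 + ∑ i, |F0 i| with hB
  have hB1 : 1 ≤ B := by
    have : 0 ≤ ∑ i, |F0 i| := Finset.sum_nonneg fun i _ => abs_nonneg _
    linarith
  have hFB : ∀ i, |F0 i| ≤ B := fun i => by
    have := Finset.single_le_sum (f := fun i => |F0 i|) (fun k _ => abs_nonneg _)
      (Finset.mem_univ i)
    linarith
  have hm' : ∀ i, 0 < mass K P' w' i := fun i => by rw [← hmass i]; exact hm i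
  have key : ∀ η : ℝ, 0 < η → V ≤ 27 * M * Real.sqrt V * Real.sqrt W + η := by
    intro η hη
    obtain ⟨δ, hδ, hcont⟩ := weights_continuous hK hKc hKi hP' w' hm' (η := η / B)
      (by positivity)
    set ε : ℝ := min (1 / 2) δ / B with hε
    have hεpos : 0 < ε := by
      have : 0 < min (1 / 2 : ℝ) δ := lt_min (by norm_num) hδ
      positivity
    have hεF : ∀ i, |ε * F0 i| ≤ min (1 / 2) δ := fun i => by
      rw [abs_mul, abs_of_pos hεpos, hε, div_mul_eq_mul_div, div_le_iff₀ (by linarith)]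
      exact mul_le_mul_of_nonneg_left (hFB i) (le_min (by norm_num) hδ.le)
    set F : ι → ℝ := fun i => ε * F0 i with hF
    have hF12 : ∀ i, |F i| ≤ 1 / 2 := fun i => (hεF i).trans (min_le_left _ _)
    have hFsum : ∑ i, m i * F i = 0 := by
      have : ∑ i, m i * F i = ε * ∑ i, m i * F0 i := by
        rw [Finset.mul_sum]; refine Finset.sum_congr rfl fun i _ => ?_
        simp only [hF]; ring
      rw [this, hF0sum, mul_zero]
    obtain ⟨w1, hw1⟩ := exists_weights hK hKi hP' (fun i => m i * (1 + F i))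
      (fun i => mul_nonneg (hm i).le (by have := abs_le.mp (hF12 i); linarith [this.1]))
      (by simp only [mul_add, mul_one, Finset.sum_add_distrib, hsum, hFsum, add_zero])
    have hdual := dual_bound hK hKc hKi hM hKM j1 P P' hj hinj w w1 m F hm (fun i => rfl) hF12
      hFsum hw1
    -- continuity
    have hz := hcont w1 (fun i => by
      rw [hw1 i, ← hmass i]
      have : m i * (1 + F i) - mass K P w i = m i * F i := by simp only [hmdef]; ring
      rw [this, abs_mul, abs_of_pos (hm i)]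
      calc m i * |F i| ≤ 1 * |F i| := mul_le_mul_of_nonneg_right (hm1 i) (abs_nonneg _)
        _ ≤ δ := by rw [one_mul]; exact (hεF i).trans (min_le_right _ _))
    obtain ⟨i0⟩ := ‹Nonempty ι›
    have hzlow : -(η / B) * ∑ i, |F0 i| ≤ ∑ i, m i * F0 i * (w1 i - w' i) := by
      have e1 : ∑ i, m i * F0 i * (w1 i - w' i) =
          ∑ i, m i * F0 i * ((w1 i - w' i) - (w1 i0 - w' i0)) := by
        simp only [mul_sub (_ * _) (_ - _) (w1 i0 - w' i0), Finset.sum_sub_distrib,
          ← Finset.sum_mul, hF0sum, zero_mul, sub_zero]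
      rw [e1, Finset.mul_sum]
      refine Finset.sum_le_sum fun i _ => ?_
      have a1 := hz i i0
      have a2 := hz i0 i
      have a3 : |(w1 i - w' i) - (w1 i0 - w' i0)| ≤ η / B := abs_le.mpr ⟨by linarith, a1⟩
      have a4 : |m i * F0 i * ((w1 i - w' i) - (w1 i0 - w' i0))| ≤ |F0 i| * (η / B) := by
        rw [abs_mul, abs_mul, abs_of_pos (hm i)]
        have : m i * |F0 i| ≤ |F0 i| := by
          calc m i * |F0 i| ≤ 1 * |F0 i| := mul_le_mul_of_nonneg_right (hm1 i) (abs_nonneg _)
            _ = |F0 i| := one_mul _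
        exact mul_le_mul this a3 (abs_nonneg _) (abs_nonneg _)
      have := (abs_le.mp a4).1
      linarith
    have hzlow' : -η ≤ ∑ i, m i * F0 i * (w1 i - w' i) := by
      refine le_trans ?_ hzlow
      have h1 : ∑ i, |F0 i| ≤ B := by linarith
      have h2 : η / B * ∑ i, |F0 i| ≤ η / B * B :=
        mul_le_mul_of_nonneg_left h1 (by positivity)
      have h3 : η / B * B = η := div_mul_cancel₀ _ (by linarith)
      linarith
    have hVid : ∑ i, m i * F0 i * (w' i - w i) = V := by
      have : ∀ i, m i * F0 i * (w' i - w i) = m i * F0 i ^ 2 + (m i * F0 i) * ubar := fun i => by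
        simp only [hF0]; ring
      simp only [this, Finset.sum_add_distrib, ← Finset.sum_mul, hF0sum, zero_mul, add_zero, hV]
    have hsplit : ∑ i, m i * F i * (w1 i - w i) =
        ε * (∑ i, m i * F0 i * (w1 i - w' i) + V) := by
      rw [← hVid, ← Finset.sum_add_distrib, Finset.mul_sum]
      refine Finset.sum_congr rfl fun i _ => ?_
      simp only [hF]; ring
    have hsq : Real.sqrt (∑ i, m i * F i ^ 2) = ε * Real.sqrt V := by
      have : ∑ i, m i * F i ^ 2 = ε ^ 2 * V := by
        rw [hV, Finset.mul_sum]; refine Finset.sum_congr rfl fun i _ => ?_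
        simp only [hF]; ring
      rw [this, Real.sqrt_mul (sq_nonneg _), Real.sqrt_sq hεpos.le]
    rw [hsplit, hsq] at hdual
    have h5 : ε * (∑ i, m i * F0 i * (w1 i - w' i) + V) ≤
        ε * (27 * M * Real.sqrt V * Real.sqrt W) := by
      calc _ ≤ 27 * M * (ε * Real.sqrt V) * Real.sqrt W := hdual
        _ = _ := by ring
    have h6 := le_of_mul_le_mul_left h5 hεpos
    linarith
  have hfin : V ≤ 27 * M * Real.sqrt V * Real.sqrt W :=
    le_of_forall_pos_le_add key
  have := sq_bound_of_sqrt hV0 hW0 (by positivity : (0:ℝ) ≤ 27 * M) hfin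
  calc V ≤ (27 * M) ^ 2 * W := this
    _ = 729 * M ^ 2 * W := by ring

/-- Only one coordinate differs: the squared distance is the square of that coordinate. -/
theorem norm_sq_of_single_coord {a b : E d} (j0 : Fin d) (h : ∀ j, j ≠ j0 → a j = b j) :
    ‖b - a‖ ^ 2 = (a j0 - b j0) ^ 2 := by
  rw [EuclideanSpace.norm_sq_eq]
  rw [Finset.sum_eq_single j0]
  · rw [Real.norm_eq_abs, sq_abs]
    simp only [PiLp.sub_apply]
    ring
  · intro j _ hj
    simp [h j hj]
  · intro hj
    exact absurd (Finset.mem_univ j0) hj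

/-- The weights stability statement, in every dimension. -/
theorem weightStab (d : ℕ) : WeightStab d := by
  intro K hK hKc hKi R
  obtain ⟨M0, hM0⟩ := hK.isBounded.exists_norm_le
  set M : ℝ := max M0 1 with hMdef
  have hM : 0 < M := lt_of_lt_of_le one_pos (le_max_right _ _)
  have hKM : ∀ x ∈ K, ‖x‖ ≤ M := fun x hx => (hM0 x hx).trans (le_max_left _ _)
  refine ⟨729 * M ^ 2, by positivity, ?_⟩
  intro ι _ _ j0 j1 hj01 P P' w w' _ _ hfix hinj hmass hpos
  have hm : ∀ i, 0 < mass K P w i := fun i =>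
    ENNReal.toReal_pos (hpos i) (unif_ne_top hK hKi _)
  have hmass' : ∀ i, mass K P w i = mass K P' w' i := fun i =>
    congrArg ENNReal.toReal (hmass i)
  have key := weights_var hK hKc hKi hM hKM j1 P P' (fun i => hfix i j1 hj01.symm) hinj w w'
    hm hmass'
  refine ⟨∑ k, mass K P w k * (w' k - w k), ?_⟩
  have e : ∀ i, ‖P' i - P i‖ ^ 2 = (P i j0 - P' i j0) ^ 2 := fun i =>
    norm_sq_of_single_coord j0 (fun j hj => hfix i j hj)
  simp only [e] at key
  exact key

end Vale.Agent.Lib.P074u
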