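import Vale.Agent.Lib.P074u.StepOfDisc
import Vale.Agent.Lib.P074u.DiscFromWeights
import Vale.Agent.Lib.P074u.WeightsVar

/-!
The exponent one third is admissible in every dimension at least two.
-/

namespace Vale.Agent.Lib.P074u

open Vale.Agent.Lib.P074b (Admissible)

/-- The exponent `1/3` is admissible in every dimension `d ≥ 2`. -/
theorem admissible_third_all (d : ℕ) (hd : 2 ≤ d) : Admissible d (1 / 3) :=
  admissible_third_of_discStab26 hd (discStab_of_weightStab d (weightStab d))

end Vale.Agent.Lib.P074u
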