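import Vale.Agent.Lib.P074u.Defs

/-!
Competitor inequality for power diagrams and the mixed difference (telescoping) argument.
Everything is stated for a probability measure `ρ ≪ volume` concentrated on a ball.
-/

open MeasureTheory
open scoped NNReal RealInnerProductSpace

namespace Vale.Agent.Lib.P074u.Sad

open Vale.Agent.Lib.P074q (E)
open Vale.Agent.Lib.P074b (unif)

variable {d : ℕ} {ι : Type} [Fintype ι]

/-- The cell of index `i` of the power diagram with sites `P` and weights `w`. -/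
def cel (P : ι → E d) (w : ι → ℝ) (i : ι) : Set (E d) :=
  {x | ∀ j, ⟪x, P j⟫ - w j ≤ ⟪x, P i⟫ - w i}

/-- Mass of a cell. -/
noncomputable def mas (ρ : Measure (E d)) (P : ι → E d) (w : ι → ℝ) (i : ι) : ℝ :=
  (ρ (cel P w i)).toReal

/-- First moment of a cell. -/
noncomputable def mom (ρ : Measure (E d)) (P : ι → E d) (w : ι → ℝ) (i : ι) : E d :=
  ∫ x in cel P w i, x ∂ρ

/-- The piecewise affine convex potential. -/
noncomputable def pot (P : ι → E d) (w : ι → ℝ) (x : E d) : ℝ := ⨆ i, (⟪x, P i⟫ - w i)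

lemma hyperplane_null (a : E d) (ha : a ≠ 0) (c : ℝ) :
    volume {x : E d | ⟪x, a⟫ = c} = 0 := by
  set x0 : E d := (c / ‖a‖ ^ 2) • a with hx0
  have hna : ‖a‖ ^ 2 ≠ 0 := by
    have := norm_pos_iff.mpr ha; positivity
  have h0 : ⟪x0, a⟫ = c := by
    rw [hx0, real_inner_smul_left, real_inner_self_eq_norm_sq]; field_simp
  have hS : ((ℝ ∙ a)ᗮ : Submodule ℝ (E d)) ≠ ⊤ := by
    intro h
    have : a ∈ ((ℝ ∙ a)ᗮ : Submodule ℝ (E d)) := by rw [h]; trivial
    rw [Submodule.mem_orthogonal_singleton_iff_inner_right] at this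
    exact ha (inner_self_eq_zero.mp this)
  have h1 : {x : E d | ⟪x, a⟫ = c} = (fun x => x + (-x0)) ⁻¹' ((ℝ ∙ a)ᗮ : Submodule ℝ (E d)) := by
    ext x
    simp only [Set.mem_ofPred_eq, Set.mem_preimage, SetLike.mem_coe]
    rw [Submodule.mem_orthogonal_singleton_iff_inner_left, inner_add_left, inner_neg_left, h0]
    constructor
    · intro h; linarith
    · intro h; linarith
  rw [h1, measure_preimage_add_right]
  exact Measure.addHaar_submodule volume _ hS

lemma measurableSet_cel (P : ι → E d) (w : ι → ℝ) (i : ι) : MeasurableSet (cel P w i) := by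
  have : cel P w i = ⋂ j, {x : E d | ⟪x, P j⟫ - w j ≤ ⟪x, P i⟫ - w i} := by
    ext x; simp [cel]
  rw [this]
  refine MeasurableSet.iInter fun j => ?_
  exact measurableSet_le (by fun_prop) (by fun_prop)

lemma exists_mem_cel [Nonempty ι] (P : ι → E d) (w : ι → ℝ) (x : E d) : ∃ i, x ∈ cel P w i := by
  obtain ⟨i, hi⟩ := Finite.exists_max (fun i => ⟪x, P i⟫ - w i)
  exact ⟨i, hi⟩

lemma iUnion_cel [Nonempty ι] (P : ι → E d) (w : ι → ℝ) : ⋃ i, cel P w i = Set.univ := by
  ext x; simpa using exists_mem_cel P w x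

lemma aedisjoint_cel {ρ : Measure (E d)} (hac : ρ ≪ volume) {P : ι → E d}
    (hP : Function.Injective P) (w : ι → ℝ) :
    Pairwise (Function.onFun (AEDisjoint ρ) (cel P w)) := by
  intro i j hij
  show ρ (cel P w i ∩ cel P w j) = 0
  apply hac
  have hne : P i - P j ≠ 0 := sub_ne_zero.mpr (fun h => hij (hP h))
  refine measure_mono_null ?_ (hyperplane_null (P i - P j) hne (w i - w j))
  rintro x ⟨h1, h2⟩
  have a1 := h1 j
  have a2 := h2 i
  simp only [Set.mem_ofPred_eq, inner_sub_right]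
  linarith

lemma le_pot (P : ι → E d) (w : ι → ℝ) (x : E d) (i : ι) : ⟪x, P i⟫ - w i ≤ pot P w x :=
  le_ciSup (f := fun i => ⟪x, P i⟫ - w i) (Set.finite_range _).bddAbove i

lemma pot_eq_of_mem {P : ι → E d} {w : ι → ℝ} {x : E d} {i : ι} (h : x ∈ cel P w i) :
    pot P w x = ⟪x, P i⟫ - w i := by
  have : Nonempty ι := ⟨i⟩
  exact le_antisymm (ciSup_le h) (le_pot P w x i)

lemma measurable_pot (P : ι → E d) (w : ι → ℝ) : Measurable (pot P w) := by
  unfold pot
  exact Measurable.iSup (fun i => by fun_prop)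

section key

variable {ρ : Measure (E d)} [IsProbabilityMeasure ρ] {r : ℝ}

lemma integrable_id_of_bound (hr : ∀ᵐ x ∂ρ, ‖x‖ ≤ r) : Integrable (fun x : E d => x) ρ :=
  Integrable.of_bound measurable_id.aestronglyMeasurable r hr

lemma integrable_pot [Nonempty ι] (hr : ∀ᵐ x ∂ρ, ‖x‖ ≤ r) (P : ι → E d) (w : ι → ℝ) :
    Integrable (pot P w) ρ := by
  refine Integrable.of_bound (measurable_pot P w).aestronglyMeasurable
    (r * ∑ j, ‖P j‖ + ∑ j, |w j|) ?_
  filter_upwards [hr] with x hx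
  obtain ⟨i, hi⟩ := exists_mem_cel P w x
  rw [pot_eq_of_mem hi, Real.norm_eq_abs]
  have h1 : |⟪x, P i⟫| ≤ ‖x‖ * ‖P i‖ := abs_real_inner_le_norm x (P i)
  have h2 : ‖P i‖ ≤ ∑ j, ‖P j‖ :=
    Finset.single_le_sum (f := fun j => ‖P j‖) (fun j _ => norm_nonneg _) (Finset.mem_univ i)
  have h3 : |w i| ≤ ∑ j, |w j| :=
    Finset.single_le_sum (f := fun j => |w j|) (fun j _ => abs_nonneg _) (Finset.mem_univ i)
  have h4 : ‖x‖ * ‖P i‖ ≤ r * ∑ j, ‖P j‖ :=
    mul_le_mul hx h2 (norm_nonneg _) ((norm_nonneg x).trans hx)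
  calc |⟪x, P i⟫ - w i| ≤ |⟪x, P i⟫| + |w i| := abs_sub _ _
    _ ≤ _ := by linarith

lemma integral_eq_sum_cel [Nonempty ι] (hac : ρ ≪ volume) {P : ι → E d}
    (hP : Function.Injective P) (w : ι → ℝ) {f : E d → ℝ} (hf : Integrable f ρ) :
    ∫ x, f x ∂ρ = ∑ i, ∫ x in cel P w i, f x ∂ρ := by
  have := integral_iUnion_ae (μ := ρ) (f := f) (s := cel P w)
    (fun i => (measurableSet_cel P w i).nullMeasurableSet) (aedisjoint_cel hac hP w)
    (by rw [iUnion_cel]; exact hf.integrableOn)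
  rw [iUnion_cel, setIntegral_univ, tsum_fintype] at this
  exact this

lemma integrable_affine (hr : ∀ᵐ x ∂ρ, ‖x‖ ≤ r) (Q : E d) (c : ℝ) :
    Integrable (fun x : E d => ⟪x, Q⟫ - c) ρ :=
  ((integrable_id_of_bound hr).inner_const Q).sub (integrable_const c)

lemma setIntegral_affine (hr : ∀ᵐ x ∂ρ, ‖x‖ ≤ r) (P : ι → E d) (w : ι → ℝ) (i : ι)
    (Q : E d) (c : ℝ) :
    ∫ x in cel P w i, (⟪x, Q⟫ - c) ∂ρ = ⟪mom ρ P w i, Q⟫ - mas ρ P w i * c := by
  have hid : Integrable (fun x : E d => x) (ρ.restrict (cel P w i)) :=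
    (integrable_id_of_bound hr).restrict
  rw [integral_sub (hid.inner_const Q) (integrable_const c)]
  congr 1
  · have := integral_inner (𝕜 := ℝ) hid Q
    rw [mom, real_inner_comm, ← this]
    exact integral_congr_ae (Filter.Eventually.of_forall fun x => real_inner_comm _ _)
  · rw [setIntegral_const, mas, smul_eq_mul]; rfl

lemma sum_eq_integral_pot [Nonempty ι] (hac : ρ ≪ volume) (hr : ∀ᵐ x ∂ρ, ‖x‖ ≤ r)
    {P' : ι → E d} (hP' : Function.Injective P') (w' : ι → ℝ) :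
    ∑ i, (⟪mom ρ P' w' i, P' i⟫ - mas ρ P' w' i * w' i) = ∫ x, pot P' w' x ∂ρ := by
  have hpot := integrable_pot hr P' w'
  rw [integral_eq_sum_cel hac hP' w' hpot]
  refine Finset.sum_congr rfl fun i _ => ?_
  rw [← setIntegral_affine hr]
  exact (setIntegral_congr_fun (measurableSet_cel P' w' i) (fun x hx => pot_eq_of_mem hx)).symm

/-- The competitor inequality. -/
theorem key_ineq [Nonempty ι] (hac : ρ ≪ volume) (hr : ∀ᵐ x ∂ρ, ‖x‖ ≤ r) {P P' : ι → E d}
    (hP : Function.Injective P) (hP' : Function.Injective P') (w w' : ι → ℝ) :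
    ∑ i, (⟪mom ρ P w i, P' i⟫ - mas ρ P w i * w' i) ≤
      ∑ i, (⟪mom ρ P' w' i, P' i⟫ - mas ρ P' w' i * w' i) := by
  have hpot := integrable_pot hr P' w'
  rw [sum_eq_integral_pot hac hr hP' w', integral_eq_sum_cel hac hP w hpot]
  refine Finset.sum_le_sum fun i _ => ?_
  rw [← setIntegral_affine hr]
  exact setIntegral_mono (integrable_affine hr _ _).integrableOn hpot.integrableOn
    (fun x => le_pot P' w' x i)

lemma norm_mom_le (hr : ∀ᵐ x ∂ρ, ‖x‖ ≤ r) (P : ι → E d) (w : ι → ℝ) (i : ι) :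
    ‖mom ρ P w i‖ ≤ r * mas ρ P w i := by
  have := norm_setIntegral_le_of_norm_le_const_ae (μ := ρ) (s := cel P w i)
    (f := fun x : E d => x) (C := r) (measure_lt_top _ _) (ae_restrict_of_ae hr)
  exact this

end key

end Vale.Agent.Lib.P074u.Sad
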