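import Vale.Agent.Lib.P074u.Partition
import Vale.Agent.Lib.P074u.Saddle

open MeasureTheory
open scoped NNReal RealInnerProductSpace

namespace Vale.Agent.Lib.P074u

open Vale.Agent.Lib.P074q (E)
open Vale.Agent.Lib.P074b (unif)

variable {d : ℕ} {ι : Type} [Fintype ι]

lemma unif_isProb13 {K : Set (E d)} (hK : IsCompact K) (hKi : (interior K).Nonempty) :
    IsProbabilityMeasure (unif K) := by
  have hvtop : volume K ≠ ⊤ := hK.measure_lt_top.ne
  have hv0 : volume K ≠ 0 :=
    (lt_of_lt_of_le (isOpen_interior.measure_pos volume hKi)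
      (measure_mono interior_subset)).ne'
  refine ⟨?_⟩
  rw [unif, Measure.smul_apply, Measure.restrict_apply MeasurableSet.univ, Set.univ_inter,
    smul_eq_mul]
  exact ENNReal.inv_mul_cancel hv0 hvtop

lemma unif_ac13 (K : Set (E d)) : unif K ≪ volume :=
  (Measure.smul_absolutelyContinuous).trans Measure.restrict_le_self.absolutelyContinuous

lemma unif_ae_mem13 {K : Set (E d)} (hK : IsCompact K) : ∀ᵐ x ∂(unif K), x ∈ K :=
  Measure.ae_smul_measure (ae_restrict_mem hK.measurableSet) _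

lemma unif_ae_norm_le13 {K : Set (E d)} (hK : IsCompact K) {M : ℝ} (hKM : ∀ x ∈ K, ‖x‖ ≤ M) :
    ∀ᵐ x ∂(unif K), ‖x‖ ≤ M := by
  filter_upwards [unif_ae_mem13 hK] with x hx using hKM x hx

/-- `‖mom i‖ ≤ M * mass i`. -/
theorem norm_mom_le {K : Set (E d)} (hK : IsCompact K) (hKi : (interior K).Nonempty) {M : ℝ}
    (hKM : ∀ x ∈ K, ‖x‖ ≤ M) (P : ι → E d) (w : ι → ℝ) (i : ι) :
    ‖mom K P w i‖ ≤ M * mass K P w i := by
  have := unif_isProb13 hK hKi
  exact Sad.norm_mom_le (ρ := unif K) (unif_ae_norm_le13 hK hKM) P w i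

/-- The value is the dual functional at the weights. -/
theorem val_eq [Nonempty ι] {K : Set (E d)} (hK : IsCompact K) (hKi : (interior K).Nonempty)
    {P : ι → E d} (hP : Function.Injective P) (w : ι → ℝ) :
    val K P w = ∫ x, pot P w x ∂(unif K) + ∑ i, mass K P w i * w i := by
  have := unif_isProb13 hK hKi
  obtain ⟨M, hKM⟩ := hK.isBounded.exists_norm_le
  have h := Sad.sum_eq_integral_pot (ρ := unif K) (unif_ac13 K) (unif_ae_norm_le13 hK hKM) hP w
  have h' : ∑ i, (⟪mom K P w i, P i⟫ - mass K P w i * w i) = ∫ x, pot P w x ∂(unif K) := h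
  rw [Finset.sum_sub_distrib] at h'
  rw [val]
  linarith

/-- Subgradient inequality in the sites (equal masses). -/
theorem val_sites [Nonempty ι] {K : Set (E d)} (hK : IsCompact K) (hKi : (interior K).Nonempty)
    {P Q : ι → E d} (hP : Function.Injective P) (hQ : Function.Injective Q) (w v : ι → ℝ)
    (hmass : ∀ i, mass K P w i = mass K Q v i) :
    ∑ i, ⟪mom K P w i, Q i⟫ ≤ val K Q v := by
  have := unif_isProb13 hK hKi
  obtain ⟨M, hKM⟩ := hK.isBounded.exists_norm_le
  have h := Sad.key_ineq (ρ := unif K) (unif_ac13 K) (unif_ae_norm_le13 hK hKM) hP hQ w v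
  have h' : ∑ i, (⟪mom K P w i, Q i⟫ - mass K P w i * v i) ≤
      ∑ i, (⟪mom K Q v i, Q i⟫ - mass K Q v i * v i) := h
  rw [Finset.sum_sub_distrib, Finset.sum_sub_distrib] at h'
  have e : ∑ i, mass K P w i * v i = ∑ i, mass K Q v i * v i :=
    Finset.sum_congr rfl fun i _ => by rw [hmass i]
  rw [val]
  linarith

/-- Supergradient inequality in the masses (same sites). -/
theorem val_masses [Nonempty ι] {K : Set (E d)} (hK : IsCompact K)
    (hKi : (interior K).Nonempty) {P : ι → E d} (hP : Function.Injective P) (w v : ι → ℝ) :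
    val K P v ≤ val K P w + ∑ i, (mass K P v i - mass K P w i) * w i := by
  have := unif_isProb13 hK hKi
  obtain ⟨M, hKM⟩ := hK.isBounded.exists_norm_le
  have h := Sad.key_ineq (ρ := unif K) (unif_ac13 K) (unif_ae_norm_le13 hK hKM) hP hP v w
  have h' : ∑ i, (⟪mom K P v i, P i⟫ - mass K P v i * w i) ≤
      ∑ i, (⟪mom K P w i, P i⟫ - mass K P w i * w i) := h
  rw [Finset.sum_sub_distrib, Finset.sum_sub_distrib] at h'
  have e : ∑ i, (mass K P v i - mass K P w i) * w i =
      ∑ i, mass K P v i * w i - ∑ i, mass K P w i * w i := by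
    rw [← Finset.sum_sub_distrib]
    exact Finset.sum_congr rfl fun i _ => by ring
  rw [val, val, e]
  linarith

end Vale.Agent.Lib.P074u
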