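import Vale.Agent.Lib.P074u.SK
import Vale.Agent.Lib.P074u.Val
import Vale.Agent.Lib.P074u.Duality

open MeasureTheory
open scoped NNReal RealInnerProductSpace

namespace Vale.Agent.Lib.P074u

open Vale.Agent.Lib.P074q (E)
open Vale.Agent.Lib.P074b (unif)

variable {d : ℕ} {ι : Type} [Fintype ι]

/-- Abstract telescoping. -/
theorem telescope (n : ℕ) (hn : 0 < n) (v0 vF a0 aF : ℕ → ℝ) (S A : ℝ)
    (h1 : ∀ k < n, vF (k + 1) - vF k ≤ aF (k + 1) / n)
    (h2 : ∀ k < n, a0 k / n ≤ v0 (k + 1) - v0 k)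
    (h3 : ∀ k ≤ n, aF k - a0 k ≤ S) (h4 : ∀ k ≤ n, |a0 k| ≤ A) :
    (vF n - vF 0) - (v0 n - v0 0) ≤ S + 2 * A / n := by
  have hn0 : (0 : ℝ) < n := by exact_mod_cast hn
  have sumF : vF n - vF 0 ≤ ∑ k ∈ Finset.range n, aF (k + 1) / n := by
    rw [← Finset.sum_range_sub vF n]
    exact Finset.sum_le_sum fun k hk => h1 k (Finset.mem_range.mp hk)
  have sum0 : ∑ k ∈ Finset.range n, a0 k / n ≤ v0 n - v0 0 := by
    rw [← Finset.sum_range_sub v0 n]
    exact Finset.sum_le_sum fun k hk => h2 k (Finset.mem_range.mp hk)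
  have tele : ∑ k ∈ Finset.range n, aF (k + 1) / n - ∑ k ∈ Finset.range n, a0 k / n =
      (∑ k ∈ Finset.range n, (aF (k + 1) - a0 (k + 1))) / n + (a0 n - a0 0) / n := by
    rw [← Finset.sum_range_sub a0 n, ← Finset.sum_sub_distrib, ← add_div,
      ← Finset.sum_add_distrib, Finset.sum_div]
    refine Finset.sum_congr rfl fun k _ => ?_
    ring
  have hs1 : (∑ k ∈ Finset.range n, (aF (k + 1) - a0 (k + 1))) / n ≤ S := by
    rw [div_le_iff₀ hn0]
    calc ∑ k ∈ Finset.range n, (aF (k + 1) - a0 (k + 1)) ≤ ∑ _k ∈ Finset.range n, S :=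
          Finset.sum_le_sum fun k hk => h3 (k + 1) (Finset.mem_range.mp hk)
      _ = S * n := by
          rw [Finset.sum_const, Finset.card_range, nsmul_eq_mul]
          ring
  have hs2 : (a0 n - a0 0) / n ≤ 2 * A / n := by
    apply div_le_div_of_nonneg_right _ hn0.le
    have g1 := (abs_le.mp (h4 n le_rfl)).2
    have g3 := (abs_le.mp (h4 0 (Nat.zero_le n))).1
    linarith
  linarith

/-- One time: pairing of the moment differences with the displacement. -/
theorem pairing_le [Nonempty ι] {K : Set (E d)} (hK : IsCompact K) (hKc : Convex ℝ K)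
    (hKi : (interior K).Nonempty) {M : ℝ} (hM : 0 < M) (hKM : ∀ x ∈ K, ‖x‖ ≤ M)
    {P : ι → E d} (hP : Function.Injective P) (w0 w1 : ι → ℝ) (m F : ι → ℝ)
    (hm : ∀ i, 0 < m i) (hF : ∀ i, |F i| ≤ 1 / 2) (h0 : ∀ i, mass K P w0 i = m i)
    (h1 : ∀ i, mass K P w1 i = m i * (1 + F i)) (e : ι → E d) :
    ∑ i, ⟪mom K P w1 i - mom K P w0 i, e i⟫ ≤
      27 * M * Real.sqrt (∑ i, m i * F i ^ 2) * Real.sqrt (∑ i, m i * ‖e i‖ ^ 2) := by
  have hsk := SK hK hKc hKi hM hKM hP w0 w1 (fun i => by rw [h0]; exact hm i)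
    (fun i => by
      rw [h0, h1]
      have := (abs_le.mp (hF i)).1
      nlinarith [hm i])
    (fun i => by
      rw [h0, h1]
      have := (abs_le.mp (hF i)).2
      nlinarith [hm i])
  simp only [h0, h1] at hsk
  have e1 : ∑ i, (m i * (1 + F i) - m i) ^ 2 / m i = ∑ i, m i * F i ^ 2 := by
    refine Finset.sum_congr rfl fun i _ => ?_
    have := (hm i).ne'
    field_simp
    ring
  rw [e1] at hsk
  have hsp : ∀ i, 0 < Real.sqrt (m i) := fun i => Real.sqrt_pos.mpr (hm i)
  have hsq : ∀ i, Real.sqrt (m i) ^ 2 = m i := fun i => Real.sq_sqrt (hm i).le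
  have hX0 : 0 ≤ ∑ i, m i * F i ^ 2 :=
    Finset.sum_nonneg fun i _ => mul_nonneg (hm i).le (sq_nonneg _)
  have c1 : ∑ i, ⟪mom K P w1 i - mom K P w0 i, e i⟫ ≤
      ∑ i, (‖mom K P w1 i - mom K P w0 i‖ / Real.sqrt (m i)) * (Real.sqrt (m i) * ‖e i‖) := by
    refine Finset.sum_le_sum fun i _ => ?_
    have h2 := real_inner_le_norm (mom K P w1 i - mom K P w0 i) (e i)
    have h3 : (‖mom K P w1 i - mom K P w0 i‖ / Real.sqrt (m i)) * (Real.sqrt (m i) * ‖e i‖) =
        ‖mom K P w1 i - mom K P w0 i‖ * ‖e i‖ := by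
      have := (hsp i).ne'
      field_simp
    rw [h3]
    exact h2
  have c2 := Real.sum_mul_le_sqrt_mul_sqrt Finset.univ
    (fun i => ‖mom K P w1 i - mom K P w0 i‖ / Real.sqrt (m i))
    (fun i => Real.sqrt (m i) * ‖e i‖)
  have c3 : ∑ i, (‖mom K P w1 i - mom K P w0 i‖ / Real.sqrt (m i)) ^ 2 =
      ∑ i, ‖mom K P w1 i - mom K P w0 i‖ ^ 2 / m i := by
    refine Finset.sum_congr rfl fun i _ => ?_
    rw [div_pow, hsq]
  have c4 : ∑ i, (Real.sqrt (m i) * ‖e i‖) ^ 2 = ∑ i, m i * ‖e i‖ ^ 2 := by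
    refine Finset.sum_congr rfl fun i _ => ?_
    rw [mul_pow, hsq]
  rw [c3, c4] at c2
  have c5 : Real.sqrt (∑ i, ‖mom K P w1 i - mom K P w0 i‖ ^ 2 / m i) ≤
      27 * M * Real.sqrt (∑ i, m i * F i ^ 2) := by
    have h5 : 700 * M ^ 2 * ∑ i, m i * F i ^ 2 ≤ (27 * M) ^ 2 * ∑ i, m i * F i ^ 2 := by
      apply mul_le_mul_of_nonneg_right _ hX0
      nlinarith [sq_nonneg M]
    refine (Real.sqrt_le_sqrt (hsk.trans h5)).trans (le_of_eq ?_)
    rw [Real.sqrt_mul (by positivity), Real.sqrt_sq (by positivity)]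
  exact c1.trans (c2.trans (mul_le_mul_of_nonneg_right c5 (Real.sqrt_nonneg _)))

/-- The dual bound: sites move from `P` to `P'` (one coordinate fixed and injective), masses
`m` at `(P, w)`, masses `m (1 + F)` at `(P', w1)`. -/
theorem dual_bound [Nonempty ι] {K : Set (E d)} (hK : IsCompact K) (hKc : Convex ℝ K)
    (hKi : (interior K).Nonempty) {M : ℝ} (hM : 0 < M) (hKM : ∀ x ∈ K, ‖x‖ ≤ M)
    (j1 : Fin d) (P P' : ι → E d) (hj : ∀ i, P i j1 = P' i j1)
    (hinj : Function.Injective (fun i => P i j1)) (w w1 : ι → ℝ) (m F : ι → ℝ)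
    (hm : ∀ i, 0 < m i) (hw : ∀ i, mass K P w i = m i) (hF : ∀ i, |F i| ≤ 1 / 2)
    (hF0 : ∑ i, m i * F i = 0) (hw1 : ∀ i, mass K P' w1 i = m i * (1 + F i)) :
    ∑ i, m i * F i * (w1 i - w i) ≤
      27 * M * Real.sqrt (∑ i, m i * F i ^ 2) * Real.sqrt (∑ i, m i * ‖P' i - P i‖ ^ 2) := by
  set e : ι → E d := fun i => P' i - P i with he
  set S : ℝ := 27 * M * Real.sqrt (∑ i, m i * F i ^ 2) * Real.sqrt (∑ i, m i * ‖e i‖ ^ 2) with hS
  set Pk : ℝ → ι → E d := fun s i => P i + s • e i with hPk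
  have hPkinj : ∀ s, Function.Injective (Pk s) := by
    intro s i j hij
    apply hinj
    have h1 : (Pk s i) j1 = (Pk s j) j1 := by rw [hij]
    simp only [hPk, he, PiLp.add_apply, PiLp.smul_apply, PiLp.sub_apply, smul_eq_mul, ← hj,
      sub_self, mul_zero, add_zero] at h1
    exact h1
  have hPinj : Function.Injective P := fun i j hij => hinj (by simp only [hij])
  have hsum : ∑ i, m i = 1 := by
    have := sum_mass hK hKi hPinj w
    simpa only [hw] using this
  set mF : ι → ℝ := fun i => m i * (1 + F i) with hmF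
  have hmF0 : ∀ i, 0 ≤ mF i := fun i => by
    have := (abs_le.mp (hF i)).1
    exact mul_nonneg (hm i).le (by linarith)
  have hmFsum : ∑ i, mF i = 1 := by
    simp only [hmF, mul_add, mul_one, Finset.sum_add_distrib, hsum, hF0, add_zero]
  choose aw haw using fun s => exists_weights hK hKi (hPkinj s) m (fun i => (hm i).le) hsum
  choose bw hbw using fun s => exists_weights hK hKi (hPkinj s) mF hmF0 hmFsum
  set A : ℝ := M * ∑ i, m i * ‖e i‖ with hA
  have hA0 : 0 ≤ A := by
    have : 0 ≤ ∑ i, m i * ‖e i‖ :=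
      Finset.sum_nonneg fun i _ => mul_nonneg (hm i).le (norm_nonneg _)
    positivity
  have main : ∀ n : ℕ, 0 < n → ∑ i, m i * F i * (w1 i - w i) ≤ S + 2 * A / n := by
    intro n hn
    have hn0 : (0 : ℝ) < n := by exact_mod_cast hn
    set Q : ℕ → ι → E d := fun k => Pk ((k : ℝ) / n) with hQ
    set a : ℕ → ι → ℝ := fun k => aw ((k : ℝ) / n) with ha
    set b : ℕ → ι → ℝ := fun k => bw ((k : ℝ) / n) with hb
    have hQinj : ∀ k, Function.Injective (Q k) := fun k => hPkinj _
    have hma : ∀ k i, mass K (Q k) (a k) i = m i := fun k i => haw _ i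
    have hmb : ∀ k i, mass K (Q k) (b k) i = mF i := fun k i => hbw _ i
    have hQ0 : Q 0 = P := by
      funext i
      simp [hQ, hPk]
    have hQn : Q n = P' := by
      funext i
      simp only [hQ, hPk, he]
      rw [div_self hn0.ne', one_smul]
      abel
    have hQs : ∀ k i, Q (k + 1) i = Q k i + (1 / n : ℝ) • e i := by
      intro k i
      simp only [hQ, hPk]
      rw [add_assoc, ← add_smul]
      congr 2
      push_cast
      field_simp
    have hstep : ∀ (k : ℕ) (mo : ι → E d), ∑ i, ⟪mo i, Q (k + 1) i⟫ =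
        ∑ i, ⟪mo i, Q k i⟫ + (∑ i, ⟪mo i, e i⟫) / n := by
      intro k mo
      simp only [hQs, inner_add_right, inner_smul_right, Finset.sum_add_distrib, Finset.sum_div]
      congr 1
      refine Finset.sum_congr rfl fun i _ => ?_
      ring
    have T := telescope n hn (fun k => val K (Q k) (a k)) (fun k => val K (Q k) (b k))
      (fun k => ∑ i, ⟪mom K (Q k) (a k) i, e i⟫) (fun k => ∑ i, ⟪mom K (Q k) (b k) i, e i⟫) S A
      (by
        intro k _
        have g := val_sites hK hKi (hQinj (k + 1)) (hQinj k) (b (k + 1)) (b k)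
          (fun i => by rw [hmb, hmb])
        have g2 := hstep k (mom K (Q (k + 1)) (b (k + 1)))
        have g3 : val K (Q (k + 1)) (b (k + 1)) =
            ∑ i, ⟪mom K (Q (k + 1)) (b (k + 1)) i, Q (k + 1) i⟫ := rfl
        linarith)
      (by
        intro k _
        have g := val_sites hK hKi (hQinj k) (hQinj (k + 1)) (a k) (a (k + 1))
          (fun i => by rw [hma, hma])
        have g2 := hstep k (mom K (Q k) (a k))
        have g3 : val K (Q k) (a k) = ∑ i, ⟪mom K (Q k) (a k) i, Q k i⟫ := rfl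
        linarith)
      (by
        intro k _
        have g := pairing_le hK hKc hKi hM hKM (hQinj k) (a k) (b k) m F hm hF (hma k) (hmb k) e
        simp only [inner_sub_left, Finset.sum_sub_distrib] at g
        exact g)
      (by
        intro k _
        refine (Finset.abs_sum_le_sum_abs _ _).trans ?_
        rw [hA, Finset.mul_sum]
        refine Finset.sum_le_sum fun i _ => ?_
        have g1 := abs_real_inner_le_norm (mom K (Q k) (a k) i) (e i)
        have g2 := norm_mom_le hK hKi hKM (Q k) (a k) i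
        rw [hma] at g2
        calc |⟪mom K (Q k) (a k) i, e i⟫| ≤ ‖mom K (Q k) (a k) i‖ * ‖e i‖ := g1
          _ ≤ (M * m i) * ‖e i‖ := mul_le_mul_of_nonneg_right g2 (norm_nonneg _)
          _ = M * (m i * ‖e i‖) := by ring)
    -- end points
    have hw1' : ∀ i, mass K (Q n) w1 i = mF i := fun i => by rw [hQn]; exact hw1 i
    have hw' : ∀ i, mass K (Q 0) w i = m i := fun i => by rw [hQ0]; exact hw i
    have g1 := val_masses hK hKi (hQinj n) w1 (a n)
    have g2 := val_sites hK hKi (hQinj n) (hQinj n) w1 (b n) (fun i => by rw [hw1', hmb])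
    have g2' : val K (Q n) w1 = ∑ i, ⟪mom K (Q n) w1 i, Q n i⟫ := rfl
    have g3 := val_masses hK hKi (hQinj 0) w (b 0)
    have g4 := val_sites hK hKi (hQinj 0) (hQinj 0) w (a 0) (fun i => by rw [hw', hma])
    have g4' : val K (Q 0) w = ∑ i, ⟪mom K (Q 0) w i, Q 0 i⟫ := rfl
    simp only [hma, hmb, hw1', hw'] at g1 g3
    have e1 : ∑ i, (m i - mF i) * w1 i = - ∑ i, m i * F i * w1 i := by
      rw [← Finset.sum_neg_distrib]
      refine Finset.sum_congr rfl fun i _ => ?_
      simp only [hmF]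
      ring
    have e2 : ∑ i, (mF i - m i) * w i = ∑ i, m i * F i * w i := by
      refine Finset.sum_congr rfl fun i _ => ?_
      simp only [hmF]
      ring
    have e3 : ∑ i, m i * F i * (w1 i - w i) = ∑ i, m i * F i * w1 i - ∑ i, m i * F i * w i := by
      simp only [mul_sub, Finset.sum_sub_distrib]
    rw [e1] at g1
    rw [e2] at g3
    rw [e3]
    linarith
  exact le_of_forall_nat_div (by positivity) main

end Vale.Agent.Lib.P074u
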