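import Vale.Agent.Lib.P074u.SK
import Vale.Agent.Lib.P074u.Val

open MeasureTheory
open scoped NNReal RealInnerProductSpace

namespace Vale.Agent.Lib.P074u.M13

open Vale.Agent.Lib.P074q (E)
open Vale.Agent.Lib.P074b (unif)

variable {d : ℕ} {ι : Type} [Fintype ι]

/-- Abstract telescoping. -/
theorem telescope (n : ℕ) (hn : 0 < n) (v0 vF a0 aF : ℕ → ℝ) (S A : ℝ)
    (h1 : ∀ k < n, vF (k + 1) - vF k ≤ aF (k + 1) / n)
    (h2 : ∀ k < n, a0 k / n ≤ v0 (k + 1) - v0 k)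
    (h3 : ∀ k ≤ n, aF k - a0 k ≤ S) (h4 : ∀ k ≤ n, |a0 k| ≤ A) :
    (vF n - vF 0) - (v0 n - v0 0) ≤ S + 2 * A / n := by
  have hn' : (0 : ℝ) < n := by exact_mod_cast hn
  have e1 : vF n - vF 0 = ∑ k ∈ Finset.range n, (vF (k + 1) - vF k) :=
    (Finset.sum_range_sub vF n).symm
  have e2 : v0 n - v0 0 = ∑ k ∈ Finset.range n, (v0 (k + 1) - v0 k) :=
    (Finset.sum_range_sub v0 n).symm
  have e3 : a0 n - a0 0 = ∑ k ∈ Finset.range n, (a0 (k + 1) - a0 k) :=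
    (Finset.sum_range_sub a0 n).symm
  have key : ∑ k ∈ Finset.range n, ((vF (k + 1) - vF k) - (v0 (k + 1) - v0 k)) ≤
      ∑ k ∈ Finset.range n, (S / n + (a0 (k + 1) - a0 k) / n) := by
    refine Finset.sum_le_sum fun k hk => ?_
    have hk' : k < n := Finset.mem_range.mp hk
    have a := h1 k hk'
    have b := h2 k hk'
    have c := h3 (k + 1) hk'
    have c' : (aF (k + 1) - a0 (k + 1)) / n ≤ S / n := div_le_div_of_nonneg_right c hn'.le
    have : aF (k + 1) / n - a0 k / n =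
        (aF (k + 1) - a0 (k + 1)) / n + (a0 (k + 1) - a0 k) / n := by ring
    linarith
  have e5 : ∑ k ∈ Finset.range n, (S / n + (a0 (k + 1) - a0 k) / n) =
      (n : ℝ) * (S / n) + (a0 n - a0 0) / n := by
    rw [Finset.sum_add_distrib, Finset.sum_const, Finset.card_range, nsmul_eq_mul, e3,
      Finset.sum_div]
  rw [Finset.sum_sub_distrib, ← e1, ← e2, e5] at key
  have b1 := abs_le.mp (h4 n le_rfl)
  have b0 := abs_le.mp (h4 0 (Nat.zero_le _))
  have : (a0 n - a0 0) / n ≤ 2 * A / n := div_le_div_of_nonneg_right (by linarith) hn'.le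
  have e4 : (n : ℝ) * (S / n) = S := by field_simp
  linarith

/-- One time: pairing of the moment differences with the displacement. -/
theorem pairing_le [Nonempty ι] {K : Set (E d)} (hK : IsCompact K) (hKc : Convex ℝ K)
    (hKi : (interior K).Nonempty) {M : ℝ} (hM : 0 < M) (hKM : ∀ x ∈ K, ‖x‖ ≤ M)
    {P : ι → E d} (hP : Function.Injective P) (w0 w1 : ι → ℝ) (m F : ι → ℝ)
    (hm : ∀ i, 0 < m i) (hF : ∀ i, |F i| ≤ 1 / 2) (h0 : ∀ i, mass K P w0 i = m i)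
    (h1 : ∀ i, mass K P w1 i = m i * (1 + F i)) (e : ι → E d) :
    ∑ i, ⟪mom K P w1 i - mom K P w0 i, e i⟫ ≤
      27 * M * Real.sqrt (∑ i, m i * F i ^ 2) * Real.sqrt (∑ i, m i * ‖e i‖ ^ 2) := by
  have hSK := SK hK hKc hKi hM hKM hP w0 w1 (fun i => by rw [h0]; exact hm i)
    (fun i => by
      rw [h0, h1]; have := abs_le.mp (hF i); nlinarith [hm i])
    (fun i => by
      rw [h0, h1]; have := abs_le.mp (hF i); nlinarith [hm i])
  have e1 : ∑ i, (mass K P w1 i - mass K P w0 i) ^ 2 / mass K P w0 i = ∑ i, m i * F i ^ 2 := by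
    refine Finset.sum_congr rfl fun i _ => ?_
    rw [h0, h1]
    have := (hm i).ne'
    field_simp
    ring
  rw [e1] at hSK
  set X : ℝ := ∑ i, m i * F i ^ 2 with hX
  have hX0 : 0 ≤ X := Finset.sum_nonneg fun i _ => mul_nonneg (hm i).le (sq_nonneg _)
  set D : ι → E d := fun i => mom K P w1 i - mom K P w0 i with hD
  have c1 : ∑ i, ⟪D i, e i⟫ ≤ ∑ i, (‖D i‖ / Real.sqrt (m i)) * (Real.sqrt (m i) * ‖e i‖) := by
    refine Finset.sum_le_sum fun i _ => ?_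
    have hs : 0 < Real.sqrt (m i) := Real.sqrt_pos.mpr (hm i)
    have : (‖D i‖ / Real.sqrt (m i)) * (Real.sqrt (m i) * ‖e i‖) = ‖D i‖ * ‖e i‖ := by
      field_simp
    rw [this]
    exact real_inner_le_norm _ _
  have c2 := Real.sum_mul_le_sqrt_mul_sqrt Finset.univ
    (fun i => ‖D i‖ / Real.sqrt (m i)) (fun i => Real.sqrt (m i) * ‖e i‖)
  have c3 : ∑ i, (‖D i‖ / Real.sqrt (m i)) ^ 2 ≤ 700 * M ^ 2 * X := by
    refine le_trans (le_of_eq ?_) hSK
    refine Finset.sum_congr rfl fun i _ => ?_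
    rw [div_pow, Real.sq_sqrt (hm i).le, h0]
  have c4 : ∑ i, (Real.sqrt (m i) * ‖e i‖) ^ 2 = ∑ i, m i * ‖e i‖ ^ 2 := by
    refine Finset.sum_congr rfl fun i _ => ?_
    rw [mul_pow, Real.sq_sqrt (hm i).le]
  rw [c4] at c2
  have c5 : Real.sqrt (∑ i, (‖D i‖ / Real.sqrt (m i)) ^ 2) ≤ 27 * M * Real.sqrt X := by
    have : 700 * M ^ 2 * X ≤ (27 * M * Real.sqrt X) ^ 2 := by
      rw [mul_pow, mul_pow, Real.sq_sqrt hX0]
      nlinarith [mul_nonneg (sq_nonneg M) hX0]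
    exact Real.sqrt_le_iff.mpr ⟨by positivity, c3.trans this⟩
  calc ∑ i, ⟪D i, e i⟫ ≤ _ := c1
    _ ≤ _ := c2
    _ ≤ _ := mul_le_mul_of_nonneg_right c5 (Real.sqrt_nonneg _)

end Vale.Agent.Lib.P074u.M13
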