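import Mathlib

open MeasureTheory Set
open scoped ENNReal Pointwise

namespace Vale.Agent.Lib.P074u

/-- One dimensional Brunn-Minkowski inequality for compact sets. -/
theorem bm_compact (A B : Set ℝ) (hA : IsCompact A) (hB : IsCompact B)
    (hAn : A.Nonempty) (hBn : B.Nonempty) :
    volume A + volume B ≤ volume (A + B) := by
  obtain ⟨a, haA, ha⟩ := hA.exists_isGreatest hAn
  obtain ⟨b, hbB, hb⟩ := hB.exists_isLeast hBn
  have h1 : (fun x => x + b) '' A ∪ (fun y => a + y) '' B ⊆ A + B := by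
    rintro z (⟨x, hx, rfl⟩ | ⟨y, hy, rfl⟩)
    · exact Set.add_mem_add hx hbB
    · exact Set.add_mem_add haA hy
  have h2 : volume ((fun x => x + b) '' A) = volume A := by
    rw [Set.image_add_right, measure_preimage_add_right]
  have h3 : volume ((fun y => a + y) '' B) = volume B := by
    rw [Set.image_add_left, measure_preimage_add]
  have h4 : AEDisjoint volume ((fun x => x + b) '' A) ((fun y => a + y) '' B) := by
    have : (fun x => x + b) '' A ∩ (fun y => a + y) '' B ⊆ {a + b} := by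
      rintro z ⟨⟨x, hx, rfl⟩, ⟨y, hy, hxy⟩⟩
      have hxa : x ≤ a := ha hx
      have hby : b ≤ y := hb hy
      simp only [mem_singleton_iff]
      simp only at hxy
      linarith
    exact measure_mono_null this (by simp)
  have h5 : NullMeasurableSet ((fun y => a + y) '' B) volume := by
    have : IsCompact ((fun y => a + y) '' B) := hB.image (by fun_prop)
    exact this.measurableSet.nullMeasurableSet
  calc volume A + volume B
      = volume ((fun x => x + b) '' A) + volume ((fun y => a + y) '' B) := by rw [h2, h3]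
    _ = volume ((fun x => x + b) '' A ∪ (fun y => a + y) '' B) := (measure_union₀ h5 h4).symm
    _ ≤ volume (A + B) := measure_mono h1

/-- One dimensional Brunn-Minkowski inequality for measurable sets (outer measure of the sum). -/
theorem bm_one (A B : Set ℝ) (hA : MeasurableSet A) (hB : MeasurableSet B)
    (hAn : A.Nonempty) (hBn : B.Nonempty) :
    volume A + volume B ≤ volume (A + B) := by
  obtain ⟨a, haA⟩ := hAn
  obtain ⟨b, hbB⟩ := hBn
  by_cases hA0 : volume A = 0
  · rw [hA0, zero_add]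
    have h3 : volume ((fun y => a + y) '' B) = volume B := by
      rw [Set.image_add_left, measure_preimage_add]
    rw [← h3]
    apply measure_mono
    rintro z ⟨y, hy, rfl⟩
    exact Set.add_mem_add haA hy
  by_cases hB0 : volume B = 0
  · rw [hB0, add_zero]
    have h2 : volume ((fun x => x + b) '' A) = volume A := by
      rw [Set.image_add_right, measure_preimage_add_right]
    rw [← h2]
    apply measure_mono
    rintro z ⟨y, hy, rfl⟩
    exact Set.add_mem_add hy hbB
  by_contra hcon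
  rw [not_le] at hcon
  obtain ⟨u, hu, v, hv, huv⟩ := ENNReal.exists_lt_add_of_lt_add hcon hA0 hB0
  obtain ⟨K, hKA, hK, hKu⟩ := MeasurableSet.exists_lt_isCompact hA hu
  obtain ⟨L, hLB, hL, hLv⟩ := MeasurableSet.exists_lt_isCompact hB hv
  have hKn : K.Nonempty := by
    rcases K.eq_empty_or_nonempty with h | h
    · rw [h] at hKu; simp at hKu
    · exact h
  have hLn : L.Nonempty := by
    rcases L.eq_empty_or_nonempty with h | h
    · rw [h] at hLv; simp at hLv
    · exact h
  have := bm_compact K L hK hL hKn hLn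
  have h6 : volume (K + L) ≤ volume (A + B) := measure_mono (Set.add_subset_add hKA hLB)
  have h7 : u + v < volume K + volume L := ENNReal.add_lt_add hKu hLv
  exact absurd (huv.trans (h7.trans_le (this.trans h6))) (lt_irrefl _)

/-- Core of the one dimensional Prekopa-Leindler inequality: normalised real functions. -/
theorem pl_core (f g h : ℝ → ℝ) (hf : Measurable f) (hg : Measurable g) (hh : Measurable h)
    (f0 : ∀ x, 0 ≤ f x) (g0 : ∀ x, 0 ≤ g x) (h0 : ∀ x, 0 ≤ h x)
    (f1 : ∀ x, f x ≤ 1) (g1 : ∀ x, g x ≤ 1)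
    (fs : ∀ t < 1, ∃ x, t < f x) (gs : ∀ t < 1, ∃ x, t < g x)
    (hfg : ∀ x y, f x * g y ≤ h ((x + y) / 2) ^ 2) :
    (∫⁻ x, ENNReal.ofReal (f x)) + (∫⁻ x, ENNReal.ofReal (g x))
      ≤ 2 * ∫⁻ x, ENNReal.ofReal (h x) := by
  rw [lintegral_eq_lintegral_meas_lt volume (ae_of_all _ f0) hf.aemeasurable,
    lintegral_eq_lintegral_meas_lt volume (ae_of_all _ g0) hg.aemeasurable,
    lintegral_eq_lintegral_meas_lt volume (ae_of_all _ h0) hh.aemeasurable]
  have key : ∀ (k : ℝ → ℝ), (∀ x, k x ≤ 1) →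
      ∫⁻ t in Ioi (0:ℝ), volume {a | t < k a} = ∫⁻ t in Ioo (0:ℝ) 1, volume {a | t < k a} := by
    intro k k1
    rw [← lintegral_indicator measurableSet_Ioi, ← lintegral_indicator measurableSet_Ioo]
    congr 1
    funext t
    by_cases ht : t < 1
    · by_cases ht0 : 0 < t
      · rw [indicator_of_mem (show t ∈ Ioi (0:ℝ) from ht0),
          indicator_of_mem (show t ∈ Ioo (0:ℝ) 1 from ⟨ht0, ht⟩)]
      · rw [indicator_of_notMem (show t ∉ Ioi (0:ℝ) from ht0),
          indicator_of_notMem (show t ∉ Ioo (0:ℝ) 1 from fun hh => ht0 hh.1)]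
    · have hempty : {a | t < k a} = ∅ := by
        ext a
        simp only [mem_ofPred_eq, mem_empty_iff_false, iff_false, not_lt]
        exact (k1 a).trans (not_lt.mp ht)
      rw [indicator_of_notMem (show t ∉ Ioo (0:ℝ) 1 from fun hh => ht hh.2)]
      by_cases ht0 : 0 < t
      · rw [indicator_of_mem (show t ∈ Ioi (0:ℝ) from ht0), hempty, measure_empty]
      · rw [indicator_of_notMem (show t ∉ Ioi (0:ℝ) from ht0)]
  rw [key f f1, key g g1]
  have mf : Measurable (fun t : ℝ => volume {a | t < f a}) := by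
    apply Antitone.measurable
    intro s t hst
    apply measure_mono
    intro a ha
    exact lt_of_le_of_lt hst ha
  rw [← lintegral_add_left mf, ← lintegral_const_mul' 2 _ (by simp)]
  calc ∫⁻ t in Ioo (0:ℝ) 1, (volume {a | t < f a} + volume {a | t < g a})
      ≤ ∫⁻ t in Ioo (0:ℝ) 1, 2 * volume {a | t < h a} := by
        apply setLIntegral_mono' measurableSet_Ioo
        intro t ht
        have hA : MeasurableSet {a | t < f a} := measurableSet_lt measurable_const hf
        have hB : MeasurableSet {a | t < g a} := measurableSet_lt measurable_const hg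
        have h1 := bm_one _ _ hA hB (fs t ht.2) (gs t ht.2)
        have h2 : {a | t < f a} + {a | t < g a} ⊆ (fun z => (2:ℝ)⁻¹ * z) ⁻¹' {a | t < h a} := by
          rintro z ⟨x, hx, y, hy, rfl⟩
          simp only [mem_ofPred_eq, mem_preimage] at hx hy ⊢
          have h3 := hfg x y
          have h4 : t * t < f x * g y := mul_lt_mul'' hx hy ht.1.le ht.1.le
          have h5 : (2:ℝ)⁻¹ * (x + y) = (x + y) / 2 := by ring
          rw [h5]
          by_contra hcon
          rw [not_lt] at hcon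
          have h6 : h ((x + y) / 2) ^ 2 ≤ t * t := by
            have := h0 ((x + y) / 2)
            nlinarith
          linarith
        have h3 : volume ((fun z => (2:ℝ)⁻¹ * z) ⁻¹' {a | t < h a}) = 2 * volume {a | t < h a} := by
          rw [Real.volume_preimage_mul_left (by norm_num)]
          simp
        calc _ ≤ _ := h1
          _ ≤ _ := measure_mono h2
          _ = _ := h3
    _ ≤ ∫⁻ t in Ioi (0:ℝ), 2 * volume {a | t < h a} :=
        lintegral_mono_set Ioo_subset_Ioi_self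

theorem amgm_ennreal (x y z : ℝ≥0∞) (h : x + y ≤ 2 * z) : x * y ≤ z ^ 2 := by
  by_cases hz : z = ⊤
  · simp [hz]
  have h2z : 2 * z ≠ ⊤ := ENNReal.mul_ne_top (by simp) hz
  have hx : x ≠ ⊤ := ne_top_of_le_ne_top h2z (le_trans le_self_add h)
  have hy : y ≠ ⊤ := ne_top_of_le_ne_top h2z (le_trans le_add_self h)
  lift x to NNReal using hx
  lift y to NNReal using hy
  lift z to NNReal using hz
  have h' : (x : ℝ) + y ≤ 2 * z := by exact_mod_cast h
  have : (x : ℝ) * y ≤ (z : ℝ) ^ 2 := by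
    nlinarith [sq_nonneg ((x : ℝ) - y), x.coe_nonneg, y.coe_nonneg, z.coe_nonneg]
  exact_mod_cast this

/-- One dimensional Prekopa-Leindler for functions with finite nonzero suprema. -/
theorem pl_sup (F G H : ℝ → ℝ≥0∞) (hF : Measurable F) (hG : Measurable G) (hH : Measurable H)
    (h : ∀ x y, F x * G y ≤ H ((x + y) / 2) ^ 2)
    (a b : ℝ≥0∞) (ha : a = ⨆ x, F x) (hb : b = ⨆ x, G x)
    (ha0 : a ≠ 0) (hb0 : b ≠ 0) (hat : a ≠ ⊤) (hbt : b ≠ ⊤) :
    (∫⁻ x, F x) * (∫⁻ x, G x) ≤ (∫⁻ x, H x) ^ 2 := by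
  have hFa : ∀ x, F x ≤ a := fun x => ha ▸ le_iSup F x
  have hGb : ∀ x, G x ≤ b := fun x => hb ▸ le_iSup G x
  have hFt : ∀ x, F x ≠ ⊤ := fun x => ne_top_of_le_ne_top hat (hFa x)
  have hGt : ∀ x, G x ≠ ⊤ := fun x => ne_top_of_le_ne_top hbt (hGb x)
  have ha' : 0 < a.toReal := ENNReal.toReal_pos ha0 hat
  have hb' : 0 < b.toReal := ENNReal.toReal_pos hb0 hbt
  set c : ℝ := Real.sqrt (a.toReal * b.toReal) with hc
  have hc0 : 0 < c := Real.sqrt_pos.mpr (mul_pos ha' hb')
  have hc2 : c ^ 2 = a.toReal * b.toReal := Real.sq_sqrt (mul_pos ha' hb').le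
  have hcab : (ENNReal.ofReal c) ^ 2 = a * b := by
    rw [← ENNReal.ofReal_pow hc0.le, hc2, ENNReal.ofReal_mul ha'.le, ENNReal.ofReal_toReal hat,
      ENNReal.ofReal_toReal hbt]
  have hct : ENNReal.ofReal c ≠ ⊤ := ENNReal.ofReal_ne_top
  have hc0' : ENNReal.ofReal c ≠ 0 := by
    simpa using hc0
  have hmt : ∀ z, min (H z) (ENNReal.ofReal c) ≠ ⊤ := fun z =>
    ne_top_of_le_ne_top hct (min_le_right _ _)
  have sup_lt : ∀ (K : ℝ → ℝ≥0∞) (k : ℝ≥0∞), k = ⨆ x, K x → k ≠ ⊤ → 0 < k.toReal →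
      (∀ x, K x ≠ ⊤) → ∀ t < (1:ℝ), ∃ x, t < (K x).toReal / k.toReal := by
    intro K k hk hkt hk0 hKt t ht
    by_cases ht0 : t < 0
    · exact ⟨0, lt_of_lt_of_le ht0 (by positivity)⟩
    · rw [not_lt] at ht0
      have h1 : ENNReal.ofReal (t * k.toReal) < ⨆ x, K x := by
        rw [← hk, ENNReal.ofReal_lt_iff_lt_toReal (by positivity) hkt]
        nlinarith
      obtain ⟨x, hx⟩ := lt_iSup_iff.mp h1
      refine ⟨x, ?_⟩
      rw [ENNReal.ofReal_lt_iff_lt_toReal (by positivity) (hKt x)] at hx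
      rwa [lt_div_iff₀ hk0]
  have core := pl_core (fun x => (F x).toReal / a.toReal) (fun x => (G x).toReal / b.toReal)
    (fun z => (min (H z) (ENNReal.ofReal c)).toReal / c)
    (hF.ennreal_toReal.div_const _) (hG.ennreal_toReal.div_const _)
    ((hH.min measurable_const).ennreal_toReal.div_const _)
    (fun x => by positivity) (fun x => by positivity) (fun x => by positivity)
    (fun x => by
      rw [div_le_one ha']
      exact ENNReal.toReal_mono hat (hFa x))
    (fun x => by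
      rw [div_le_one hb']
      exact ENNReal.toReal_mono hbt (hGb x))
    (sup_lt F a ha hat ha' hFt) (sup_lt G b hb hbt hb' hGt)
    (fun x y => by
      have h1 : F x * G y ≤ (min (H ((x + y) / 2)) (ENNReal.ofReal c)) ^ 2 := by
        rcases min_choice (H ((x + y) / 2)) (ENNReal.ofReal c) with hm | hm
        · rw [hm]; exact h x y
        · rw [hm, hcab]; exact mul_le_mul' (hFa x) (hGb y)
      have h2 := ENNReal.toReal_mono (ENNReal.pow_ne_top (hmt _)) h1
      rw [ENNReal.toReal_mul, ENNReal.toReal_pow] at h2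
      rw [div_mul_div_comm, div_pow, hc2]
      exact div_le_div_of_nonneg_right h2 (mul_pos ha' hb').le)
  have e0 : ∀ (K : ℝ → ℝ≥0∞) (k : ℝ≥0∞), Measurable K → k ≠ ⊤ → 0 < k.toReal →
      (∀ x, K x ≠ ⊤) →
      ∫⁻ x, ENNReal.ofReal ((K x).toReal / k.toReal) = (∫⁻ x, K x) * k⁻¹ := by
    intro K k hK hkt hk0 hKt
    rw [← lintegral_mul_const _ hK]
    congr 1
    funext x
    rw [ENNReal.ofReal_div_of_pos hk0, ENNReal.ofReal_toReal (hKt x), ENNReal.ofReal_toReal hkt,
      div_eq_mul_inv]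
  have e3 : ∫⁻ z, ENNReal.ofReal ((min (H z) (ENNReal.ofReal c)).toReal / c)
      ≤ (∫⁻ z, H z) * (ENNReal.ofReal c)⁻¹ := by
    rw [← lintegral_mul_const _ hH]
    apply lintegral_mono
    intro z
    simp only
    rw [ENNReal.ofReal_div_of_pos hc0, ENNReal.ofReal_toReal (hmt z), div_eq_mul_inv]
    exact mul_le_mul' (min_le_left _ _) le_rfl
  rw [e0 F a hF hat ha' hFt, e0 G b hG hbt hb' hGt] at core
  have h3 := amgm_ennreal _ _ _ (core.trans (mul_le_mul' le_rfl e3))
  have h4 : (∫⁻ x, F x) * (∫⁻ x, G x)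
      = ((∫⁻ x, F x) * a⁻¹ * ((∫⁻ x, G x) * b⁻¹)) * (a * b) := by
    have e5 : a⁻¹ * a = 1 := ENNReal.inv_mul_cancel ha0 hat
    have e6 : b⁻¹ * b = 1 := ENNReal.inv_mul_cancel hb0 hbt
    calc (∫⁻ x, F x) * (∫⁻ x, G x) = (∫⁻ x, F x) * (a⁻¹ * a) * ((∫⁻ x, G x) * (b⁻¹ * b)) := by
          rw [e5, e6, mul_one, mul_one]
      _ = _ := by ring
  have h5 : (∫⁻ x, H x) ^ 2 = ((∫⁻ z, H z) * (ENNReal.ofReal c)⁻¹) ^ 2 * (a * b) := by
    rw [← hcab, ← mul_pow, mul_assoc, ENNReal.inv_mul_cancel hc0' hct, mul_one]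
  rw [h4, h5]
  exact mul_le_mul' h3 le_rfl

/-- One dimensional Prekopa-Leindler for bounded functions. -/
theorem pl_bdd (F G H : ℝ → ℝ≥0∞) (hF : Measurable F) (hG : Measurable G) (hH : Measurable H)
    (h : ∀ x y, F x * G y ≤ H ((x + y) / 2) ^ 2)
    (M N : ℝ≥0∞) (hM : M ≠ ⊤) (hN : N ≠ ⊤) (hFM : ∀ x, F x ≤ M) (hGN : ∀ x, G x ≤ N) :
    (∫⁻ x, F x) * (∫⁻ x, G x) ≤ (∫⁻ x, H x) ^ 2 := by
  by_cases ha0 : (⨆ x, F x) = 0
  · have : ∀ x, F x = 0 := fun x => le_antisymm (ha0 ▸ le_iSup F x) bot_le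
    simp [this]
  by_cases hb0 : (⨆ x, G x) = 0
  · have : ∀ x, G x = 0 := fun x => le_antisymm (hb0 ▸ le_iSup G x) bot_le
    simp [this]
  exact pl_sup F G H hF hG hH h _ _ rfl rfl ha0 hb0
    (ne_top_of_le_ne_top hM (iSup_le hFM)) (ne_top_of_le_ne_top hN (iSup_le hGN))

/-- The one dimensional Prekopa-Leindler inequality at the midpoint. -/
theorem pl_one (F G H : ℝ → ℝ≥0∞) (hF : Measurable F) (hG : Measurable G) (hH : Measurable H)
    (h : ∀ x y, F x * G y ≤ H ((x + y) / 2) ^ 2) :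
    (∫⁻ x, F x) * (∫⁻ x, G x) ≤ (∫⁻ x, H x) ^ 2 := by
  have trunc : ∀ (K : ℝ → ℝ≥0∞), Measurable K →
      ∫⁻ x, K x = ⨆ n : ℕ, ∫⁻ x, min (K x) (n : ℝ≥0∞) := by
    intro K hK
    rw [← lintegral_iSup (fun n => hK.min measurable_const)]
    · congr 1
      funext x
      have : (⨆ n : ℕ, K x ⊓ (n : ℝ≥0∞)) = K x ⊓ ⨆ n : ℕ, (n : ℝ≥0∞) := (inf_iSup_eq _ _).symm
      rw [ENNReal.iSup_natCast] at this
      simpa using this.symm
    · intro m n hmn x
      exact min_le_min le_rfl (by exact_mod_cast hmn)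
  rw [trunc F hF, trunc G hG, ENNReal.iSup_mul]
  apply iSup_le
  intro m
  rw [ENNReal.mul_iSup]
  apply iSup_le
  intro n
  apply pl_bdd _ _ H (hF.min measurable_const) (hG.min measurable_const) hH _ m n (by simp)
    (by simp) (fun x => min_le_right _ _) (fun x => min_le_right _ _)
  intro x y
  exact (mul_le_mul' (min_le_left _ _) (min_le_left _ _)).trans (h x y)

end Vale.Agent.Lib.P074u
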