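import Vale.Agent.Lib.P074u.PLDefs

/-!
Tensorisation of the midpoint Prékopa–Leindler inequality, and the passage from the real line to
Euclidean spaces of arbitrary dimension.
-/

open MeasureTheory
open scoped ENNReal

namespace Vale.Agent.Lib.P074u

theorem PLHalf.prod {X Y : Type*} [AddCommGroup X] [Module ℝ X] [MeasurableSpace X]
    [AddCommGroup Y] [Module ℝ Y] [MeasurableSpace Y] {μ : Measure X} {ν : Measure Y}
    [SFinite μ] [SFinite ν] (hX : PLHalf X μ) (hY : PLHalf Y ν) :
    PLHalf (X × Y) (μ.prod ν) := by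
  intro F G H hF hG hH h
  rw [lintegral_prod _ hF.aemeasurable, lintegral_prod _ hG.aemeasurable,
    lintegral_prod _ hH.aemeasurable]
  apply hX (fun x => ∫⁻ y, F (x, y) ∂ν) (fun x => ∫⁻ y, G (x, y) ∂ν)
    (fun x => ∫⁻ y, H (x, y) ∂ν) hF.lintegral_prod_right' hG.lintegral_prod_right'
    hH.lintegral_prod_right'
  intro x x'
  apply hY (fun y => F (x, y)) (fun y => G (x', y)) (fun y => H ((1 / 2 : ℝ) • (x + x'), y))
    (hF.comp measurable_prodMk_left) (hG.comp measurable_prodMk_left)
    (hH.comp measurable_prodMk_left)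
  intro y y'
  exact h (x, y) (x', y')

theorem PLHalf.of_measurePreserving {X Y : Type*} [AddCommGroup X] [Module ℝ X]
    [MeasurableSpace X] [AddCommGroup Y] [Module ℝ Y] [MeasurableSpace Y] {μ : Measure X}
    {ν : Measure Y} (e : X → Y) (he : MeasurePreserving e μ ν)
    (hmid : ∀ x y, e ((1 / 2 : ℝ) • (x + y)) = (1 / 2 : ℝ) • (e x + e y)) (hX : PLHalf X μ) :
    PLHalf Y ν := by
  intro F G H hF hG hH h
  rw [← he.lintegral_comp hF, ← he.lintegral_comp hG, ← he.lintegral_comp hH]
  apply hX _ _ _ (hF.comp he.measurable) (hG.comp he.measurable) (hH.comp he.measurable)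
  intro x y
  have := h (e x) (e y)
  rwa [← hmid] at this

theorem plHalf_pi_zero : PLHalf (Fin 0 → ℝ) volume := by
  intro F G H _ _ _ h
  rw [lintegral_unique, lintegral_unique, lintegral_unique]
  have hv : (volume : Measure (Fin 0 → ℝ)) Set.univ = 1 := by
    rw [volume_pi, Measure.pi_of_empty (fun _ : Fin 0 => (volume : Measure ℝ)) 0]
    simp
  rw [hv, mul_one, mul_one, mul_one]
  have h0 := h default default
  have e : (1 / 2 : ℝ) • ((default : Fin 0 → ℝ) + default) = default := Subsingleton.elim _ _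
  rw [e] at h0
  convert h0 using 2 <;> congr 1 <;> exact Subsingleton.elim _ _

theorem plHalf_pi (h1 : PLHalf ℝ volume) (n : ℕ) : PLHalf (Fin n → ℝ) volume := by
  induction n with
  | zero => exact plHalf_pi_zero
  | succ n ih =>
    have hp : PLHalf (ℝ × (Fin n → ℝ)) (volume.prod volume) := h1.prod ih
    have he := (volume_preserving_piFinSuccAbove (fun _ : Fin (n + 1) => ℝ) 0).symm
    refine PLHalf.of_measurePreserving _ he ?_ hp
    intro x y
    ext i
    refine Fin.cases ?_ (fun j => ?_) i <;> simp [MeasurableEquiv.piFinSuccAbove] <;> ring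

/-- The midpoint Prékopa–Leindler inequality in Euclidean space, from the one on the line. -/
theorem plHalf_euclidean (h1 : PLHalf ℝ volume) (d : ℕ) :
    PLHalf (EuclideanSpace ℝ (Fin d)) volume := by
  refine PLHalf.of_measurePreserving _ (PiLp.volume_preserving_toLp (Fin d)) ?_ (plHalf_pi h1 d)
  intro x y
  rfl

end Vale.Agent.Lib.P074u
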