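import Vale.Agent.Lib.P074u.Defs
import Vale.Agent.Lib.P074u.PL1
import Vale.Agent.Lib.P074u.PLProd

/-!
The midpoint Prékopa–Leindler inequality on Euclidean space.
-/

open MeasureTheory
open scoped NNReal RealInnerProductSpace

namespace Vale.Agent.Lib.P074u

open Vale.Agent.Lib.P074q (E)

theorem plHalf_real : PLHalf ℝ volume := by
  intro F G H hF hG hH h
  apply pl_one F G H hF hG hH
  intro x y
  have h1 := h x y
  rwa [smul_eq_mul, show (1 / 2 : ℝ) * (x + y) = (x + y) / 2 by ring] at h1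

theorem plHalf_E (d : ℕ) : PLHalf (E d) volume := plHalf_euclidean plHalf_real d

/-- Prekopa-Leindler at the midpoint on Euclidean space. -/
theorem prekopa_leindler_half (d : ℕ) (F G H : E d → ENNReal) (hF : Measurable F)
    (hG : Measurable G) (hH : Measurable H)
    (h : ∀ x y, F x * G y ≤ H ((1 / 2 : ℝ) • (x + y)) ^ 2) :
    (∫⁻ x, F x) * (∫⁻ x, G x) ≤ (∫⁻ x, H x) ^ 2 :=
  plHalf_E d F G H hF hG hH h

end Vale.Agent.Lib.P074u
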