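import Mathlib

/-!
The Prékopa–Leindler inequality at the midpoint, as a predicate on a measured real vector space.
-/

open MeasureTheory
open scoped ENNReal

namespace Vale.Agent.Lib.P074u

/-- The midpoint Prékopa–Leindler inequality for the measure `μ` on the real vector space `X`. -/
def PLHalf (X : Type*) [AddCommGroup X] [Module ℝ X] [MeasurableSpace X] (μ : Measure X) : Prop :=
  ∀ F G H : X → ℝ≥0∞, Measurable F → Measurable G → Measurable H →
    (∀ x y, F x * G y ≤ H ((1 / 2 : ℝ) • (x + y)) ^ 2) →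
    (∫⁻ x, F x ∂μ) * (∫⁻ x, G x ∂μ) ≤ (∫⁻ x, H x ∂μ) ^ 2

end Vale.Agent.Lib.P074u
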