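import Vale.Agent.Lib.P074u.Defs
import Vale.Agent.Lib.P074t.ExistDisc

open MeasureTheory
open scoped NNReal RealInnerProductSpace

namespace Vale.Agent.Lib.P074u

open Vale.Agent.Lib.P074q (E)
open Vale.Agent.Lib.P074b (unif)

variable {d : ℕ} {ι : Type} [Fintype ι]

theorem continuous_aff (P : ι → E d) (w : ι → ℝ) (i : ι) : Continuous (aff P w i) := by
  unfold aff
  fun_prop

theorem isClosed_cell (P : ι → E d) (w : ι → ℝ) (i : ι) : IsClosed (cell P w i) := by
  have : cell P w i = ⋂ j, {x | aff P w j x ≤ aff P w i x} := by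
    ext x; simp [cell]
  rw [this]
  exact isClosed_iInter fun j => isClosed_le (continuous_aff P w j) (continuous_aff P w i)

theorem measurableSet_cell (P : ι → E d) (w : ι → ℝ) (i : ι) : MeasurableSet (cell P w i) :=
  (isClosed_cell P w i).measurableSet

theorem aff_le_pot (P : ι → E d) (w : ι → ℝ) (i : ι) (x : E d) : aff P w i x ≤ pot P w x :=
  le_ciSup (f := fun i => aff P w i x) (Set.finite_range _).bddAbove i

theorem pot_eq_of_mem_cell {P : ι → E d} {w : ι → ℝ} {i : ι} {x : E d} (hx : x ∈ cell P w i) :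
    pot P w x = aff P w i x := by
  have : Nonempty ι := ⟨i⟩
  exact le_antisymm (ciSup_le hx) (aff_le_pot P w i x)

theorem exists_mem_cell [Nonempty ι] (P : ι → E d) (w : ι → ℝ) (x : E d) :
    ∃ i, x ∈ cell P w i := by
  obtain ⟨i, hi⟩ := exists_eq_ciSup_of_finite (f := fun i => aff P w i x)
  refine ⟨i, fun j => ?_⟩
  rw [hi]
  exact aff_le_pot P w j x

theorem continuous_pot [Nonempty ι] (P : ι → E d) (w : ι → ℝ) : Continuous (pot P w) := by
  have hL : LipschitzWith (∑ i, ‖P i‖₊) (pot P w) := by
    refine LipschitzWith.of_le_add_mul _ fun x y => ?_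
    refine ciSup_le fun i => ?_
    have h1 := aff_le_pot P w i y
    have h2 : aff P w i x = aff P w i y + ⟪x - y, P i⟫ := by
      unfold aff
      rw [inner_sub_left]; ring
    have h3 : ⟪x - y, P i⟫ ≤ ‖x - y‖ * ‖P i‖ := real_inner_le_norm _ _
    have h5 : ‖P i‖ ≤ ((∑ i, ‖P i‖₊ : ℝ≥0) : ℝ) := by
      have := Finset.single_le_sum (f := fun i => ‖P i‖) (fun k _ => norm_nonneg _)
        (Finset.mem_univ i)
      simpa using this
    have h4 : ‖x - y‖ * ‖P i‖ ≤ ((∑ i, ‖P i‖₊ : ℝ≥0) : ℝ) * dist x y := by
      rw [dist_eq_norm, mul_comm]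
      exact mul_le_mul_of_nonneg_right h5 (norm_nonneg _)
    linarith
  exact hL.continuous

/-- Midpoints of points of the cells for `w0` and `w1` lie in the cell for the mean weights. -/
theorem cell_mid {P : ι → E d} {w0 w1 : ι → ℝ} {i : ι} {x x' : E d} (hx : x ∈ cell P w0 i)
    (hx' : x' ∈ cell P w1 i) :
    (1 / 2 : ℝ) • (x + x') ∈ cell P (fun j => (w0 j + w1 j) / 2) i := by
  intro j
  have h1 := hx j
  have h2 := hx' j
  unfold aff at *
  rw [inner_smul_left, inner_smul_left, inner_add_left, inner_add_left]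
  simp only [one_div, map_inv₀, map_ofNat]
  linarith

theorem volume_hyperplane (v : E d) (hv : v ≠ 0) (c : ℝ) :
    volume {x : E d | ⟪x, v⟫ = c} = 0 := by
  by_cases h : ∃ x0 : E d, ⟪x0, v⟫ = c
  · obtain ⟨x0, hx0⟩ := h
    set S : Submodule ℝ (E d) := LinearMap.ker (innerₛₗ ℝ v) with hS
    have hne : S ≠ ⊤ := by
      intro htop
      have hvS : v ∈ S := by rw [htop]; trivial
      rw [hS, LinearMap.mem_ker, innerₛₗ_apply_apply] at hvS
      exact hv (inner_self_eq_zero.mp hvS)
    have h0 : volume (S : Set (E d)) = 0 := Measure.addHaar_submodule volume S hne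
    have heq : {x : E d | ⟪x, v⟫ = c} = (fun x => x + (-x0)) ⁻¹' (S : Set (E d)) := by
      ext x
      simp only [Set.mem_ofPred_eq, Set.mem_preimage, SetLike.mem_coe, hS, LinearMap.mem_ker,
        innerₛₗ_apply_apply]
      have e1 : ⟪v, x⟫ = ⟪x, v⟫ := real_inner_comm _ _
      have e2 : ⟪v, x0⟫ = ⟪x0, v⟫ := real_inner_comm _ _
      rw [inner_add_right, inner_neg_right, e1, e2, hx0]
      constructor
      · intro h; rw [h]; ring
      · intro h; linarith
    rw [heq, measure_preimage_add_right, h0]
  · have : {x : E d | ⟪x, v⟫ = c} = ∅ := by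
      ext x
      simp only [Set.mem_ofPred_eq, Set.mem_empty_iff_false, iff_false]
      exact fun hx => h ⟨x, hx⟩
    rw [this, measure_empty]

/-- Two different cells overlap in a Lebesgue null set (distinct sites: a hyperplane). -/
theorem volume_cell_inter {P : ι → E d} (hP : Function.Injective P) (w : ι → ℝ) {i j : ι}
    (hij : i ≠ j) : volume (cell P w i ∩ cell P w j) = 0 := by
  have hv : P i - P j ≠ 0 := sub_ne_zero.mpr (fun h => hij (hP h))
  refine measure_mono_null ?_ (volume_hyperplane (P i - P j) hv (w i - w j))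
  rintro x ⟨hi, hj⟩
  have h1 := hi j
  have h2 := hj i
  simp only [aff] at h1 h2
  simp only [Set.mem_ofPred_eq, inner_sub_right]
  linarith

theorem unif_ac (K : Set (E d)) : unif K ≪ volume :=
  (Measure.smul_absolutelyContinuous).trans Measure.restrict_le_self.absolutelyContinuous

theorem aedisjoint_cell (K : Set (E d)) {P : ι → E d} (hP : Function.Injective P) (w : ι → ℝ) :
    Pairwise (Function.onFun (AEDisjoint (unif K)) (cell P w)) := by
  intro i j hij
  exact unif_ac K (volume_cell_inter hP w hij)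

/-- The cells form a partition up to null sets. -/
theorem sum_setIntegral_cell [Nonempty ι] {F : Type*} [NormedAddCommGroup F] [NormedSpace ℝ F]
    (K : Set (E d)) {P : ι → E d} (hP : Function.Injective P) (w : ι → ℝ) (g : E d → F)
    (hg : Integrable g (unif K)) :
    ∑ i, ∫ x in cell P w i, g x ∂(unif K) = ∫ x, g x ∂(unif K) := by
  have hU : (⋃ i, cell P w i) = Set.univ := by
    ext x
    simp only [Set.mem_iUnion, Set.mem_univ, iff_true]
    exact exists_mem_cell P w x
  have h := integral_iUnion_ae (μ := unif K) (f := g) (s := cell P w)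
    (fun i => (measurableSet_cell P w i).nullMeasurableSet) (aedisjoint_cell K hP w)
    hg.integrableOn
  rw [hU, setIntegral_univ, tsum_fintype] at h
  exact h.symm

theorem isProb_unif {K : Set (E d)} (hK : IsCompact K) (hKi : (interior K).Nonempty) :
    IsProbabilityMeasure (unif K) := by
  have hvtop : volume K ≠ ⊤ := hK.measure_lt_top.ne
  have hv0 : volume K ≠ 0 :=
    (lt_of_lt_of_le (isOpen_interior.measure_pos volume hKi)
      (measure_mono interior_subset)).ne'
  exact ⟨by
    rw [unif, Measure.smul_apply, Measure.restrict_apply MeasurableSet.univ, Set.univ_inter,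
      smul_eq_mul]
    exact ENNReal.inv_mul_cancel hv0 hvtop⟩

/-- Mass of a union of cells. -/
theorem unif_iUnion_cell {K : Set (E d)} (hK : IsCompact K) (hKi : (interior K).Nonempty)
    {P : ι → E d} (hP : Function.Injective P) (w : ι → ℝ) (I : Finset ι) :
    (unif K (⋃ i ∈ I, cell P w i)).toReal = ∑ i ∈ I, mass K P w i := by
  have := isProb_unif hK hKi
  rw [measure_biUnion_finset₀ (fun i _ j _ hij => aedisjoint_cell K hP w hij)
    (fun i _ => (measurableSet_cell P w i).nullMeasurableSet)]
  rw [ENNReal.toReal_sum (fun i _ => measure_ne_top _ _)]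
  rfl

theorem sum_mass [Nonempty ι] {K : Set (E d)} (hK : IsCompact K) (hKi : (interior K).Nonempty)
    {P : ι → E d} (hP : Function.Injective P) (w : ι → ℝ) : ∑ i, mass K P w i = 1 := by
  have := isProb_unif hK hKi
  rw [← unif_iUnion_cell hK hKi hP w Finset.univ]
  have hU : (⋃ i ∈ (Finset.univ : Finset ι), cell P w i) = Set.univ := by
    ext x
    simp only [Finset.mem_univ, Set.iUnion_true, Set.mem_iUnion, Set.mem_univ, iff_true]
    exact exists_mem_cell P w x
  rw [hU, measure_univ, ENNReal.toReal_one]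

theorem mass_nonneg (K : Set (E d)) (P : ι → E d) (w : ι → ℝ) (i : ι) : 0 ≤ mass K P w i :=
  ENNReal.toReal_nonneg

/-- Existence of weights with prescribed masses (from `P074t.exists_discrete`). -/
theorem exists_weights [Nonempty ι] {K : Set (E d)} (hK : IsCompact K)
    (hKi : (interior K).Nonempty) {P : ι → E d} (hP : Function.Injective P) (m : ι → ℝ)
    (hm : ∀ i, 0 ≤ m i) (hsum : ∑ i, m i = 1) : ∃ w : ι → ℝ, ∀ i, mass K P w i = m i := by
  classical
  set lam : Measure (E d) := ∑ i, ENNReal.ofReal (m i) • Measure.dirac (P i) with hlam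
  have hprob : IsProbabilityMeasure lam := ⟨by
    rw [hlam, Measure.finsetSum_apply]
    simp only [Measure.smul_apply, measure_univ, smul_eq_mul, mul_one]
    rw [← ENNReal.ofReal_sum_of_nonneg (fun i _ => hm i), hsum, ENNReal.ofReal_one]⟩
  have hae : ∀ᵐ y ∂lam, y ∈ Set.range P := by
    rw [ae_iff, hlam, Measure.finsetSum_apply]
    refine Finset.sum_eq_zero (fun i _ => ?_)
    rw [Measure.smul_apply, smul_eq_mul]
    have : Measure.dirac (P i) {a | ¬ a ∈ Set.range P} = 0 := by
      rw [Measure.dirac_apply, Set.indicator_of_notMem]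
      simp
    rw [this, mul_zero]
  have hpt : ∀ i, lam {P i} = ENNReal.ofReal (m i) := by
    intro i
    rw [hlam, Measure.finsetSum_apply, Finset.sum_eq_single i]
    · rw [Measure.smul_apply, smul_eq_mul, Measure.dirac_apply_of_mem (Set.mem_singleton _),
        mul_one]
    · intro j _ hji
      rw [Measure.smul_apply, smul_eq_mul, Measure.dirac_apply, Set.indicator_of_notMem, mul_zero]
      simp only [Set.mem_singleton_iff]
      exact fun h => hji (hP h)
    · intro h; exact absurd (Finset.mem_univ i) h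
  obtain ⟨T, w, -, -, -, hw⟩ :=
    Vale.Agent.Lib.P074t.exists_discrete K hK hKi ι P hP lam hae
  refine ⟨w, fun i => ?_⟩
  have h1 : unif K (cell P w i) = lam {P i} := hw i
  rw [mass, h1, hpt, ENNReal.toReal_ofReal (hm i)]

end Vale.Agent.Lib.P074u
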