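import Vale.Agent.Lib.P074q.Defs

/-!
From weighted `ℓ²` closeness of the weights of two power diagrams with the same cell masses to
`L²` closeness of the two piecewise affine potentials.
-/

open MeasureTheory
open scoped NNReal RealInnerProductSpace

namespace Vale.Agent.Lib.P074u

open Vale.Agent.Lib.P074q (E)

section potL2

variable {d : ℕ} {ι : Type} [Fintype ι]

/-- The cell of index `i` (not intersected with the source body). -/
def celG (P : ι → E d) (w : ι → ℝ) (i : ι) : Set (E d) :=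
  {x | ∀ j, ⟪x, P j⟫ - w j ≤ ⟪x, P i⟫ - w i}

lemma isClosed_celG (P : ι → E d) (w : ι → ℝ) (i : ι) : IsClosed (celG P w i) := by
  have : celG P w i = ⋂ j, {x | ⟪x, P j⟫ - w j ≤ ⟪x, P i⟫ - w i} := by
    ext x; simp [celG]
  rw [this]
  refine isClosed_iInter fun j => ?_
  exact isClosed_le (by fun_prop) (by fun_prop)

lemma le_supG (P : ι → E d) (w : ι → ℝ) (x : E d) (i : ι) :
    ⟪x, P i⟫ - w i ≤ ⨆ i, (⟪x, P i⟫ - w i) :=
  le_ciSup (f := fun i => ⟪x, P i⟫ - w i) (Set.finite_range _).bddAbove i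

lemma supG_eq_of_mem [Nonempty ι] (P : ι → E d) (w : ι → ℝ) (x : E d) (i : ι)
    (hx : x ∈ celG P w i) : (⨆ i, (⟪x, P i⟫ - w i)) = ⟪x, P i⟫ - w i :=
  le_antisymm (ciSup_le hx) (le_supG P w x i)

lemma exists_mem_celG [Nonempty ι] (P : ι → E d) (w : ι → ℝ) (x : E d) :
    ∃ i, x ∈ celG P w i := by
  obtain ⟨i, hi⟩ := exists_eq_ciSup_of_finite (f := fun i => ⟪x, P i⟫ - w i)
  refine ⟨i, fun j => ?_⟩
  have := le_supG P w x j
  rw [hi]; exact this

lemma lipschitz_supG [Nonempty ι] (P : ι → E d) (w : ι → ℝ) (R : ℝ≥0) (hP : ∀ i, ‖P i‖ ≤ R) :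
    LipschitzWith R (fun x : E d => ⨆ i, (⟪x, P i⟫ - w i)) := by
  refine LipschitzWith.of_le_add_mul R fun x y => ?_
  refine ciSup_le fun i => ?_
  have h1 := le_supG P w y i
  have h2 : ⟪x, P i⟫ = ⟪y, P i⟫ + ⟪x - y, P i⟫ := by
    rw [inner_sub_left]; ring
  have h3 : ⟪x - y, P i⟫ ≤ ‖x - y‖ * ‖P i‖ := real_inner_le_norm _ _
  have h4 : ‖x - y‖ * ‖P i‖ ≤ R * dist x y := by
    rw [dist_eq_norm, mul_comm]
    exact mul_le_mul_of_nonneg_right (hP i) (norm_nonneg _)
  linarith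

/-- Pointwise bound of the difference of the potentials by the data of the two active cells. -/
lemma pot_diff_sq_le [Nonempty ι] (P P' : ι → E d) (w w' : ι → ℝ) (c r : ℝ) (x : E d)
    (hx : ‖x‖ ≤ r) (i j : ι) (hi : x ∈ celG P w i) (hj : x ∈ celG P' w' j) :
    ((⨆ i, (⟪x, P' i⟫ - w' i)) - (⨆ i, (⟪x, P i⟫ - w i)) + c) ^ 2 ≤
      (r * ‖P' i - P i‖ + |w' i - w i - c|) ^ 2 + (r * ‖P' j - P j‖ + |w' j - w j - c|) ^ 2 := by
  have hr : 0 ≤ r := (norm_nonneg x).trans hx
  have a1 := supG_eq_of_mem P w x i hi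
  have a2 := supG_eq_of_mem P' w' x j hj
  have b1 := le_supG P' w' x i
  have b2 := le_supG P w x j
  have inn : ∀ k, |⟪x, P' k⟫ - ⟪x, P k⟫| ≤ r * ‖P' k - P k‖ := by
    intro k
    rw [← inner_sub_right]
    exact (abs_real_inner_le_norm _ _).trans (mul_le_mul_of_nonneg_right hx (norm_nonneg _))
  set k := (⨆ i, (⟪x, P' i⟫ - w' i)) - (⨆ i, (⟪x, P i⟫ - w i)) + c with hk
  set Bi := r * ‖P' i - P i‖ + |w' i - w i - c| with hBi
  set Bj := r * ‖P' j - P j‖ + |w' j - w j - c| with hBj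
  have hBi0 : 0 ≤ Bi := by positivity
  have hBj0 : 0 ≤ Bj := by positivity
  have low : -Bi ≤ k := by
    have h1 := abs_le.mp (inn i)
    have h2 := neg_abs_le (w' i - w i - c)
    have h3 := le_abs_self (w' i - w i - c)
    simp only [hk, hBi]
    rw [a1]
    linarith [h1.1]
  have up : k ≤ Bj := by
    have h1 := abs_le.mp (inn j)
    have h2 := neg_abs_le (w' j - w j - c)
    simp only [hk, hBj]
    rw [a2]
    linarith [h1.2]
  rcases le_total 0 k with h0 | h0
  · have : k ^ 2 ≤ Bj ^ 2 := pow_le_pow_left₀ h0 up 2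
    nlinarith [sq_nonneg Bi]
  · have : k ^ 2 ≤ Bi ^ 2 := by
      have h1 : (-k) ^ 2 ≤ Bi ^ 2 := pow_le_pow_left₀ (by linarith) (by linarith) 2
      simpa using h1
    nlinarith [sq_nonneg Bj]

/-- `L²` closeness of the potentials from weighted `ℓ²` closeness of sites and weights. -/
theorem pot_L2 [Nonempty ι] (K : Set (E d)) (hK : IsCompact K) (r : ℝ) (hKr : ∀ x ∈ K, ‖x‖ ≤ r)
    (R : ℝ≥0) (P P' : ι → E d) (w w' : ι → ℝ) (hP : ∀ i, ‖P i‖ ≤ R) (hP' : ∀ i, ‖P' i‖ ≤ R)
    (c : ℝ) (p : ι → ℝ)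
    (hp : ∀ i, (volume ({x | ∀ j, ⟪x, P j⟫ - w j ≤ ⟪x, P i⟫ - w i} ∩ K)).toReal ≤ p i)
    (hp' : ∀ i, (volume ({x | ∀ j, ⟪x, P' j⟫ - w' j ≤ ⟪x, P' i⟫ - w' i} ∩ K)).toReal ≤ p i) :
    ∫ x in K, ((⨆ i, (⟪x, P' i⟫ - w' i)) - (⨆ i, (⟪x, P i⟫ - w i)) + c) ^ 2 ≤
      4 * r ^ 2 * ∑ i, p i * ‖P' i - P i‖ ^ 2 + 4 * ∑ i, p i * (w' i - w i - c) ^ 2 := by
  classical
  have : IsFiniteMeasure (volume.restrict K) := ⟨by simpa using hK.measure_lt_top⟩
  set B : ι → ℝ := fun i => (r * ‖P' i - P i‖ + |w' i - w i - c|) ^ 2 with hB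
  have hB0 : ∀ i, 0 ≤ B i := fun i => sq_nonneg _
  set F : E d → ℝ := fun x => (∑ i, (celG P w i).indicator (fun _ => B i) x) +
    ∑ i, (celG P' w' i).indicator (fun _ => B i) x with hF
  have hmeas : ∀ i, MeasurableSet (celG P w i) := fun i => (isClosed_celG P w i).measurableSet
  have hmeas' : ∀ i, MeasurableSet (celG P' w' i) := fun i => (isClosed_celG P' w' i).measurableSet
  have hint1 : ∀ i, Integrable ((celG P w i).indicator (fun _ => B i)) (volume.restrict K) :=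
    fun i => (integrable_const (B i)).indicator (hmeas i)
  have hint2 : ∀ i, Integrable ((celG P' w' i).indicator (fun _ => B i)) (volume.restrict K) :=
    fun i => (integrable_const (B i)).indicator (hmeas' i)
  have hFint : Integrable F (volume.restrict K) :=
    (integrable_finsetSum _ fun i _ => hint1 i).add (integrable_finsetSum _ fun i _ => hint2 i)
  have hpt : ∀ x ∈ K, ((⨆ i, (⟪x, P' i⟫ - w' i)) - (⨆ i, (⟪x, P i⟫ - w i)) + c) ^ 2 ≤ F x := by
    intro x hx
    obtain ⟨i, hi⟩ := exists_mem_celG P w x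
    obtain ⟨j, hj⟩ := exists_mem_celG P' w' x
    refine (pot_diff_sq_le P P' w w' c r x (hKr x hx) i j hi hj).trans ?_
    have h1 : B i ≤ ∑ i, (celG P w i).indicator (fun _ => B i) x := by
      have := Finset.single_le_sum (f := fun i => (celG P w i).indicator (fun _ => B i) x)
        (fun k _ => Set.indicator_nonneg (fun _ _ => hB0 k) x) (Finset.mem_univ i)
      simpa [Set.indicator_of_mem hi] using this
    have h2 : B j ≤ ∑ i, (celG P' w' i).indicator (fun _ => B i) x := by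
      have := Finset.single_le_sum (f := fun i => (celG P' w' i).indicator (fun _ => B i) x)
        (fun k _ => Set.indicator_nonneg (fun _ _ => hB0 k) x) (Finset.mem_univ j)
      simpa [Set.indicator_of_mem hj] using this
    exact add_le_add h1 h2
  have hcont : Continuous fun x : E d =>
      ((⨆ i, (⟪x, P' i⟫ - w' i)) - (⨆ i, (⟪x, P i⟫ - w i)) + c) ^ 2 :=
    (((lipschitz_supG P' w' R hP').continuous.sub (lipschitz_supG P w R hP).continuous).add
      continuous_const).pow 2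
  have hle : ∫ x in K, ((⨆ i, (⟪x, P' i⟫ - w' i)) - (⨆ i, (⟪x, P i⟫ - w i)) + c) ^ 2 ≤
      ∫ x in K, F x := by
    refine setIntegral_mono_on (hcont.continuousOn.integrableOn_compact hK) hFint
      hK.measurableSet hpt
  have hFval : ∫ x in K, F x = (∑ i, B i * (volume (celG P w i ∩ K)).toReal) +
      ∑ i, B i * (volume (celG P' w' i ∩ K)).toReal := by
    simp only [hF]
    rw [integral_add (integrable_finsetSum _ fun i _ => hint1 i)
      (integrable_finsetSum _ fun i _ => hint2 i),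
      integral_finsetSum _ fun i _ => hint1 i, integral_finsetSum _ fun i _ => hint2 i]
    congr 1
    · refine Finset.sum_congr rfl fun i _ => ?_
      rw [integral_indicator (hmeas i), Measure.restrict_restrict (hmeas i), setIntegral_const]
      simp [Measure.real, mul_comm]
    · refine Finset.sum_congr rfl fun i _ => ?_
      rw [integral_indicator (hmeas' i), Measure.restrict_restrict (hmeas' i), setIntegral_const]
      simp [Measure.real, mul_comm]
  have hsum : (∑ i, B i * (volume (celG P w i ∩ K)).toReal) +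
      ∑ i, B i * (volume (celG P' w' i ∩ K)).toReal ≤ 2 * ∑ i, B i * p i := by
    have h1 : ∑ i, B i * (volume (celG P w i ∩ K)).toReal ≤ ∑ i, B i * p i :=
      Finset.sum_le_sum fun i _ => mul_le_mul_of_nonneg_left (hp i) (hB0 i)
    have h2 : ∑ i, B i * (volume (celG P' w' i ∩ K)).toReal ≤ ∑ i, B i * p i :=
      Finset.sum_le_sum fun i _ => mul_le_mul_of_nonneg_left (hp' i) (hB0 i)
    linarith
  have hp0 : ∀ i, 0 ≤ p i := fun i => ENNReal.toReal_nonneg.trans (hp i)
  have hfin : 2 * ∑ i, B i * p i ≤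
      4 * r ^ 2 * ∑ i, p i * ‖P' i - P i‖ ^ 2 + 4 * ∑ i, p i * (w' i - w i - c) ^ 2 := by
    rw [Finset.mul_sum, Finset.mul_sum, Finset.mul_sum, ← Finset.sum_add_distrib]
    refine Finset.sum_le_sum fun i _ => ?_
    have e : B i ≤ 2 * r ^ 2 * ‖P' i - P i‖ ^ 2 + 2 * (w' i - w i - c) ^ 2 := by
      simp only [hB]
      have := sq_abs (w' i - w i - c)
      nlinarith [sq_nonneg (r * ‖P' i - P i‖ - |w' i - w i - c|)]
    nlinarith [hp0 i, mul_le_mul_of_nonneg_right e (hp0 i)]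
  calc _ ≤ ∫ x in K, F x := hle
    _ = _ := hFval
    _ ≤ _ := hsum
    _ ≤ _ := hfin

end potL2

end Vale.Agent.Lib.P074u
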