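import Vale.Agent.Lib.P074u.PotL2G
import Vale.Agent.Lib.P074u.Defs

/-!
The step from the weighted variance of the weights to the `L²` bound of the potentials, in the
notation of `Defs.lean` (`pot`, `mass`, `unif K`).
-/

open MeasureTheory
open scoped NNReal RealInnerProductSpace

namespace Vale.Agent.Lib.P074u

open Vale.Agent.Lib.P074q (E)
open Vale.Agent.Lib.P074b (unif)

variable {d : ℕ} {ι : Type} [Fintype ι]

/-- General form: any constant `c0`, any bound `A` for the weighted square sum. -/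
theorem potential_L2_of_weights [Nonempty ι] {K : Set (E d)} (hK : IsCompact K)
    (hKi : (interior K).Nonempty) {M : ℝ} (hKM : ∀ x ∈ K, ‖x‖ ≤ M)
    (P P' : ι → E d) (w w' : ι → ℝ)
    (hmass : ∀ i, mass K P w i = mass K P' w' i) (c0 : ℝ) :
    ∫ x, (pot P' w' x - pot P w x - (-c0)) ^ 2 ∂(unif K) ≤
      4 * M ^ 2 * ∑ i, mass K P w i * ‖P' i - P i‖ ^ 2 +
        4 * ∑ i, mass K P w i * (w' i - w i - c0) ^ 2 := by
  have hvT : volume K ≠ ⊤ := hK.measure_lt_top.ne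
  have hv0 : volume K ≠ 0 :=
    (lt_of_lt_of_le (isOpen_interior.measure_pos volume hKi) (measure_mono interior_subset)).ne'
  set V : ℝ := (volume K).toReal with hV
  have hVpos : 0 < V := ENNReal.toReal_pos hv0 hvT
  have hmassval : ∀ (Q : ι → E d) (v : ι → ℝ) (i : ι),
      (volume ({x | ∀ j, ⟪x, Q j⟫ - v j ≤ ⟪x, Q i⟫ - v i} ∩ K)).toReal = V * mass K Q v i := by
    intro Q v i
    have e : unif K (cell Q v i) = (volume K)⁻¹ * volume (cell Q v i ∩ K) := by
      simp [unif, Measure.smul_apply, Measure.restrict_apply' hK.measurableSet]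
    have e2 : ({x | ∀ j, ⟪x, Q j⟫ - v j ≤ ⟪x, Q i⟫ - v i} : Set (E d)) = cell Q v i := rfl
    rw [e2]
    unfold mass
    rw [e, ENNReal.toReal_mul, ENNReal.toReal_inv, ← hV]
    field_simp
  set R : ℝ≥0 := ∑ i, ‖P i‖₊ + ∑ i, ‖P' i‖₊ with hR
  have hPR : ∀ i, ‖P i‖ ≤ R := by
    intro i
    have h1 := Finset.single_le_sum (f := fun i => ‖P i‖) (fun k _ => norm_nonneg _)
      (Finset.mem_univ i)
    have h2 : 0 ≤ ∑ i, ‖P' i‖ := Finset.sum_nonneg fun k _ => norm_nonneg _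
    simp only [hR, NNReal.coe_add, NNReal.coe_sum, coe_nnnorm]
    linarith
  have hPR' : ∀ i, ‖P' i‖ ≤ R := by
    intro i
    have h1 := Finset.single_le_sum (f := fun i => ‖P' i‖) (fun k _ => norm_nonneg _)
      (Finset.mem_univ i)
    have h2 : 0 ≤ ∑ i, ‖P i‖ := Finset.sum_nonneg fun k _ => norm_nonneg _
    simp only [hR, NNReal.coe_add, NNReal.coe_sum, coe_nnnorm]
    linarith
  have key := pot_L2 K hK M hKM R P P' w w' hPR hPR' c0 (fun i => V * mass K P w i)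
    (fun i => (hmassval P w i).le) (fun i => by rw [hmassval P' w' i, hmass i])
  have hint : ∫ x, (pot P' w' x - pot P w x - (-c0)) ^ 2 ∂(unif K) =
      V⁻¹ * ∫ x in K, ((⨆ i, (⟪x, P' i⟫ - w' i)) - (⨆ i, (⟪x, P i⟫ - w i)) + c0) ^ 2 := by
    have : ∀ x, (pot P' w' x - pot P w x - (-c0)) ^ 2 =
        ((⨆ i, (⟪x, P' i⟫ - w' i)) - (⨆ i, (⟪x, P i⟫ - w i)) + c0) ^ 2 := by
      intro x
      simp only [pot, aff, sub_neg_eq_add]
    simp only [this]
    unfold unif
    rw [integral_smul_measure, ENNReal.toReal_inv, smul_eq_mul]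
  rw [hint]
  have hVinv : 0 ≤ V⁻¹ := inv_nonneg.mpr hVpos.le
  calc V⁻¹ * ∫ x in K, ((⨆ i, (⟪x, P' i⟫ - w' i)) - (⨆ i, (⟪x, P i⟫ - w i)) + c0) ^ 2
      ≤ V⁻¹ * (4 * M ^ 2 * ∑ i, V * mass K P w i * ‖P' i - P i‖ ^ 2 +
          4 * ∑ i, V * mass K P w i * (w' i - w i - c0) ^ 2) :=
        mul_le_mul_of_nonneg_left key hVinv
    _ = 4 * M ^ 2 * ∑ i, mass K P w i * ‖P' i - P i‖ ^ 2 +
        4 * ∑ i, mass K P w i * (w' i - w i - c0) ^ 2 := by
        have e1 : ∑ i, V * mass K P w i * ‖P' i - P i‖ ^ 2 =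
            V * ∑ i, mass K P w i * ‖P' i - P i‖ ^ 2 := by
          rw [Finset.mul_sum]; exact Finset.sum_congr rfl fun i _ => by ring
        have e2 : ∑ i, V * mass K P w i * (w' i - w i - c0) ^ 2 =
            V * ∑ i, mass K P w i * (w' i - w i - c0) ^ 2 := by
          rw [Finset.mul_sum]; exact Finset.sum_congr rfl fun i _ => by ring
        rw [e1, e2]
        field_simp

/-- The exact step `weights_var ⇒ potential_L2` of the skeleton. -/
theorem potential_L2_of_var [Nonempty ι] {K : Set (E d)} (hK : IsCompact K)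
    (hKi : (interior K).Nonempty) {M : ℝ} (hKM : ∀ x ∈ K, ‖x‖ ≤ M)
    (P P' : ι → E d) (w w' : ι → ℝ)
    (hmass : ∀ i, mass K P w i = mass K P' w' i)
    (hvar : ∑ i, mass K P w i * ((w' i - w i) - ∑ k, mass K P w k * (w' k - w k)) ^ 2 ≤
      729 * M ^ 2 * ∑ i, mass K P w i * ‖P' i - P i‖ ^ 2) :
    ∃ c : ℝ, ∫ x, (pot P' w' x - pot P w x - c) ^ 2 ∂(unif K) ≤
      2920 * M ^ 2 * ∑ i, mass K P w i * ‖P' i - P i‖ ^ 2 := by
  refine ⟨-(∑ k, mass K P w k * (w' k - w k)), ?_⟩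
  have h := potential_L2_of_weights hK hKi hKM P P' w w' hmass
    (∑ k, mass K P w k * (w' k - w k))
  linarith

end Vale.Agent.Lib.P074u
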