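import Vale.Agent.Lib.P074u.Stage
import Vale.Agent.Lib.P074u.Partition
import Vale.Agent.Lib.P074u.Algebra
import Vale.Agent.Lib.P074u.Val
import Vale.Agent.Lib.P074q.Main

open MeasureTheory
open scoped NNReal RealInnerProductSpace

namespace Vale.Agent.Lib.P074u

open Vale.Agent.Lib.P074q (E)
open Vale.Agent.Lib.P074b (unif)

variable {d : ℕ} {ι : Type} [Fintype ι]

theorem continuous_gam (K0 : ℝ) : Continuous (gam K0 : E d → ℝ) := by
  unfold gam
  fun_prop

theorem integrable_gam {K : Set (E d)} (hK : IsCompact K) (hKi : (interior K).Nonempty)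
    {K0 : ℝ} (hK0 : 0 ≤ K0) : Integrable (gam K0 : E d → ℝ) (unif K) := by
  have hv0 : volume K ≠ 0 := (Measure.measure_pos_of_nonempty_interior volume hKi).ne'
  have hvT : volume K ≠ ⊤ := hK.measure_lt_top.ne
  have hρ : IsProbabilityMeasure (unif K) :=
    Vale.Agent.Lib.P074q.isProbabilityMeasure_unif hv0 hvT
  refine Integrable.mono' (integrable_const (1 : ℝ))
    (continuous_gam K0).aestronglyMeasurable (Filter.Eventually.of_forall fun x => ?_)
  rw [Real.norm_eq_abs, abs_of_nonneg (by unfold gam; exact (Real.exp_pos _).le)]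
  exact gam_le_one hK0 x

/-- Same sites, two weight vectors: the first moments of the cells are Lipschitz in the masses
(weighted `ℓ²` against chi-square). -/
theorem SK [Nonempty ι] {K : Set (E d)} (hK : IsCompact K) (hKc : Convex ℝ K)
    (hKi : (interior K).Nonempty) {M : ℝ} (hM : 0 < M) (hKM : ∀ x ∈ K, ‖x‖ ≤ M)
    {P : ι → E d} (hP : Function.Injective P) (w0 w1 : ι → ℝ)
    (hm : ∀ i, 0 < mass K P w0 i) (hm1 : ∀ i, mass K P w0 i / 2 ≤ mass K P w1 i)
    (hm2 : ∀ i, mass K P w1 i ≤ 3 / 2 * mass K P w0 i) :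
    ∑ i, ‖mom K P w1 i - mom K P w0 i‖ ^ 2 / mass K P w0 i ≤
      700 * M ^ 2 * ∑ i, (mass K P w1 i - mass K P w0 i) ^ 2 / mass K P w0 i := by
  set K0 : ℝ := 1 / (16 * M ^ 2) with hK0def
  have hK0 : 0 ≤ K0 := by positivity
  set wh : ι → ℝ := fun j => (w0 j + w1 j) / 2 with hwh
  set p : ι → ℝ := fun i => ∫ x in cell P w0 i, gam K0 x ∂(unif K) with hpdef
  set q : ι → ℝ := fun i => ∫ x in cell P w1 i, gam K0 x ∂(unif K) with hqdef
  set h : ι → ℝ := fun i => ∫ x in cell P wh i, gam K0 x ∂(unif K) with hhdef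
  set Γ : ℝ := ∫ x, gam K0 x ∂(unif K) with hΓ
  have hint := integrable_gam (d := d) hK hKi hK0
  have hsp : ∑ i, p i = Γ := sum_setIntegral_cell K hP w0 _ hint
  have hsq : ∑ i, q i = Γ := sum_setIntegral_cell K hP w1 _ hint
  have hsh : ∑ i, h i = Γ := sum_setIntegral_cell K hP wh _ hint
  have hm' : ∀ i, 0 < mass K P w1 i := fun i => by linarith [hm i, hm1 i]
  have b0 : ∀ i, p i ≤ mass K P w0 i ∧ mass K P w0 i ≤ 26 / 25 * p i := fun i =>
    gam_mass_bounds hK hKi hM hKM (measurableSet_cell P w0 i)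
  have b1 : ∀ i, q i ≤ mass K P w1 i ∧ mass K P w1 i ≤ 26 / 25 * q i := fun i =>
    gam_mass_bounds hK hKi hM hKM (measurableSet_cell P w1 i)
  have hp : ∀ i, 0 < p i := fun i => by linarith [hm i, (b0 i).2]
  have hq : ∀ i, 0 < q i := fun i => by linarith [hm' i, (b1 i).2]
  have u0 : ∀ i, 0 < unif K (cell P w0 i) := fun i => (ENNReal.toReal_pos_iff.mp (hm i)).1
  have u1 : ∀ i, 0 < unif K (cell P w1 i) := fun i => (ENNReal.toReal_pos_iff.mp (hm' i)).1
  have hmid : ∀ i, ∀ x ∈ cell P w0 i, ∀ x' ∈ cell P w1 i,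
      (1 / 2 : ℝ) • (x + x') ∈ cell P wh i := fun i x hx x' hx' => cell_mid hx hx'
  have s1 : ∑ i, Real.sqrt (p i * q i) *
      (1 + (mass K P w1 i / q i - mass K P w0 i / p i) ^ 2) ≤ Γ := by
    rw [← hsh]
    refine Finset.sum_le_sum fun i _ => ?_
    exact stage1 hK hKc hKi hM hKM (measurableSet_cell P w0 i) (measurableSet_cell P w1 i)
      (measurableSet_cell P wh i) (hmid i) (u0 i) (u1 i)
  have s2 : ∑ i, Real.sqrt (p i * q i) *
      (1 + ‖(q i)⁻¹ • mom K P w1 i - (p i)⁻¹ • mom K P w0 i‖ ^ 2 / (160 * M ^ 2)) ≤ Γ := by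
    rw [← hsh]
    refine Finset.sum_le_sum fun i _ => ?_
    exact stage2 hK hKc hKi hM hKM (measurableSet_cell P w0 i) (measurableSet_cell P w1 i)
      (measurableSet_cell P wh i) (hmid i) (u0 i) (u1 i)
  have hB := alg_stage1 p q (mass K P w0) (mass K P w1) Γ hp hq (fun i => (b0 i).1)
    (fun i => (b0 i).2) (fun i => (b1 i).1) (fun i => (b1 i).2) hm1 hm2 hsp hsq s1
  exact alg_stage2 p q (mass K P w0) (mass K P w1) (mom K P w0) (mom K P w1) Γ M _ hM hp hq
    (fun i => (b0 i).1) (fun i => (b0 i).2) (fun i => (b1 i).1) (fun i => (b1 i).2) hm1 hm2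
    hsp hsq (fun i => norm_mom_le hK hKi hKM P w0 i) s2 hB

end Vale.Agent.Lib.P074u
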