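import Vale.Agent.Lib.P074u.SK7c

/-!
Stability of barycentres of cells under a change of masses: the abstract inequality.
-/

open MeasureTheory Set Metric
open scoped ENNReal RealInnerProductSpace

namespace Vale.Agent.Lib.P074u.SK7

variable {d : ℕ}

theorem hmean_pos {m n : ℝ} (hm : 0 < m) (hn : 0 < n) : 0 < hmean m n := by
  unfold hmean
  positivity

theorem two_hmean_le {m n : ℝ} (hm : 0 < m) (hn : 0 < n) : 2 * hmean m n ≤ m + n := by
  unfold hmean
  have hs : 0 < m + n := by positivity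
  rw [← sub_nonneg]
  have : m + n - 2 * (2 * m * n / (m + n)) = (m - n) ^ 2 / (m + n) := by
    field_simp
    ring
  rw [this]
  positivity

theorem alg_T {m n r XA XB : ℝ} (hm : 0 < m) (hn : 0 < n) (hr : 0 < r)
    (hXA0 : 0 ≤ XA) (hXA : XA ≤ m * (r ^ 2 / 2)) (hXB0 : 0 ≤ XB) (hXB : XB ≤ n * (r ^ 2 / 2)) :
    (XA + XB) / 2 - (n * XA + m * XB) / (m + n)
      ≤ 3 / 8 * r ^ 2 * ((n - m) ^ 2 / hmean m n)
        + hmean m n * (XB / n - XA / m) ^ 2 / (16 * r ^ 2) := by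
  have hs : 0 < m + n := by positivity
  have hμ := hmean_pos hm hn
  have hμ2 := two_hmean_le hm hn
  set μ := hmean m n with hμdef
  set cA := XA / m with hcA
  set cB := XB / n with hcB
  have eA : XA = m * cA := by rw [hcA]; field_simp
  have eB : XB = n * cB := by rw [hcB]; field_simp
  have hcA0 : 0 ≤ cA := div_nonneg hXA0 hm.le
  have hcB0 : 0 ≤ cB := div_nonneg hXB0 hn.le
  have hcA1 : cA ≤ r ^ 2 / 2 := by rw [hcA, div_le_iff₀ hm]; linarith
  have hcB1 : cB ≤ r ^ 2 / 2 := by rw [hcB, div_le_iff₀ hn]; linarith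
  have e1 : (XA + XB) / 2 - (n * XA + m * XB) / (m + n)
      = (n - m) ^ 2 * (cA + cB) / (4 * (m + n)) + (n - m) * (cB - cA) / 4 := by
    rw [eA, eB]
    field_simp
    ring
  have e2 : (n - m) ^ 2 * (cA + cB) / (4 * (m + n)) ≤ 1 / 8 * r ^ 2 * ((n - m) ^ 2 / μ) := by
    calc (n - m) ^ 2 * (cA + cB) / (4 * (m + n)) ≤ (n - m) ^ 2 * r ^ 2 / (4 * (m + n)) := by
          apply div_le_div_of_nonneg_right _ (by positivity)
          apply mul_le_mul_of_nonneg_left _ (sq_nonneg _)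
          linarith
      _ ≤ (n - m) ^ 2 * r ^ 2 / (8 * μ) := by
          apply div_le_div_of_nonneg_left (by positivity) (by positivity)
          linarith
      _ = 1 / 8 * r ^ 2 * ((n - m) ^ 2 / μ) := by
          field_simp
  have e3 : (n - m) * (cB - cA) / 4
      ≤ 1 / 4 * r ^ 2 * ((n - m) ^ 2 / μ) + μ * (cB - cA) ^ 2 / (16 * r ^ 2) := by
    rw [← sub_nonneg]
    have : 1 / 4 * r ^ 2 * ((n - m) ^ 2 / μ) + μ * (cB - cA) ^ 2 / (16 * r ^ 2)
        - (n - m) * (cB - cA) / 4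
        = (2 * r ^ 2 * (n - m) - μ * (cB - cA)) ^ 2 / (16 * r ^ 2 * μ) := by
      field_simp
      ring
    rw [this]
    positivity
  rw [e1]
  linarith

theorem chi_integral_nonneg {r : ℝ} {A : Set (EuclideanSpace ℝ (Fin d))} (hA : MeasurableSet A)
    (hAr : A ⊆ closedBall 0 r) : 0 ≤ ∫ x in A, chi r x :=
  setIntegral_nonneg hA fun _ hx => chi_nonneg (hAr hx)

theorem chi_integral_le {r : ℝ} {A : Set (EuclideanSpace ℝ (Fin d))}
    (hAr : A ⊆ closedBall 0 r) : ∫ x in A, chi r x ≤ mass A * (r ^ 2 / 2) := by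
  have h1 : ∫ x in A, chi r x ≤ ∫ _ in A, r ^ 2 / 2 :=
    integral_mono (integrableOn_of_continuous (chi_continuous r) hAr)
      (integrableOn_const (volume_ne_top_of_subset hAr)) (fun x => chi_le r x)
  rw [setIntegral_const, smul_eq_mul] at h1
  exact h1

/-- Abstract stability of barycentres: three families of cells in a ball of radius `r` with
`(A i + B i) / 2 ⊆ C i`, each family carrying (at most, for `C`) the total `chi`-mass `X`. -/
theorem SK_abstract (hPL : PLHalf (EuclideanSpace ℝ (Fin d)) volume) {ι : Type*} [Fintype ι]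
    {r : ℝ} (hr : 0 < r) (A B C : ι → Set (EuclideanSpace ℝ (Fin d)))
    (hA : ∀ i, MeasurableSet (A i)) (hB : ∀ i, MeasurableSet (B i))
    (hC : ∀ i, MeasurableSet (C i)) (hAr : ∀ i, A i ⊆ closedBall 0 r)
    (hBr : ∀ i, B i ⊆ closedBall 0 r) (hCr : ∀ i, C i ⊆ closedBall 0 r)
    (hA0 : ∀ i, volume (A i) ≠ 0) (hB0 : ∀ i, volume (B i) ≠ 0)
    (hmid : ∀ i, ∀ x ∈ A i, ∀ z ∈ B i, (1 / 2 : ℝ) • (x + z) ∈ C i)
    (X : ℝ) (hXA : ∑ i, ∫ x in A i, chi r x = X) (hXB : ∑ i, ∫ x in B i, chi r x = X)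
    (hXC : ∑ i, ∫ x in C i, chi r x ≤ X) :
    ∑ i, hmean (mass (A i)) (mass (B i)) * ‖bary (B i) - bary (A i)‖ ^ 2
      ≤ 6 * r ^ 2 * ∑ i, (mass (B i) - mass (A i)) ^ 2 / hmean (mass (A i)) (mass (B i)) := by
  have ha := fun i => cell_a hPL (hA i) (hB i) (hC i) (hAr i) (hBr i) (hCr i) (hA0 i) (hB0 i)
    (hmid i)
  have hb := fun i => cell_b hPL hr (hA i) (hB i) (hC i) (hAr i) (hBr i) (hCr i) (hA0 i) (hB0 i)
    (hmid i)
  have hT := fun i => alg_T (mass_pos (hAr i) (hA0 i)) (mass_pos (hBr i) (hB0 i)) hr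
    (chi_integral_nonneg (hA i) (hAr i)) (chi_integral_le (hAr i))
    (chi_integral_nonneg (hB i) (hBr i)) (chi_integral_le (hBr i))
  have sa := Finset.sum_le_sum fun i (_ : i ∈ Finset.univ) => ha i
  have sb := Finset.sum_le_sum fun i (_ : i ∈ Finset.univ) => hb i
  have sT := Finset.sum_le_sum fun i (_ : i ∈ Finset.univ) => hT i
  simp only [Finset.sum_add_distrib, Finset.sum_sub_distrib, ← Finset.sum_div, ← Finset.mul_sum]
    at sa sb sT
  rw [hXA, hXB] at sT
  set SP := ∑ i, (mass (B i) * (∫ x in A i, chi r x) + mass (A i) * (∫ x in B i, chi r x))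
    / (mass (A i) + mass (B i)) with hSP
  set SE := ∑ i, (mass (B i) - mass (A i)) ^ 2 / hmean (mass (A i)) (mass (B i)) with hSE
  set SD := ∑ i, hmean (mass (A i)) (mass (B i)) *
    ((∫ x in B i, chi r x) / mass (B i) - (∫ x in A i, chi r x) / mass (A i)) ^ 2 with hSD
  have e1 : ∑ i, hmean (mass (A i)) (mass (B i)) / 8 * ‖bary (B i) - bary (A i)‖ ^ 2
      = (∑ i, hmean (mass (A i)) (mass (B i)) * ‖bary (B i) - bary (A i)‖ ^ 2) / 8 := by
    rw [Finset.sum_div]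
    apply Finset.sum_congr rfl
    intro i _
    ring
  rw [e1] at sa
  have e2 : SD / (8 * r ^ 2) = 2 * (SD / (16 * r ^ 2)) := by
    field_simp
    ring
  rw [e2] at sb
  linarith

end Vale.Agent.Lib.P074u.SK7
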