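import Vale.Agent.Lib.P074u.PLDefs

/-!
An additive consequence of the midpoint Prekopa-Leindler inequality, with a free constant.
-/

open MeasureTheory Set
open scoped ENNReal

namespace Vale.Agent.Lib.P074u.SK7

theorem ofReal_integral_le_lintegral_ofReal {α : Type*} [MeasurableSpace α] {μ : Measure α}
    {f : α → ℝ} (hf : Integrable f μ) :
    ENNReal.ofReal (∫ x, f x ∂μ) ≤ ∫⁻ x, ENNReal.ofReal (f x) ∂μ := by
  apply ENNReal.ofReal_le_of_le_toReal
  rw [integral_eq_lintegral_pos_part_sub_lintegral_neg_part hf]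
  have : 0 ≤ (∫⁻ a, ENNReal.ofReal (-f a) ∂μ).toReal := ENNReal.toReal_nonneg
  linarith

variable {V : Type*} [AddCommGroup V] [Module ℝ V] [MeasurableSpace V] {μ : Measure V}

/-- Additive form: if `(u x + v z) / 2 ≤ h (midpoint)` for `x ∈ A`, `z ∈ B`, with midpoints in `C`,
then a weighted mean of the integrals of `u` and `v` is at most the integral of `h` on `C`. -/
theorem pl_additive (hPL : PLHalf V μ) {A B C : Set V} (hA : MeasurableSet A)
    (hB : MeasurableSet B) (hC : MeasurableSet C)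
    (hAfin : μ A ≠ ∞) (hBfin : μ B ≠ ∞) (hA0 : μ A ≠ 0) (hB0 : μ B ≠ 0)
    {u v h : V → ℝ} (hum : Measurable u) (hvm : Measurable v) (hhm : Measurable h)
    (hu : IntegrableOn u A μ) (hv : IntegrableOn v B μ) (hh : IntegrableOn h C μ)
    (hh0 : ∀ x ∈ C, 0 ≤ h x)
    (hmid : ∀ x ∈ A, ∀ z ∈ B, (1 / 2 : ℝ) • (x + z) ∈ C ∧
      (u x + v z) / 2 ≤ h ((1 / 2 : ℝ) • (x + z))) :
    ((μ B).toReal * ∫ x in A, u x ∂μ + (μ A).toReal * ∫ x in B, v x ∂μ)
      / ((μ A).toReal + (μ B).toReal) ≤ ∫ x in C, h x ∂μ := by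
  set m : ℝ := (μ A).toReal with hm_def
  set n : ℝ := (μ B).toReal with hn_def
  have hm : 0 < m := ENNReal.toReal_pos hA0 hAfin
  have hn : 0 < n := ENNReal.toReal_pos hB0 hBfin
  set U : ℝ := ∫ x in A, u x ∂μ with hU_def
  set W : ℝ := ∫ x in B, v x ∂μ with hW_def
  set a : ℝ := (U - W) / (m + n) with ha_def
  set I : ℝ := (n * U + m * W) / (m + n) with hI_def
  have hJ0 : 0 ≤ ∫ x in C, h x ∂μ := setIntegral_nonneg hC hh0
  by_cases hI : I ≤ 0
  · exact hI.trans hJ0
  rw [not_le] at hI
  have hcA : IntegrableOn (fun _ : V => a) A μ := integrableOn_const hAfin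
  have hcB : IntegrableOn (fun _ : V => a) B μ := integrableOn_const hBfin
  have hIA : ∫ x in A, (u x - a) ∂μ = I := by
    rw [integral_sub hu hcA, setIntegral_const, smul_eq_mul]
    change U - m * a = I
    rw [ha_def, hI_def]
    field_simp
    ring
  have hIB : ∫ x in B, (v x + a) ∂μ = I := by
    rw [integral_add hv hcB, setIntegral_const, smul_eq_mul]
    change W + n * a = I
    rw [ha_def, hI_def]
    field_simp
    ring
  have key := hPL (A.indicator fun x => ENNReal.ofReal (u x - a))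
    (B.indicator fun x => ENNReal.ofReal (v x + a)) (C.indicator fun x => ENNReal.ofReal (h x))
    ((hum.sub_const a).ennreal_ofReal.indicator hA)
    ((hvm.add_const a).ennreal_ofReal.indicator hB) (hhm.ennreal_ofReal.indicator hC)
    (by
      intro x z
      by_cases hx : x ∈ A
      · by_cases hz : z ∈ B
        · obtain ⟨h1, h2⟩ := hmid x hx z hz
          rw [indicator_of_mem hx, indicator_of_mem hz, indicator_of_mem h1]
          by_cases hp : u x - a ≤ 0
          · rw [ENNReal.ofReal_eq_zero.mpr hp, zero_mul]; exact zero_le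
          by_cases hq : v z + a ≤ 0
          · rw [ENNReal.ofReal_eq_zero.mpr hq, mul_zero]; exact zero_le
          rw [not_le] at hp hq
          rw [← ENNReal.ofReal_mul hp.le, ← ENNReal.ofReal_pow (hh0 _ h1)]
          apply ENNReal.ofReal_le_ofReal
          have h3 : 0 < (u x + v z) / 2 := by linarith
          have h4 : ((u x + v z) / 2) ^ 2 ≤ h ((1 / 2 : ℝ) • (x + z)) ^ 2 :=
            pow_le_pow_left₀ h3.le h2 2
          nlinarith [sq_nonneg ((u x - a) - (v z + a))]
        · rw [indicator_of_notMem hz, mul_zero]; exact zero_le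
      · rw [indicator_of_notMem hx, zero_mul]; exact zero_le)
  rw [lintegral_indicator hA, lintegral_indicator hB, lintegral_indicator hC] at key
  have h1 : ENNReal.ofReal I ≤ ∫⁻ x in A, ENNReal.ofReal (u x - a) ∂μ := by
    rw [← hIA]
    exact ofReal_integral_le_lintegral_ofReal (hu.sub hcA)
  have h2 : ENNReal.ofReal I ≤ ∫⁻ x in B, ENNReal.ofReal (v x + a) ∂μ := by
    rw [← hIB]
    exact ofReal_integral_le_lintegral_ofReal (hv.add hcB)
  have h3 : ∫⁻ x in C, ENNReal.ofReal (h x) ∂μ = ENNReal.ofReal (∫ x in C, h x ∂μ) := by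
    rw [ofReal_integral_eq_lintegral_ofReal hh]
    exact (ae_restrict_iff' hC).mpr (Filter.Eventually.of_forall hh0)
  rw [h3] at key
  have h4 : ENNReal.ofReal I ^ 2 ≤ ENNReal.ofReal (∫ x in C, h x ∂μ) ^ 2 := by
    rw [sq]
    exact (mul_le_mul' h1 h2).trans key
  have h5 := (ENNReal.pow_le_pow_left_iff (by norm_num)).mp h4
  exact (ENNReal.ofReal_le_ofReal_iff hJ0).mp h5

end Vale.Agent.Lib.P074u.SK7
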