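import Vale.Agent.Lib.P074u.SK7a

/-!
The inequality for one triple of cells `A`, `B`, `C` with `(A + B) / 2 ⊆ C` inside a ball.
-/

open MeasureTheory Set Metric
open scoped ENNReal RealInnerProductSpace

namespace Vale.Agent.Lib.P074u.SK7

/-- The concave weight `(r ^ 2 - |x| ^ 2) / 2`. -/
noncomputable def chi {d : ℕ} (r : ℝ) (x : EuclideanSpace ℝ (Fin d)) : ℝ := (r ^ 2 - ‖x‖ ^ 2) / 2

variable {d : ℕ}

theorem chi_continuous (r : ℝ) : Continuous (chi (d := d) r) := by
  unfold chi
  fun_prop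

theorem chi_nonneg {r : ℝ} {x : EuclideanSpace ℝ (Fin d)} (hx : x ∈ closedBall (0 : EuclideanSpace ℝ (Fin d)) r) :
    0 ≤ chi r x := by
  have h1 : ‖x‖ ≤ r := by simpa using hx
  have h2 : ‖x‖ ^ 2 ≤ r ^ 2 := pow_le_pow_left₀ (norm_nonneg x) h1 2
  unfold chi
  linarith

theorem chi_le (r : ℝ) (x : EuclideanSpace ℝ (Fin d)) : chi r x ≤ r ^ 2 / 2 := by
  unfold chi
  have := sq_nonneg ‖x‖
  linarith

theorem chi_mid (r : ℝ) (x z : EuclideanSpace ℝ (Fin d)) :
    chi r ((1 / 2 : ℝ) • (x + z)) = (chi r x + chi r z) / 2 + ‖z - x‖ ^ 2 / 8 := by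
  unfold chi
  have h1 : ‖(1 / 2 : ℝ) • (x + z)‖ ^ 2 = ‖x + z‖ ^ 2 / 4 := by
    rw [norm_smul, mul_pow]
    norm_num
    ring
  have h2 : ‖x + z‖ ^ 2 + ‖z - x‖ ^ 2 = 2 * (‖x‖ ^ 2 + ‖z‖ ^ 2) := by
    have := parallelogram_law_with_norm ℝ z x
    rw [add_comm x z]
    nlinarith
  rw [h1]
  linarith

theorem integrableOn_of_continuous {q : EuclideanSpace ℝ (Fin d) → ℝ} (hq : Continuous q) {r : ℝ}
    {A : Set (EuclideanSpace ℝ (Fin d))} (hAr : A ⊆ closedBall 0 r) : IntegrableOn q A volume :=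
  (hq.locallyIntegrable.integrableOn_isCompact (isCompact_closedBall 0 r)).mono_set hAr

theorem volume_ne_top_of_subset {r : ℝ} {A : Set (EuclideanSpace ℝ (Fin d))}
    (hAr : A ⊆ closedBall 0 r) : volume A ≠ ∞ :=
  ((measure_mono hAr).trans_lt (isCompact_closedBall 0 r).measure_lt_top).ne

/-- The inequality for one cell, with a general continuous test function `q`. -/
theorem cell_ineq (hPL : PLHalf (EuclideanSpace ℝ (Fin d)) volume) {r : ℝ}
    {A B C : Set (EuclideanSpace ℝ (Fin d))} (hA : MeasurableSet A) (hB : MeasurableSet B)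
    (hC : MeasurableSet C) (hAr : A ⊆ closedBall 0 r) (hBr : B ⊆ closedBall 0 r)
    (hCr : C ⊆ closedBall 0 r) (hA0 : volume A ≠ 0) (hB0 : volume B ≠ 0)
    (hmid : ∀ x ∈ A, ∀ z ∈ B, (1 / 2 : ℝ) • (x + z) ∈ C)
    {q : EuclideanSpace ℝ (Fin d) → ℝ} (hq : Continuous q) {κ : ℝ}
    (hqk : ∀ x ∈ A, ∀ z ∈ B, (q z - q x) / 2 ≤ ‖z - x‖ ^ 2 / 8 + κ) :
    ((volume B).toReal * ((∫ x in A, chi r x) - (∫ x in A, q x) - (volume A).toReal * κ)
      + (volume A).toReal * ((∫ x in B, chi r x) + (∫ x in B, q x) - (volume B).toReal * κ))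
      / ((volume A).toReal + (volume B).toReal) ≤ ∫ x in C, chi r x := by
  have hAfin := volume_ne_top_of_subset hAr
  have hBfin := volume_ne_top_of_subset hBr
  have hχ := chi_continuous (d := d) r
  have hu : Continuous fun x => chi r x - q x - κ := (hχ.sub hq).sub continuous_const
  have hv : Continuous fun x => chi r x + q x - κ := (hχ.add hq).sub continuous_const
  have key := pl_additive hPL hA hB hC hAfin hBfin hA0 hB0 hu.measurable hv.measurable
    hχ.measurable (integrableOn_of_continuous hu hAr) (integrableOn_of_continuous hv hBr)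
    (integrableOn_of_continuous hχ hCr) (fun x hx => chi_nonneg (hCr hx))
    (by
      intro x hx z hz
      refine ⟨hmid x hx z hz, ?_⟩
      rw [chi_mid]
      have := hqk x hx z hz
      linarith)
  have h1 : ∫ x in A, (chi r x - q x - κ) =
      (∫ x in A, chi r x) - (∫ x in A, q x) - (volume A).toReal * κ := by
    have e1 : IntegrableOn (fun x => chi r x - q x) A volume :=
      integrableOn_of_continuous (hχ.sub hq) hAr
    rw [integral_sub e1 (integrableOn_const hAfin), integral_sub (integrableOn_of_continuous hχ hAr)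
      (integrableOn_of_continuous hq hAr), setIntegral_const, smul_eq_mul]
    rfl
  have h2 : ∫ x in B, (chi r x + q x - κ) =
      (∫ x in B, chi r x) + (∫ x in B, q x) - (volume B).toReal * κ := by
    have e1 : IntegrableOn (fun x => chi r x + q x) B volume :=
      integrableOn_of_continuous (hχ.add hq) hBr
    rw [integral_sub e1 (integrableOn_const hBfin), integral_add (integrableOn_of_continuous hχ hBr)
      (integrableOn_of_continuous hq hBr), setIntegral_const, smul_eq_mul]
    rfl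
  rw [h1, h2] at key
  exact key

end Vale.Agent.Lib.P074u.SK7
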