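import Vale.Agent.Lib.P074u.SK7b

/-!
Stability of barycentres of cells under a change of masses (abstract form).
-/

open MeasureTheory Set Metric
open scoped ENNReal RealInnerProductSpace

namespace Vale.Agent.Lib.P074u.SK7

variable {d : ℕ}

/-- Volume of a set as a real number. -/
noncomputable def mass (A : Set (EuclideanSpace ℝ (Fin d))) : ℝ := (volume A).toReal

/-- Barycentre of a set. -/
noncomputable def bary (A : Set (EuclideanSpace ℝ (Fin d))) : EuclideanSpace ℝ (Fin d) :=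
  (mass A)⁻¹ • ∫ x in A, x

/-- Harmonic mean. -/
noncomputable def hmean (m n : ℝ) : ℝ := 2 * m * n / (m + n)

theorem integrableOn_id {r : ℝ} {A : Set (EuclideanSpace ℝ (Fin d))} (hAr : A ⊆ closedBall 0 r) :
    IntegrableOn (fun x : EuclideanSpace ℝ (Fin d) => x) A volume :=
  (continuous_id.locallyIntegrable.integrableOn_isCompact (isCompact_closedBall 0 r)).mono_set hAr

theorem mass_pos {r : ℝ} {A : Set (EuclideanSpace ℝ (Fin d))} (hAr : A ⊆ closedBall 0 r)
    (hA0 : volume A ≠ 0) : 0 < mass A :=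
  ENNReal.toReal_pos hA0 (volume_ne_top_of_subset hAr)

theorem mom_eq {A : Set (EuclideanSpace ℝ (Fin d))} (hm : 0 < mass A) :
    ∫ x in A, x = mass A • bary A := by
  unfold bary
  rw [smul_smul, mul_inv_cancel₀ hm.ne', one_smul]

/-- First test function: a linear form. -/
theorem cell_a (hPL : PLHalf (EuclideanSpace ℝ (Fin d)) volume) {r : ℝ}
    {A B C : Set (EuclideanSpace ℝ (Fin d))} (hA : MeasurableSet A) (hB : MeasurableSet B)
    (hC : MeasurableSet C) (hAr : A ⊆ closedBall 0 r) (hBr : B ⊆ closedBall 0 r)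
    (hCr : C ⊆ closedBall 0 r) (hA0 : volume A ≠ 0) (hB0 : volume B ≠ 0)
    (hmid : ∀ x ∈ A, ∀ z ∈ B, (1 / 2 : ℝ) • (x + z) ∈ C) :
    (mass B * (∫ x in A, chi r x) + mass A * (∫ x in B, chi r x)) / (mass A + mass B)
      + hmean (mass A) (mass B) / 8 * ‖bary B - bary A‖ ^ 2 ≤ ∫ x in C, chi r x := by
  have hm := mass_pos hAr hA0
  have hn := mass_pos hBr hB0
  set lam : EuclideanSpace ℝ (Fin d) := (1 / 2 : ℝ) • (bary B - bary A) with hlam
  have hq : Continuous fun x : EuclideanSpace ℝ (Fin d) => ⟪lam, x⟫ :=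
    continuous_const.inner continuous_id
  have key := cell_ineq hPL hA hB hC hAr hBr hCr hA0 hB0 hmid hq (κ := ‖lam‖ ^ 2 / 2) (by
    intro x _ z _
    rw [← inner_sub_right]
    have h1 : ⟪lam, z - x⟫ ≤ ‖lam‖ * ‖z - x‖ := real_inner_le_norm _ _
    nlinarith [sq_nonneg (‖z - x‖ / 2 - ‖lam‖)])
  rw [integral_inner (integrableOn_id hAr), integral_inner (integrableOn_id hBr), mom_eq hm,
    mom_eq hn, inner_smul_right, inner_smul_right] at key
  have h1 : ⟪lam, bary B⟫ - ⟪lam, bary A⟫ = ‖bary B - bary A‖ ^ 2 / 2 := by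
    rw [← inner_sub_right, hlam, inner_smul_left, real_inner_self_eq_norm_sq]
    simp
    ring
  have h2 : ‖lam‖ ^ 2 = ‖bary B - bary A‖ ^ 2 / 4 := by
    rw [hlam, norm_smul, mul_pow]
    norm_num
    ring
  rw [h2] at key
  change ((mass B) * ((∫ x in A, chi r x) - mass A * ⟪lam, bary A⟫
      - mass A * (‖bary B - bary A‖ ^ 2 / 4 / 2))
      + mass A * ((∫ x in B, chi r x) + mass B * ⟪lam, bary B⟫
      - mass B * (‖bary B - bary A‖ ^ 2 / 4 / 2))) / (mass A + mass B) ≤ _ at key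
  refine le_trans (le_of_eq ?_) key
  have h3 : ⟪lam, bary B⟫ = ⟪lam, bary A⟫ + ‖bary B - bary A‖ ^ 2 / 2 := by linarith
  rw [h3]
  unfold hmean
  field_simp
  ring

/-- Second test function: a multiple of `chi`. -/
theorem cell_b (hPL : PLHalf (EuclideanSpace ℝ (Fin d)) volume) {r : ℝ} (hr : 0 < r)
    {A B C : Set (EuclideanSpace ℝ (Fin d))} (hA : MeasurableSet A) (hB : MeasurableSet B)
    (hC : MeasurableSet C) (hAr : A ⊆ closedBall 0 r) (hBr : B ⊆ closedBall 0 r)
    (hCr : C ⊆ closedBall 0 r) (hA0 : volume A ≠ 0) (hB0 : volume B ≠ 0)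
    (hmid : ∀ x ∈ A, ∀ z ∈ B, (1 / 2 : ℝ) • (x + z) ∈ C) :
    (mass B * (∫ x in A, chi r x) + mass A * (∫ x in B, chi r x)) / (mass A + mass B)
      + hmean (mass A) (mass B) *
        ((∫ x in B, chi r x) / mass B - (∫ x in A, chi r x) / mass A) ^ 2 / (8 * r ^ 2)
      ≤ ∫ x in C, chi r x := by
  have hm := mass_pos hAr hA0
  have hn := mass_pos hBr hB0
  set Dc : ℝ := (∫ x in B, chi r x) / mass B - (∫ x in A, chi r x) / mass A with hDc
  set θ : ℝ := Dc / (2 * r ^ 2) with hθ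
  have hq : Continuous fun x : EuclideanSpace ℝ (Fin d) => θ * chi r x :=
    continuous_const.mul (chi_continuous r)
  have key := cell_ineq hPL hA hB hC hAr hBr hCr hA0 hB0 hmid hq (κ := θ ^ 2 * r ^ 2 / 2) (by
    intro x hx z hz
    have hx' : ‖x‖ ≤ r := by simpa using hAr hx
    have hz' : ‖z‖ ≤ r := by simpa using hBr hz
    have h1 : |‖x‖ - ‖z‖| ≤ ‖z - x‖ := by
      rw [norm_sub_rev]; exact abs_norm_sub_norm_le x z
    have h2 : θ * (‖x‖ - ‖z‖) * (‖x‖ + ‖z‖) ≤ |θ| * ‖z - x‖ * (2 * r) := by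
      calc θ * (‖x‖ - ‖z‖) * (‖x‖ + ‖z‖) ≤ |θ * (‖x‖ - ‖z‖)| * (‖x‖ + ‖z‖) :=
            mul_le_mul_of_nonneg_right (le_abs_self _) (by positivity)
        _ = |θ| * |‖x‖ - ‖z‖| * (‖x‖ + ‖z‖) := by rw [abs_mul]
        _ ≤ |θ| * ‖z - x‖ * (2 * r) := by
            apply mul_le_mul (mul_le_mul_of_nonneg_left h1 (abs_nonneg _)) (by linarith)
              (by positivity) (by positivity)
    unfold chi
    nlinarith [sq_nonneg (‖z - x‖ / 2 - |θ| * r), sq_abs θ])
  rw [integral_const_mul, integral_const_mul] at key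
  change ((mass B) * ((∫ x in A, chi r x) - θ * (∫ x in A, chi r x)
      - mass A * (θ ^ 2 * r ^ 2 / 2))
      + mass A * ((∫ x in B, chi r x) + θ * (∫ x in B, chi r x)
      - mass B * (θ ^ 2 * r ^ 2 / 2))) / (mass A + mass B) ≤ _ at key
  refine le_trans (le_of_eq ?_) key
  have h3 : (∫ x in B, chi r x) = mass B * (Dc + (∫ x in A, chi r x) / mass A) := by
    rw [hDc]; field_simp; ring
  rw [h3, hθ]
  unfold hmean
  field_simp
  ring

end Vale.Agent.Lib.P074u.SK7
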