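import Mathlib
import Vale.Agent.Lib.P074u.PLDefs

open MeasureTheory Set
open scoped ENNReal

namespace Vale.Agent.Lib.P074u

variable {X : Type*} [NormedAddCommGroup X] [InnerProductSpace ℝ X] [MeasurableSpace X]
  [BorelSpace X]

/-- The concave quadratic weight. -/
noncomputable def chi (r : ℝ) (x : X) : ℝ := (r ^ 2 - ‖x‖ ^ 2) / 2

omit [MeasurableSpace X] [BorelSpace X] in
theorem chi_mid (r : ℝ) (x z : X) :
    chi r ((1 / 2 : ℝ) • (x + z)) = (chi r x + chi r z) / 2 + ‖z - x‖ ^ 2 / 8 := by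
  unfold chi
  have h1 : ‖(1 / 2 : ℝ) • (x + z)‖ ^ 2 = ‖x + z‖ ^ 2 / 4 := by
    rw [norm_smul, mul_pow]
    norm_num
    ring
  have h2 : ‖x + z‖ ^ 2 + ‖z - x‖ ^ 2 = 2 * (‖x‖ ^ 2 + ‖z‖ ^ 2) := by
    have := parallelogram_law_with_norm ℝ z x
    rw [add_comm x z]
    nlinarith
  rw [h1]
  linarith

omit [InnerProductSpace ℝ X] in
theorem chi_measurable (r : ℝ) : Measurable (chi r : X → ℝ) := by
  unfold chi
  fun_prop

omit [InnerProductSpace ℝ X] [MeasurableSpace X] [BorelSpace X] in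
theorem chi_nonneg (r : ℝ) (x : X) (hx : x ∈ Metric.closedBall (0 : X) r) : 0 ≤ chi r x := by
  unfold chi
  have h1 : ‖x‖ ≤ r := by simpa using hx
  have h2 : 0 ≤ ‖x‖ := norm_nonneg x
  nlinarith

omit [InnerProductSpace ℝ X] [MeasurableSpace X] [BorelSpace X] in
theorem chi_le (r : ℝ) (x : X) : chi r x ≤ r ^ 2 / 2 := by
  unfold chi
  have h2 : 0 ≤ ‖x‖ := norm_nonneg x
  nlinarith

theorem ofReal_integral_le {α : Type*} [MeasurableSpace α] (ν : Measure α) (f : α → ℝ)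
    (hf : Integrable f ν) : ENNReal.ofReal (∫ x, f x ∂ν) ≤ ∫⁻ x, ENNReal.ofReal (f x) ∂ν := by
  have h1 : Integrable (fun x => max (f x) 0) ν := hf.pos_part
  have h2 : ∫ x, f x ∂ν ≤ ∫ x, max (f x) 0 ∂ν :=
    integral_mono hf h1 (fun x => le_max_left _ _)
  have h3 := ofReal_integral_eq_lintegral_ofReal h1 (ae_of_all _ (fun x => le_max_right _ _))
  calc ENNReal.ofReal (∫ x, f x ∂ν) ≤ ENNReal.ofReal (∫ x, max (f x) 0 ∂ν) :=
        ENNReal.ofReal_le_ofReal h2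
    _ = ∫⁻ x, ENNReal.ofReal (max (f x) 0) ∂ν := h3
    _ = ∫⁻ x, ENNReal.ofReal (f x) ∂ν := by
        congr 1
        funext x
        rcases le_total (f x) 0 with h | h
        · rw [max_eq_right h, ENNReal.ofReal_of_nonpos h]; simp
        · rw [max_eq_left h]

theorem intOn_of_bdd (μ : Measure X) (S : Set X) (hS : MeasurableSet S) (hSf : μ S ≠ ⊤)
    (f : X → ℝ) (hf : Measurable f) (M : ℝ) (hM : ∀ x ∈ S, |f x| ≤ M) : IntegrableOn f S μ := by
  apply Measure.integrableOn_of_bounded hSf hf.aestronglyMeasurable (M := M)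
  rw [ae_restrict_iff' hS]
  exact ae_of_all _ (fun x hx => by simpa using hM x hx)

theorem chi_intOn (μ : Measure X) (r : ℝ) (S : Set X) (hS : MeasurableSet S) (hSf : μ S ≠ ⊤)
    (hSr : S ⊆ Metric.closedBall 0 r) : IntegrableOn (chi r) S μ := by
  apply intOn_of_bdd μ S hS hSf _ (chi_measurable r) (r ^ 2 / 2)
  intro x hx
  rw [abs_of_nonneg (chi_nonneg r x (hSr hx))]
  exact chi_le r x

/-- Prekopa-Leindler on one cell, abstract form. -/
theorem cell_core (μ : Measure X) (hPL : PLHalf X μ) (r : ℝ) (A B C : Set X)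
    (hA : MeasurableSet A) (hB : MeasurableSet B) (hC : MeasurableSet C)
    (hCr : C ⊆ Metric.closedBall 0 r) (hCf : μ C ≠ ⊤)
    (hmid : ∀ x ∈ A, ∀ z ∈ B, (1 / 2 : ℝ) • (x + z) ∈ C)
    (gm gp : X → ℝ) (hgm : Measurable gm) (hgp : Measurable gp)
    (gmI : IntegrableOn gm A μ) (gpI : IntegrableOn gp B μ)
    (hpt : ∀ x ∈ A, ∀ z ∈ B, (gm x + gp z) / 2 ≤ chi r ((1 / 2 : ℝ) • (x + z)))
    (I : ℝ) (e1 : ∫ x in A, gm x ∂μ = I) (e2 : ∫ x in B, gp x ∂μ = I) :
    I ≤ ∫ x in C, chi r x ∂μ := by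
  have hC0 : 0 ≤ ∫ x in C, chi r x ∂μ :=
    setIntegral_nonneg hC (fun x hx => chi_nonneg r x (hCr hx))
  by_cases hI0 : I ≤ 0
  · exact hI0.trans hC0
  rw [not_le] at hI0
  have iC := chi_intOn μ r C hC hCf hCr
  have pl := hPL (A.indicator (fun x => ENNReal.ofReal (gm x)))
    (B.indicator (fun x => ENNReal.ofReal (gp x)))
    (C.indicator (fun x => ENNReal.ofReal (chi r x)))
    (hgm.ennreal_ofReal.indicator hA) (hgp.ennreal_ofReal.indicator hB)
    ((chi_measurable r).ennreal_ofReal.indicator hC)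
    (by
      intro x z
      by_cases hx : x ∈ A
      swap
      · rw [indicator_of_notMem hx]; simp
      by_cases hz : z ∈ B
      swap
      · rw [indicator_of_notMem hz]; simp
      rw [indicator_of_mem hx, indicator_of_mem hz, indicator_of_mem (hmid x hx z hz)]
      have h4 := hpt x hx z hz
      by_cases hu0 : gm x ≤ 0
      · rw [ENNReal.ofReal_of_nonpos hu0]; simp
      by_cases hv0 : gp z ≤ 0
      · rw [ENNReal.ofReal_of_nonpos hv0]; simp
      rw [not_le] at hu0 hv0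
      have h5 : 0 ≤ chi r ((1 / 2 : ℝ) • (x + z)) := by linarith
      rw [← ENNReal.ofReal_mul hu0.le, ← ENNReal.ofReal_pow h5]
      apply ENNReal.ofReal_le_ofReal
      nlinarith [sq_nonneg (gm x - gp z)])
  rw [lintegral_indicator hA, lintegral_indicator hB, lintegral_indicator hC] at pl
  have l1 := ofReal_integral_le (μ.restrict A) _ gmI
  have l2 := ofReal_integral_le (μ.restrict B) _ gpI
  rw [e1] at l1
  rw [e2] at l2
  have l3 : ∫⁻ x in C, ENNReal.ofReal (chi r x) ∂μ = ENNReal.ofReal (∫ x in C, chi r x ∂μ) := by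
    rw [ofReal_integral_eq_lintegral_ofReal iC]
    rw [Filter.EventuallyLE, ae_restrict_iff' hC]
    exact ae_of_all _ (fun x hx => chi_nonneg r x (hCr hx))
  rw [l3] at pl
  have l4 : ENNReal.ofReal I * ENNReal.ofReal I ≤ ENNReal.ofReal (∫ x in C, chi r x ∂μ) ^ 2 :=
    (mul_le_mul' l1 l2).trans pl
  rw [← ENNReal.ofReal_mul hI0.le, ← ENNReal.ofReal_pow hC0,
    ENNReal.ofReal_le_ofReal_iff (by positivity)] at l4
  nlinarith

theorem cell_alg (mA mB XA XB qA qB L I a : ℝ) (hA0 : 0 < mA) (hB0 : 0 < mB)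
    (hI : I = mA * mB / (mA + mB) * (XA / mA + XB / mB + qB / mB - qA / mA - L ^ 2))
    (ha : a = (XA - qA - I) / mA - L ^ 2 / 2) :
    XA - qA - mA * (a + L ^ 2 / 2) = I ∧ XB + qB + mB * (a - L ^ 2 / 2) = I := by
  have h3 : mA * ((XA - qA - I) / mA) = XA - qA - I := by field_simp
  constructor
  · rw [ha]
    have : mA * ((XA - qA - I) / mA - L ^ 2 / 2 + L ^ 2 / 2) = mA * ((XA - qA - I) / mA) := by ring
    rw [this, h3]
    ring
  · have hI'' : I * (mA + mB) = mB * XA + mA * XB + mA * qB - mB * qA - mA * mB * L ^ 2 := by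
      rw [hI]
      field_simp
    have : mA * (XB + qB + mB * (a - L ^ 2 / 2)) = mA * I := by
      rw [ha]
      calc mA * (XB + qB + mB * ((XA - qA - I) / mA - L ^ 2 / 2 - L ^ 2 / 2))
          = mA * XB + mA * qB + mB * (mA * ((XA - qA - I) / mA)) - mA * mB * L ^ 2 := by ring
        _ = mA * I := by rw [h3]; linarith
    exact mul_left_cancel₀ hA0.ne' this

/-- The inequality on one cell. -/
theorem cell_ineq (μ : Measure X) (hPL : PLHalf X μ) (r : ℝ) (A B C : Set X)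
    (hA : MeasurableSet A) (hB : MeasurableSet B) (hC : MeasurableSet C)
    (hAr : A ⊆ Metric.closedBall 0 r) (hBr : B ⊆ Metric.closedBall 0 r)
    (hCr : C ⊆ Metric.closedBall 0 r)
    (hAf : μ A ≠ ⊤) (hBf : μ B ≠ ⊤) (hCf : μ C ≠ ⊤)
    (hmid : ∀ x ∈ A, ∀ z ∈ B, (1 / 2 : ℝ) • (x + z) ∈ C)
    (hA0 : 0 < (μ A).toReal) (hB0 : 0 < (μ B).toReal)
    (q : X → ℝ) (hq : Measurable q) (Q : ℝ) (hqA : ∀ x ∈ A, |q x| ≤ Q) (hqB : ∀ x ∈ B, |q x| ≤ Q)
    (L : ℝ) (hL : ∀ x ∈ A, ∀ z ∈ B, q z - q x ≤ L * ‖z - x‖) :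
    (μ A).toReal * (μ B).toReal / ((μ A).toReal + (μ B).toReal) *
      ((∫ x in A, chi r x ∂μ) / (μ A).toReal + (∫ x in B, chi r x ∂μ) / (μ B).toReal
        + (∫ x in B, q x ∂μ) / (μ B).toReal - (∫ x in A, q x ∂μ) / (μ A).toReal - L ^ 2)
      ≤ ∫ x in C, chi r x ∂μ := by
  obtain ⟨a, ha⟩ : ∃ a : ℝ, a = ((∫ x in A, chi r x ∂μ) - (∫ x in A, q x ∂μ) -
      (μ A).toReal * (μ B).toReal / ((μ A).toReal + (μ B).toReal) *
      ((∫ x in A, chi r x ∂μ) / (μ A).toReal + (∫ x in B, chi r x ∂μ) / (μ B).toReal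
        + (∫ x in B, q x ∂μ) / (μ B).toReal - (∫ x in A, q x ∂μ) / (μ A).toReal - L ^ 2))
        / (μ A).toReal - L ^ 2 / 2 := ⟨_, rfl⟩
  obtain ⟨al1, al2⟩ := cell_alg _ _ _ _ _ _ L _ a hA0 hB0 rfl ha
  have iA := chi_intOn μ r A hA hAf hAr
  have iB := chi_intOn μ r B hB hBf hBr
  have jA := intOn_of_bdd μ A hA hAf q hq Q hqA
  have jB := intOn_of_bdd μ B hB hBf q hq Q hqB
  have cA : ∀ c : ℝ, IntegrableOn (fun _ : X => c) A μ := fun c => integrableOn_const hAf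
  have cB : ∀ c : ℝ, IntegrableOn (fun _ : X => c) B μ := fun c => integrableOn_const hBf
  have iAq : IntegrableOn (fun x => chi r x - q x) A μ := iA.sub jA
  have iBq : IntegrableOn (fun x => chi r x + q x) B μ := iB.add jB
  have gmI : IntegrableOn (fun x => chi r x - q x - (a + L ^ 2 / 2)) A μ := iAq.sub (cA _)
  have gpI : IntegrableOn (fun x => chi r x + q x + (a - L ^ 2 / 2)) B μ := iBq.add (cB _)
  apply cell_core μ hPL r A B C hA hB hC hCr hCf hmid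
    (fun x => chi r x - q x - (a + L ^ 2 / 2)) (fun x => chi r x + q x + (a - L ^ 2 / 2))
    (((chi_measurable r).sub hq).sub measurable_const)
    (((chi_measurable r).add hq).add measurable_const) gmI gpI
  · intro x hx z hz
    have h1 := chi_mid r x z
    have h2 := hL x hx z hz
    have h3 : L * ‖z - x‖ ≤ ‖z - x‖ ^ 2 / 4 + L ^ 2 := by nlinarith [sq_nonneg (‖z - x‖ / 2 - L)]
    rw [h1]
    linarith
  · rw [integral_sub iAq (cA _), integral_sub iA jA, setIntegral_const]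
    simp only [Measure.real, smul_eq_mul]
    exact al1
  · rw [integral_add iBq (cB _), integral_add iB jB, setIntegral_const]
    simp only [Measure.real, smul_eq_mul]
    exact al2

theorem alg_p2 (mA mB aA aB r h : ℝ) (hA : 0 < mA) (hB : 0 < mB) (hr : 0 < r)
    (hh : h = mA * mB / (mA + mB)) (a0 : 0 ≤ aA) (b0 : 0 ≤ aB)
    (a1 : aA ≤ r ^ 2 / 2) (b1 : aB ≤ r ^ 2 / 2) :
    (mA * aA + mB * aB) / 2 - h * (aA + aB)
      ≤ 3 / 8 * r ^ 2 * ((mB - mA) ^ 2 / (2 * h)) + h * (aB - aA) ^ 2 / (8 * r ^ 2) := by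
  have hs : 0 < mA + mB := by positivity
  have hpos : 0 < h := by rw [hh]; positivity
  have hhs : h * (mA + mB) = mA * mB := by rw [hh]; field_simp
  have h4 : 4 * h ≤ mA + mB := by
    have : 4 * h * (mA + mB) ≤ (mA + mB) * (mA + mB) := by nlinarith [sq_nonneg (mA - mB)]
    exact le_of_mul_le_mul_right this hs
  have e : (mA * aA + mB * aB) / 2 - h * (aA + aB)
      = (mB - mA) ^ 2 * (aA + aB) / (4 * (mA + mB)) + (mB - mA) * (aB - aA) / 4 := by
    rw [hh]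
    field_simp
    ring
  have t1 : (mB - mA) ^ 2 * (aA + aB) / (4 * (mA + mB)) ≤ (mB - mA) ^ 2 * r ^ 2 / (16 * h) := by
    rw [div_le_div_iff₀ (by positivity) (by positivity)]
    have h5 : (aA + aB) * (16 * h) ≤ r ^ 2 * (4 * (mA + mB)) :=
      mul_le_mul (by linarith) (by linarith) (by positivity) (by positivity)
    have h6 : 0 ≤ (mB - mA) ^ 2 := sq_nonneg _
    nlinarith
  have t2 : (mB - mA) * (aB - aA) / 4
      ≤ r ^ 2 * (mB - mA) ^ 2 / (8 * h) + h * (aB - aA) ^ 2 / (8 * r ^ 2) := by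
    have : r ^ 2 * (mB - mA) ^ 2 / (8 * h) + h * (aB - aA) ^ 2 / (8 * r ^ 2)
        - (mB - mA) * (aB - aA) / 4
        = (r ^ 2 * (mB - mA) - h * (aB - aA)) ^ 2 / (8 * h * r ^ 2) := by
      field_simp
      ring
    have h7 : 0 ≤ (r ^ 2 * (mB - mA) - h * (aB - aA)) ^ 2 / (8 * h * r ^ 2) := by positivity
    linarith
  have e2 : 3 / 8 * r ^ 2 * ((mB - mA) ^ 2 / (2 * h))
      = (mB - mA) ^ 2 * r ^ 2 / (16 * h) + r ^ 2 * (mB - mA) ^ 2 / (8 * h) := by
    field_simp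
    ring
  rw [e, e2]
  linarith

/-- The summation algebra. -/
theorem alg_sum {ι : Type*} [Fintype ι] (r : ℝ) (hr : 0 < r) (mA mB aA aB Xc β h : ι → ℝ) (Xt : ℝ)
    (hA : ∀ i, 0 < mA i) (hB : ∀ i, 0 < mB i)
    (hh : ∀ i, h i = mA i * mB i / (mA i + mB i))
    (a0 : ∀ i, 0 ≤ aA i) (b0 : ∀ i, 0 ≤ aB i)
    (a1 : ∀ i, aA i ≤ r ^ 2 / 2) (b1 : ∀ i, aB i ≤ r ^ 2 / 2)
    (sA : ∑ i, mA i * aA i = Xt) (sB : ∑ i, mB i * aB i = Xt) (sC : ∑ i, Xc i ≤ Xt)
    (h1 : ∀ i, ∀ θ : ℝ, h i * (aA i + aB i + θ * (aB i - aA i) - (θ * r) ^ 2) ≤ Xc i)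
    (h2 : ∀ i, ∀ lam : ℝ, h i * (aA i + aB i + lam * β i - lam ^ 2) ≤ Xc i) :
    ∑ i, (2 * h i) * β i ^ 2 ≤ 6 * r ^ 2 * ∑ i, (mB i - mA i) ^ 2 / (2 * h i) := by
  have P1 : ∀ i, h i * (aA i + aB i) + 2 * (h i * (aB i - aA i) ^ 2 / (8 * r ^ 2)) ≤ Xc i := by
    intro i
    have := h1 i ((aB i - aA i) / (2 * r ^ 2))
    have e : h i * (aA i + aB i + (aB i - aA i) / (2 * r ^ 2) * (aB i - aA i)
        - ((aB i - aA i) / (2 * r ^ 2) * r) ^ 2)
        = h i * (aA i + aB i) + 2 * (h i * (aB i - aA i) ^ 2 / (8 * r ^ 2)) := by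
      field_simp
      ring
    rw [e] at this
    exact this
  have P2 := fun i => alg_p2 (mA i) (mB i) (aA i) (aB i) r (h i) (hA i) (hB i) hr (hh i) (a0 i)
    (b0 i) (a1 i) (b1 i)
  have P3 : ∀ i, h i * (aA i + aB i) + h i * β i ^ 2 / 4 ≤ Xc i := by
    intro i
    have := h2 i (β i / 2)
    have e : h i * (aA i + aB i + β i / 2 * β i - (β i / 2) ^ 2)
        = h i * (aA i + aB i) + h i * β i ^ 2 / 4 := by ring
    rw [e] at this
    exact this
  have S1 := Finset.sum_le_sum (fun i (_ : i ∈ Finset.univ) => P1 i)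
  have S2 := Finset.sum_le_sum (fun i (_ : i ∈ Finset.univ) => P2 i)
  have S3 := Finset.sum_le_sum (fun i (_ : i ∈ Finset.univ) => P3 i)
  simp only [Finset.sum_add_distrib, Finset.sum_sub_distrib, ← Finset.mul_sum,
    ← Finset.sum_div] at S1 S2 S3
  rw [sA, sB] at S2
  simp only [← Finset.mul_sum, mul_assoc]
  nlinarith

theorem sum_setIntegral_eq {ι : Type*} [Fintype ι] (μ : Measure X) (K : Set X)
    (S : ι → Set X) (hSm : ∀ i, MeasurableSet (S i)) (hSK : ∀ i, S i ⊆ K)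
    (hSd : ∀ i j, i ≠ j → AEDisjoint μ (S i) (S j)) (hSc : μ (K \ ⋃ i, S i) = 0)
    (f : X → ℝ) (hf : IntegrableOn f K μ) :
    ∑ i, ∫ x in S i, f x ∂μ = ∫ x in K, f x ∂μ := by
  have hsub : (⋃ i, S i) ⊆ K := iUnion_subset hSK
  have h1 : ∫ x in ⋃ i, S i, f x ∂μ = ∑' i, ∫ x in S i, f x ∂μ :=
    integral_iUnion_ae (fun i => (hSm i).nullMeasurableSet) (fun i j hij => hSd i j hij)
      (hf.mono_set hsub)
  rw [tsum_fintype] at h1
  rw [← h1]
  apply setIntegral_congr_set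
  rw [ae_eq_set]
  refine ⟨?_, hSc⟩
  rw [sdiff_eq_empty.mpr hsub]
  simp

theorem sum_setIntegral_le {ι : Type*} [Fintype ι] (μ : Measure X) (K : Set X)
    (hK : MeasurableSet K)
    (S : ι → Set X) (hSm : ∀ i, MeasurableSet (S i)) (hSK : ∀ i, S i ⊆ K)
    (hSd : ∀ i j, i ≠ j → AEDisjoint μ (S i) (S j))
    (f : X → ℝ) (hf : IntegrableOn f K μ) (hf0 : ∀ x ∈ K, 0 ≤ f x) :
    ∑ i, ∫ x in S i, f x ∂μ ≤ ∫ x in K, f x ∂μ := by
  have hsub : (⋃ i, S i) ⊆ K := iUnion_subset hSK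
  have h1 : ∫ x in ⋃ i, S i, f x ∂μ = ∑' i, ∫ x in S i, f x ∂μ :=
    integral_iUnion_ae (fun i => (hSm i).nullMeasurableSet) (fun i j hij => hSd i j hij)
      (hf.mono_set hsub)
  rw [tsum_fintype] at h1
  rw [← h1]
  apply setIntegral_mono_set hf
  · rw [Filter.EventuallyLE, ae_restrict_iff' hK]
    exact ae_of_all _ hf0
  · exact (LE.le.eventuallyLE hsub)

/-- Stability of the first moments of the cells: two families of cells `A i`, `B i` of `K` whose
midpoints lie in a third almost disjoint family `C i`. -/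
theorem sk_chi {ι : Type*} [Fintype ι] (μ : Measure X) (hPL : PLHalf X μ) (r : ℝ) (hr : 0 < r)
    (K : Set X) (hK : MeasurableSet K) (hKr : K ⊆ Metric.closedBall 0 r) (hKf : μ K ≠ ⊤)
    (A B C : ι → Set X)
    (hAm : ∀ i, MeasurableSet (A i)) (hBm : ∀ i, MeasurableSet (B i))
    (hCm : ∀ i, MeasurableSet (C i))
    (hAK : ∀ i, A i ⊆ K) (hBK : ∀ i, B i ⊆ K) (hCK : ∀ i, C i ⊆ K)
    (hAd : ∀ i j, i ≠ j → AEDisjoint μ (A i) (A j))
    (hBd : ∀ i j, i ≠ j → AEDisjoint μ (B i) (B j))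
    (hCd : ∀ i j, i ≠ j → AEDisjoint μ (C i) (C j))
    (hAc : μ (K \ ⋃ i, A i) = 0) (hBc : μ (K \ ⋃ i, B i) = 0)
    (hmid : ∀ i, ∀ x ∈ A i, ∀ z ∈ B i, (1 / 2 : ℝ) • (x + z) ∈ C i)
    (hA0 : ∀ i, 0 < (μ (A i)).toReal) (hB0 : ∀ i, 0 < (μ (B i)).toReal)
    (l : ι → X → ℝ) (hlm : ∀ i, Measurable (l i)) (hlb : ∀ i, ∀ x ∈ K, |l i x| ≤ r)
    (hlL : ∀ i, ∀ x ∈ A i, ∀ z ∈ B i, |l i z - l i x| ≤ ‖z - x‖) :
    ∑ i, (2 * ((μ (A i)).toReal * (μ (B i)).toReal / ((μ (A i)).toReal + (μ (B i)).toReal))) *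
        ((∫ x in B i, l i x ∂μ) / (μ (B i)).toReal - (∫ x in A i, l i x ∂μ) / (μ (A i)).toReal) ^ 2
      ≤ 6 * r ^ 2 * ∑ i, ((μ (B i)).toReal - (μ (A i)).toReal) ^ 2 /
        (2 * ((μ (A i)).toReal * (μ (B i)).toReal / ((μ (A i)).toReal + (μ (B i)).toReal))) := by
  have fin : ∀ S : Set X, S ⊆ K → μ S ≠ ⊤ := fun S hS => ne_top_of_le_ne_top hKf (measure_mono hS)
  have iK := chi_intOn μ r K hK hKf hKr
  have avg0 : ∀ S : Set X, MeasurableSet S → S ⊆ K → 0 ≤ (∫ x in S, chi r x ∂μ) / (μ S).toReal := by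
    intro S hS hSK
    apply div_nonneg _ ENNReal.toReal_nonneg
    exact setIntegral_nonneg hS (fun x hx => chi_nonneg r x (hKr (hSK hx)))
  have avg1 : ∀ S : Set X, MeasurableSet S → S ⊆ K → 0 < (μ S).toReal →
      (∫ x in S, chi r x ∂μ) / (μ S).toReal ≤ r ^ 2 / 2 := by
    intro S hS hSK hS0
    rw [div_le_iff₀ hS0]
    have h1 : ∫ x in S, chi r x ∂μ ≤ ∫ _ in S, r ^ 2 / 2 ∂μ :=
      setIntegral_mono (iK.mono_set hSK) (integrableOn_const (fin S hSK)) (fun x => chi_le r x)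
    rw [setIntegral_const] at h1
    simpa [Measure.real, mul_comm] using h1
  apply alg_sum r hr (fun i => (μ (A i)).toReal) (fun i => (μ (B i)).toReal)
    (fun i => (∫ x in A i, chi r x ∂μ) / (μ (A i)).toReal)
    (fun i => (∫ x in B i, chi r x ∂μ) / (μ (B i)).toReal)
    (fun i => ∫ x in C i, chi r x ∂μ)
    (fun i => (∫ x in B i, l i x ∂μ) / (μ (B i)).toReal - (∫ x in A i, l i x ∂μ) / (μ (A i)).toReal)
    (fun i => (μ (A i)).toReal * (μ (B i)).toReal / ((μ (A i)).toReal + (μ (B i)).toReal))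
    (∫ x in K, chi r x ∂μ) hA0 hB0 (fun i => rfl)
    (fun i => avg0 _ (hAm i) (hAK i)) (fun i => avg0 _ (hBm i) (hBK i))
    (fun i => avg1 _ (hAm i) (hAK i) (hA0 i)) (fun i => avg1 _ (hBm i) (hBK i) (hB0 i))
  · rw [← sum_setIntegral_eq μ K A hAm hAK hAd hAc _ iK]
    apply Finset.sum_congr rfl
    intro i _
    have := (hA0 i).ne'
    field_simp
  · rw [← sum_setIntegral_eq μ K B hBm hBK hBd hBc _ iK]
    apply Finset.sum_congr rfl
    intro i _
    have := (hB0 i).ne'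
    field_simp
  · exact sum_setIntegral_le μ K hK C hCm hCK hCd _ iK (fun x hx => chi_nonneg r x (hKr hx))
  · intro i θ
    have key := cell_ineq μ hPL r (A i) (B i) (C i) (hAm i) (hBm i) (hCm i)
      ((hAK i).trans hKr) ((hBK i).trans hKr) ((hCK i).trans hKr)
      (fin _ (hAK i)) (fin _ (hBK i)) (fin _ (hCK i)) (hmid i) (hA0 i) (hB0 i)
      (fun x => θ * chi r x) ((chi_measurable r).const_mul θ) (|θ| * (r ^ 2 / 2))
      (fun x hx => by
        rw [abs_mul, abs_of_nonneg (chi_nonneg r x (hKr (hAK i hx)))]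
        exact mul_le_mul_of_nonneg_left (chi_le r x) (abs_nonneg θ))
      (fun x hx => by
        rw [abs_mul, abs_of_nonneg (chi_nonneg r x (hKr (hBK i hx)))]
        exact mul_le_mul_of_nonneg_left (chi_le r x) (abs_nonneg θ))
      (|θ| * r)
      (fun x hx z hz => by
        have hx' : ‖x‖ ≤ r := by simpa using hKr (hAK i hx)
        have hz' : ‖z‖ ≤ r := by simpa using hKr (hBK i hz)
        have h1 : |‖x‖ - ‖z‖| ≤ ‖z - x‖ := by
          rw [norm_sub_rev]; exact abs_norm_sub_norm_le x z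
        have h2 : θ * chi r z - θ * chi r x = θ * ((‖x‖ - ‖z‖) * ((‖x‖ + ‖z‖) / 2)) := by
          unfold chi; ring
        rw [h2]
        calc θ * ((‖x‖ - ‖z‖) * ((‖x‖ + ‖z‖) / 2)) ≤ |θ * ((‖x‖ - ‖z‖) * ((‖x‖ + ‖z‖) / 2))| :=
              le_abs_self _
          _ = |θ| * (|‖x‖ - ‖z‖| * ((‖x‖ + ‖z‖) / 2)) := by
              rw [abs_mul, abs_mul, abs_of_nonneg (a := (‖x‖ + ‖z‖) / 2) (by positivity)]
          _ ≤ |θ| * (‖z - x‖ * r) := by
              apply mul_le_mul_of_nonneg_left _ (abs_nonneg θ)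
              exact mul_le_mul h1 (by linarith) (by positivity) (norm_nonneg _)
          _ = |θ| * r * ‖z - x‖ := by ring)
    rw [integral_const_mul, integral_const_mul] at key
    have e : (|θ| * r) ^ 2 = (θ * r) ^ 2 := by rw [mul_pow, mul_pow, sq_abs]
    rw [e] at key
    convert key using 2
    ring
  · intro i lam
    have key := cell_ineq μ hPL r (A i) (B i) (C i) (hAm i) (hBm i) (hCm i)
      ((hAK i).trans hKr) ((hBK i).trans hKr) ((hCK i).trans hKr)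
      (fin _ (hAK i)) (fin _ (hBK i)) (fin _ (hCK i)) (hmid i) (hA0 i) (hB0 i)
      (fun x => lam * l i x) ((hlm i).const_mul lam) (|lam| * r)
      (fun x hx => by
        rw [abs_mul]
        exact mul_le_mul_of_nonneg_left (hlb i x (hAK i hx)) (abs_nonneg lam))
      (fun x hx => by
        rw [abs_mul]
        exact mul_le_mul_of_nonneg_left (hlb i x (hBK i hx)) (abs_nonneg lam))
      (|lam|)
      (fun x hx z hz => by
        calc lam * l i z - lam * l i x = lam * (l i z - l i x) := by ring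
          _ ≤ |lam * (l i z - l i x)| := le_abs_self _
          _ = |lam| * |l i z - l i x| := abs_mul _ _
          _ ≤ |lam| * ‖z - x‖ := mul_le_mul_of_nonneg_left (hlL i x hx z hz) (abs_nonneg lam))
    rw [integral_const_mul, integral_const_mul, sq_abs] at key
    convert key using 2
    ring

end Vale.Agent.Lib.P074u
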