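import Vale.Agent.Lib.P074u.CellPL

open MeasureTheory
open scoped NNReal RealInnerProductSpace

namespace Vale.Agent.Lib.P074u

open Vale.Agent.Lib.P074q (E)
open Vale.Agent.Lib.P074b (unif)

variable {d : ℕ}

theorem stage_gam_pos (K0 : ℝ) (x : E d) : 0 < gam K0 x := Real.exp_pos _

theorem stage_continuous_gam (K0 : ℝ) : Continuous (gam K0 : E d → ℝ) := by
  unfold gam
  fun_prop

/-- `gam ≤ 1`. -/
theorem gam_le_one {K0 : ℝ} (hK0 : 0 ≤ K0) (x : E d) : gam K0 x ≤ 1 := by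
  unfold gam
  rw [Real.exp_le_one_iff]
  have : 0 ≤ K0 * ‖x‖ ^ 2 / 2 := by positivity
  linarith

theorem stage_exp_le : Real.exp (1 / 32) ≤ 26 / 25 := by
  have h1 : (1 : ℝ) - 1 / 32 ≤ Real.exp (-(1 / 32)) := by
    have := Real.add_one_le_exp (-(1 / 32 : ℝ))
    linarith
  have h2 : Real.exp (1 / 32) * Real.exp (-(1 / 32)) = 1 := by
    rw [← Real.exp_add]; simp
  have h3 : 0 < Real.exp (1 / 32 : ℝ) := Real.exp_pos _
  nlinarith

theorem stage_K0_bound {M : ℝ} (hM : 0 < M) {x : E d} (hx : ‖x‖ ≤ M) :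
    1 / (16 * M ^ 2) * ‖x‖ ^ 2 / 2 ≤ 1 / 32 := by
  have h1 : ‖x‖ ^ 2 ≤ M ^ 2 := pow_le_pow_left₀ (norm_nonneg _) hx 2
  have h2 : 0 < M ^ 2 := by positivity
  rw [div_mul_eq_mul_div, one_mul, div_div, div_le_div_iff₀ (by positivity) (by norm_num)]
  nlinarith

/-- Lower bound of the weight on the body, `K0 = 1/(16 M²)`. -/
theorem one_le_gam {M : ℝ} (hM : 0 < M) {x : E d} (hx : ‖x‖ ≤ M) :
    1 ≤ 26 / 25 * gam (1 / (16 * M ^ 2)) x := by
  have h0 := stage_K0_bound hM hx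
  have h1 : Real.exp (-(1 / 32)) ≤ gam (1 / (16 * M ^ 2)) x := by
    unfold gam
    apply Real.exp_le_exp.mpr
    linarith
  have h2 : (1 : ℝ) - 1 / 32 ≤ Real.exp (-(1 / 32)) := by
    have := Real.add_one_le_exp (-(1 / 32 : ℝ))
    linarith
  linarith

theorem stage_prob {K : Set (E d)} (hK : IsCompact K) (hKi : (interior K).Nonempty) :
    IsProbabilityMeasure (unif K) := by
  have hv0 : volume K ≠ 0 := (Measure.measure_pos_of_nonempty_interior volume hKi).ne'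
  have hvT : volume K ≠ ⊤ := hK.measure_lt_top.ne
  exact ⟨by simp [unif, ENNReal.inv_mul_cancel hv0 hvT]⟩

theorem stage_ae_mem {K : Set (E d)} (hK : IsCompact K) : ∀ᵐ x ∂(unif K), x ∈ K :=
  Measure.ae_smul_measure (ae_restrict_mem hK.measurableSet) _

theorem stage_integrable_gam {K : Set (E d)} (hK : IsCompact K) (hKi : (interior K).Nonempty)
    {K0 : ℝ} (hK0 : 0 ≤ K0) : Integrable (gam K0) (unif K) := by
  have := stage_prob hK hKi
  refine Integrable.of_bound (stage_continuous_gam K0).aestronglyMeasurable 1 ?_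
  filter_upwards with x
  rw [Real.norm_eq_abs, abs_of_pos (stage_gam_pos K0 x)]
  exact gam_le_one hK0 x

/-- Bounds `p ≤ m ≤ (26/25) p`. -/
theorem gam_mass_bounds {K : Set (E d)} (hK : IsCompact K) (hKi : (interior K).Nonempty)
    {M : ℝ} (hM : 0 < M) (hKM : ∀ x ∈ K, ‖x‖ ≤ M) {V : Set (E d)} (hV : MeasurableSet V) :
    (∫ x in V, gam (1 / (16 * M ^ 2)) x ∂(unif K)) ≤ (unif K V).toReal ∧
      (unif K V).toReal ≤ 26 / 25 * ∫ x in V, gam (1 / (16 * M ^ 2)) x ∂(unif K) := by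
  have := stage_prob hK hKi
  have hK0 : (0 : ℝ) ≤ 1 / (16 * M ^ 2) := by positivity
  have ig := (stage_integrable_gam hK hKi hK0).integrableOn (s := V)
  have hone : ∫ _ in V, (1 : ℝ) ∂(unif K) = (unif K V).toReal := by
    rw [setIntegral_const, smul_eq_mul, mul_one, measureReal_def]
  have i1 : IntegrableOn (fun _ => (1 : ℝ)) V (unif K) := integrableOn_const (by simp)
  constructor
  · rw [← hone]
    exact setIntegral_mono ig i1 (fun x => gam_le_one hK0 x)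
  · rw [← hone, ← integral_const_mul]
    refine integral_mono_ae i1 (ig.const_mul _) ?_
    have h := ae_restrict_of_ae (s := V) (stage_ae_mem hK)
    filter_upwards [h] with x hx
    exact one_le_gam hM (hKM x hx)

/-- the reciprocal of the Gaussian weight -/
noncomputable def ginv (K0 : ℝ) (x : E d) : ℝ := Real.exp (K0 * ‖x‖ ^ 2 / 2)

theorem stage_gam_mul_ginv (K0 : ℝ) (x : E d) : gam K0 x * ginv K0 x = 1 := by
  unfold gam ginv
  rw [← Real.exp_add]; simp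

theorem stage_continuous_ginv (K0 : ℝ) : Continuous (ginv K0 : E d → ℝ) := by
  unfold ginv
  fun_prop

theorem stage_ginv_pos (K0 : ℝ) (x : E d) : 0 < ginv K0 x := Real.exp_pos _

theorem stage_ginv_le {M : ℝ} (hM : 0 < M) {x : E d} (hx : ‖x‖ ≤ M) :
    ginv (1 / (16 * M ^ 2)) x ≤ 26 / 25 := by
  unfold ginv
  exact (Real.exp_le_exp.mpr (stage_K0_bound hM hx)).trans stage_exp_le

/-- `1 / gam` is Lipschitz on the ball of radius `M`. -/
theorem stage_ginv_lip {M : ℝ} (hM : 0 < M) {x x' : E d} (hx : ‖x‖ ≤ M) (hx' : ‖x'‖ ≤ M) :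
    ginv (1 / (16 * M ^ 2)) x' - ginv (1 / (16 * M ^ 2)) x ≤
      26 / 25 * (1 / (16 * M ^ 2)) * M * ‖x - x'‖ := by
  set K0 : ℝ := 1 / (16 * M ^ 2) with hK0
  have hK0pos : 0 < K0 := by positivity
  set a := K0 * ‖x‖ ^ 2 / 2 with ha
  set b := K0 * ‖x'‖ ^ 2 / 2 with hb
  have hb32 : Real.exp b ≤ 26 / 25 := stage_ginv_le hM hx'
  have h1 : Real.exp b - Real.exp a ≤ Real.exp b * (b - a) := by
    have h2 : a - b + 1 ≤ Real.exp (a - b) := Real.add_one_le_exp _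
    have h3 : Real.exp a = Real.exp b * Real.exp (a - b) := by
      rw [← Real.exp_add]; congr 1; ring
    rw [h3]
    nlinarith [Real.exp_pos b]
  have h4 : b - a ≤ K0 * M * ‖x - x'‖ := by
    have h5 : ‖x'‖ - ‖x‖ ≤ ‖x - x'‖ := by
      have := norm_sub_norm_le x' x
      rwa [norm_sub_rev] at this
    have h6 : ‖x‖ - ‖x'‖ ≤ ‖x - x'‖ := norm_sub_norm_le x x'
    have h7 : ‖x'‖ ^ 2 - ‖x‖ ^ 2 ≤ 2 * M * ‖x - x'‖ := by
      have e : ‖x'‖ ^ 2 - ‖x‖ ^ 2 = (‖x'‖ - ‖x‖) * (‖x'‖ + ‖x‖) := by ring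
      rw [e]
      have n0 := norm_nonneg x
      have n1 := norm_nonneg x'
      have n2 := norm_nonneg (x - x')
      by_cases hs : 0 ≤ ‖x'‖ - ‖x‖
      · calc (‖x'‖ - ‖x‖) * (‖x'‖ + ‖x‖) ≤ ‖x - x'‖ * (2 * M) :=
              mul_le_mul h5 (by linarith) (by linarith) n2
          _ = 2 * M * ‖x - x'‖ := by ring
      · have : (‖x'‖ - ‖x‖) * (‖x'‖ + ‖x‖) ≤ 0 :=
          mul_nonpos_of_nonpos_of_nonneg (by linarith) (by linarith)
        have : 0 ≤ 2 * M * ‖x - x'‖ := by positivity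
        linarith
    have e2 : b - a = K0 / 2 * (‖x'‖ ^ 2 - ‖x‖ ^ 2) := by rw [ha, hb]; ring
    rw [e2]
    calc K0 / 2 * (‖x'‖ ^ 2 - ‖x‖ ^ 2) ≤ K0 / 2 * (2 * M * ‖x - x'‖) :=
          mul_le_mul_of_nonneg_left h7 (by positivity)
      _ = K0 * M * ‖x - x'‖ := by ring
  have h8 : 0 ≤ K0 * M * ‖x - x'‖ := by positivity
  have h9 : Real.exp b * (b - a) ≤ 26 / 25 * (K0 * M * ‖x - x'‖) := by
    calc Real.exp b * (b - a) ≤ Real.exp b * (K0 * M * ‖x - x'‖) :=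
          mul_le_mul_of_nonneg_left h4 (Real.exp_pos b).le
      _ ≤ 26 / 25 * (K0 * M * ‖x - x'‖) := mul_le_mul_of_nonneg_right hb32 h8
  have : ginv K0 x' - ginv K0 x = Real.exp b - Real.exp a := rfl
  rw [this]
  linarith

theorem stage_ginv_lip_abs {M : ℝ} (hM : 0 < M) {x x' : E d} (hx : ‖x‖ ≤ M) (hx' : ‖x'‖ ≤ M) :
    |ginv (1 / (16 * M ^ 2)) x' - ginv (1 / (16 * M ^ 2)) x| ≤
      26 / 25 * (1 / (16 * M ^ 2)) * M * ‖x - x'‖ := by
  rw [abs_le]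
  constructor
  · have := stage_ginv_lip hM hx' hx
    rw [norm_sub_rev] at this
    linarith
  · exact stage_ginv_lip hM hx hx'

theorem stage_pos_of_unif_pos {K : Set (E d)} (hK : IsCompact K) (hKi : (interior K).Nonempty)
    {M : ℝ} (hM : 0 < M) (hKM : ∀ x ∈ K, ‖x‖ ≤ M) {V : Set (E d)} (hV : MeasurableSet V)
    (hp : 0 < unif K V) : 0 < ∫ x in V, gam (1 / (16 * M ^ 2)) x ∂(unif K) := by
  have := stage_prob hK hKi
  have h1 : 0 < (unif K V).toReal := ENNReal.toReal_pos hp.ne' (measure_ne_top _ _)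
  have h2 := (gam_mass_bounds hK hKi hM hKM hV).2
  linarith

/-- First pass: test function `l = 4 δ / gam`, `δ = m'/q - m/p`. -/
theorem stage1 {K : Set (E d)} (hK : IsCompact K) (hKc : Convex ℝ K)
    (hKi : (interior K).Nonempty) {M : ℝ} (hM : 0 < M) (hKM : ∀ x ∈ K, ‖x‖ ≤ M)
    {V0 V1 Vh : Set (E d)} (h0 : MeasurableSet V0) (h1 : MeasurableSet V1)
    (hh : MeasurableSet Vh) (hmid : ∀ x ∈ V0, ∀ x' ∈ V1, (1 / 2 : ℝ) • (x + x') ∈ Vh)
    (hp : 0 < unif K V0) (hq : 0 < unif K V1) :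
    Real.sqrt ((∫ x in V0, gam (1 / (16 * M ^ 2)) x ∂(unif K)) *
        (∫ x in V1, gam (1 / (16 * M ^ 2)) x ∂(unif K))) *
      (1 + ((unif K V1).toReal / (∫ x in V1, gam (1 / (16 * M ^ 2)) x ∂(unif K))
        - (unif K V0).toReal / (∫ x in V0, gam (1 / (16 * M ^ 2)) x ∂(unif K))) ^ 2)
      ≤ ∫ x in Vh, gam (1 / (16 * M ^ 2)) x ∂(unif K) := by
  have hp' := stage_pos_of_unif_pos hK hKi hM hKM h0 hp
  have hq' := stage_pos_of_unif_pos hK hKi hM hKM h1 hq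
  set K0 : ℝ := 1 / (16 * M ^ 2) with hK0
  have hK0pos : 0 < K0 := by positivity
  have hK0M : K0 * M ^ 2 = 1 / 16 := by rw [hK0]; field_simp
  set p := ∫ x in V0, gam K0 x ∂(unif K) with hpdef
  set q := ∫ x in V1, gam K0 x ∂(unif K) with hqdef
  set m := (unif K V0).toReal with hm
  set m' := (unif K V1).toReal with hm'
  set δ := m' / q - m / p with hδ
  set τ := 4 * δ with hτ
  have hlip : ∀ x ∈ K, ∀ x' ∈ K, τ * ginv K0 x' - τ * ginv K0 x ≤
      (|τ| * (26 / 25 * K0 * M)) * ‖x - x'‖ := by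
    intro x hx x' hx'
    have h := stage_ginv_lip_abs hM (hKM x hx) (hKM x' hx')
    rw [← hK0] at h
    calc τ * ginv K0 x' - τ * ginv K0 x = τ * (ginv K0 x' - ginv K0 x) := by ring
      _ ≤ |τ * (ginv K0 x' - ginv K0 x)| := le_abs_self _
      _ = |τ| * |ginv K0 x' - ginv K0 x| := abs_mul _ _
      _ ≤ |τ| * (26 / 25 * K0 * M * ‖x - x'‖) := mul_le_mul_of_nonneg_left h (abs_nonneg _)
      _ = _ := by ring
  have key := cell_PL hK hKc hKi hK0pos h0 h1 hh hmid (fun x => τ * ginv K0 x)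
    (continuous_const.mul (stage_continuous_ginv K0)) hlip hp' hq'
  have e1 : ∀ V : Set (E d), ∫ x in V, gam K0 x * (τ * ginv K0 x) ∂(unif K) =
      τ * (unif K V).toReal := by
    intro V
    have : ∀ x : E d, gam K0 x * (τ * ginv K0 x) = τ := by
      intro x
      rw [mul_left_comm, stage_gam_mul_ginv, mul_one]
    simp only [this]
    rw [setIntegral_const, smul_eq_mul, measureReal_def, mul_comm]
  rw [e1 V1, e1 V0, ← hpdef, ← hqdef, ← hm, ← hm'] at key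
  refine le_trans (mul_le_mul_of_nonneg_left ?_ (Real.sqrt_nonneg _)) key
  have hE : δ ^ 2 ≤ (τ * m' / q - τ * m / p) / 2 - (|τ| * (26 / 25 * K0 * M)) ^ 2 / (2 * K0) := by
    have e2 : (τ * m' / q - τ * m / p) / 2 = 2 * δ ^ 2 := by
      rw [hτ, hδ]; ring
    have e3 : (|τ| * (26 / 25 * K0 * M)) ^ 2 / (2 * K0) = 338 / 625 * δ ^ 2 := by
      rw [mul_pow, sq_abs, hτ]
      have : (26 / 25 * K0 * M) ^ 2 / (2 * K0) = 676 / 625 * (K0 * M ^ 2) / 2 := by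
        field_simp
        norm_num
      calc (4 * δ) ^ 2 * (26 / 25 * K0 * M) ^ 2 / (2 * K0)
          = (4 * δ) ^ 2 * ((26 / 25 * K0 * M) ^ 2 / (2 * K0)) := by ring
        _ = _ := by rw [this, hK0M]; ring
    rw [e2, e3]
    nlinarith [sq_nonneg δ]
  calc 1 + δ ^ 2 = δ ^ 2 + 1 := add_comm _ _
    _ ≤ Real.exp (δ ^ 2) := Real.add_one_le_exp _
    _ ≤ _ := Real.exp_le_exp.mpr hE

theorem stage_integrable_id {K : Set (E d)} (hK : IsCompact K) (hKi : (interior K).Nonempty)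
    {M : ℝ} (hKM : ∀ x ∈ K, ‖x‖ ≤ M) : Integrable (fun x : E d => x) (unif K) := by
  have := stage_prob hK hKi
  refine Integrable.of_bound measurable_id.aestronglyMeasurable M ?_
  filter_upwards [stage_ae_mem hK] with x hx
  exact hKM x hx

/-- Second pass: test function `l = ⟪lam, x⟫ / gam`, `lam = D / (40 M²)`,
`D = A1 / q - A0 / p`. -/
theorem stage2 {K : Set (E d)} (hK : IsCompact K) (hKc : Convex ℝ K)
    (hKi : (interior K).Nonempty) {M : ℝ} (hM : 0 < M) (hKM : ∀ x ∈ K, ‖x‖ ≤ M)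
    {V0 V1 Vh : Set (E d)} (h0 : MeasurableSet V0) (h1 : MeasurableSet V1)
    (hh : MeasurableSet Vh) (hmid : ∀ x ∈ V0, ∀ x' ∈ V1, (1 / 2 : ℝ) • (x + x') ∈ Vh)
    (hp : 0 < unif K V0) (hq : 0 < unif K V1) :
    Real.sqrt ((∫ x in V0, gam (1 / (16 * M ^ 2)) x ∂(unif K)) *
        (∫ x in V1, gam (1 / (16 * M ^ 2)) x ∂(unif K))) *
      (1 + ‖(∫ x in V1, gam (1 / (16 * M ^ 2)) x ∂(unif K))⁻¹ • (∫ x in V1, x ∂(unif K))
        - (∫ x in V0, gam (1 / (16 * M ^ 2)) x ∂(unif K))⁻¹ • (∫ x in V0, x ∂(unif K))‖ ^ 2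
          / (160 * M ^ 2))
      ≤ ∫ x in Vh, gam (1 / (16 * M ^ 2)) x ∂(unif K) := by
  have hp' := stage_pos_of_unif_pos hK hKi hM hKM h0 hp
  have hq' := stage_pos_of_unif_pos hK hKi hM hKM h1 hq
  set K0 : ℝ := 1 / (16 * M ^ 2) with hK0
  have hK0pos : 0 < K0 := by positivity
  have hK0M : K0 * M ^ 2 = 1 / 16 := by rw [hK0]; field_simp
  set p := ∫ x in V0, gam K0 x ∂(unif K) with hpdef
  set q := ∫ x in V1, gam K0 x ∂(unif K) with hqdef
  set A0 := ∫ x in V0, x ∂(unif K) with hA0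
  set A1 := ∫ x in V1, x ∂(unif K) with hA1
  set D := q⁻¹ • A1 - p⁻¹ • A0 with hD
  set lam : E d := (1 / (40 * M ^ 2) : ℝ) • D with hlam
  have hlip : ∀ x ∈ K, ∀ x' ∈ K, ⟪lam, x'⟫ * ginv K0 x' - ⟪lam, x⟫ * ginv K0 x ≤
      (‖lam‖ * (26 / 25) * (17 / 16)) * ‖x - x'‖ := by
    intro x hx x' hx'
    have h := stage_ginv_lip_abs hM (hKM x hx) (hKM x' hx')
    rw [← hK0] at h
    have g1 : ginv K0 x' ≤ 26 / 25 := stage_ginv_le hM (hKM x' hx')
    have g0 : 0 < ginv K0 x' := stage_ginv_pos K0 x'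
    have e : ⟪lam, x'⟫ * ginv K0 x' - ⟪lam, x⟫ * ginv K0 x =
        ⟪lam, x' - x⟫ * ginv K0 x' + ⟪lam, x⟫ * (ginv K0 x' - ginv K0 x) := by
      rw [inner_sub_right]; ring
    have t1 : ⟪lam, x' - x⟫ * ginv K0 x' ≤ ‖lam‖ * ‖x - x'‖ * (26 / 25) := by
      have c1 : ⟪lam, x' - x⟫ ≤ ‖lam‖ * ‖x - x'‖ := by
        have := real_inner_le_norm lam (x' - x)
        rwa [norm_sub_rev] at this
      calc ⟪lam, x' - x⟫ * ginv K0 x' ≤ (‖lam‖ * ‖x - x'‖) * ginv K0 x' :=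
            mul_le_mul_of_nonneg_right c1 g0.le
        _ ≤ (‖lam‖ * ‖x - x'‖) * (26 / 25) := mul_le_mul_of_nonneg_left g1 (by positivity)
    have t2 : ⟪lam, x⟫ * (ginv K0 x' - ginv K0 x) ≤
        (‖lam‖ * M) * (26 / 25 * K0 * M * ‖x - x'‖) := by
      have c2 : |⟪lam, x⟫| ≤ ‖lam‖ * M :=
        (abs_real_inner_le_norm lam x).trans
          (mul_le_mul_of_nonneg_left (hKM x hx) (norm_nonneg _))
      calc ⟪lam, x⟫ * (ginv K0 x' - ginv K0 x) ≤ |⟪lam, x⟫ * (ginv K0 x' - ginv K0 x)| :=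
            le_abs_self _
        _ = |⟪lam, x⟫| * |ginv K0 x' - ginv K0 x| := abs_mul _ _
        _ ≤ _ := mul_le_mul c2 h (abs_nonneg _) (by positivity)
    have e2 : (‖lam‖ * M) * (26 / 25 * K0 * M * ‖x - x'‖) =
        ‖lam‖ * ‖x - x'‖ * (26 / 25) * (K0 * M ^ 2) := by ring
    rw [e2, hK0M] at t2
    rw [e]
    nlinarith [t1, t2]
  have hcont : Continuous (fun x : E d => ⟪lam, x⟫ * ginv K0 x) :=
    (continuous_const.inner continuous_id).mul (stage_continuous_ginv K0)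
  have key := cell_PL hK hKc hKi hK0pos h0 h1 hh hmid (fun x => ⟪lam, x⟫ * ginv K0 x)
    hcont hlip hp' hq'
  have e1 : ∀ V : Set (E d), ∫ x in V, gam K0 x * (⟪lam, x⟫ * ginv K0 x) ∂(unif K) =
      ⟪lam, ∫ x in V, x ∂(unif K)⟫ := by
    intro V
    have : ∀ x : E d, gam K0 x * (⟪lam, x⟫ * ginv K0 x) = ⟪lam, x⟫ := by
      intro x
      rw [mul_left_comm, stage_gam_mul_ginv, mul_one]
    simp only [this]
    exact integral_inner (stage_integrable_id hK hKi hKM).integrableOn lam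
  rw [e1 V1, e1 V0, ← hpdef, ← hqdef, ← hA0, ← hA1] at key
  refine le_trans (mul_le_mul_of_nonneg_left ?_ (Real.sqrt_nonneg _)) key
  have hM2 : 0 < M ^ 2 := by positivity
  have hE : ‖D‖ ^ 2 / (160 * M ^ 2) ≤ (⟪lam, A1⟫ / q - ⟪lam, A0⟫ / p) / 2 -
      (‖lam‖ * (26 / 25) * (17 / 16)) ^ 2 / (2 * K0) := by
    have e2 : ⟪lam, A1⟫ / q - ⟪lam, A0⟫ / p = ‖D‖ ^ 2 / (40 * M ^ 2) := by
      have : ⟪lam, A1⟫ / q - ⟪lam, A0⟫ / p = ⟪lam, D⟫ := by
        rw [hD, inner_sub_right, inner_smul_right, inner_smul_right]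
        ring
      rw [this, hlam, inner_smul_left, real_inner_self_eq_norm_sq]
      simp only [conj_trivial]
      ring
    have e3 : ‖lam‖ = ‖D‖ / (40 * M ^ 2) := by
      rw [hlam, norm_smul, Real.norm_eq_abs, abs_of_pos (by positivity)]
      ring
    have e4 : (‖lam‖ * (26 / 25) * (17 / 16)) ^ 2 / (2 * K0) =
        1562912 / 256000000 * (‖D‖ ^ 2 / M ^ 2) := by
      rw [e3, hK0]
      field_simp
      ring
    have e5 : ‖D‖ ^ 2 / (160 * M ^ 2) = 1 / 160 * (‖D‖ ^ 2 / M ^ 2) := by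
      field_simp
    have e6 : ‖D‖ ^ 2 / (40 * M ^ 2) = 1 / 40 * (‖D‖ ^ 2 / M ^ 2) := by
      field_simp
    have hu : 0 ≤ ‖D‖ ^ 2 / M ^ 2 := by positivity
    rw [e2, e4, e5, e6]
    nlinarith [hu]
  calc 1 + ‖D‖ ^ 2 / (160 * M ^ 2) = ‖D‖ ^ 2 / (160 * M ^ 2) + 1 := add_comm _ _
    _ ≤ Real.exp (‖D‖ ^ 2 / (160 * M ^ 2)) := Real.add_one_le_exp _
    _ ≤ _ := Real.exp_le_exp.mpr hE

end Vale.Agent.Lib.P074u
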