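import Vale.Agent.Lib.P074u.ChainAll
import Vale.Agent.Lib.P074u.DiscStab

/-!
Removal of the atoms of mass zero: the step used by the chain follows from the discrete stability
with positive masses.
-/

open MeasureTheory
open scoped NNReal RealInnerProductSpace

namespace Vale.Agent.Lib.P074u

open Vale.Agent.Lib.P074q (E)
open Vale.Agent.Lib.P074b (unif Admissible)

variable {d : ℕ} {ι : Type} [Fintype ι]

/-- The union of the cells which are declared negligible is a null set. -/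
lemma null_union (ρ : Measure (E d)) (P : ι → E d) (w : ι → ℝ) (p : ι → Prop)
    (hp : ∀ i, ¬ p i → ρ {x | ∀ j, ⟪x, P j⟫ - w j ≤ ⟪x, P i⟫ - w i} = 0) :
    ρ {x | ∃ i, ¬ p i ∧ ∀ j, ⟪x, P j⟫ - w j ≤ ⟪x, P i⟫ - w i} = 0 := by
  have hsub : {x | ∃ i, ¬ p i ∧ ∀ j, ⟪x, P j⟫ - w j ≤ ⟪x, P i⟫ - w i} ⊆
      ⋃ i : {i // ¬ p i}, {x | ∀ j, ⟪x, P j⟫ - w j ≤ ⟪x, P i⟫ - w i} := by
    intro x hx
    obtain ⟨i, hi, hx⟩ := hx
    exact Set.mem_iUnion.mpr ⟨⟨i, hi⟩, hx⟩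
  refine measure_mono_null hsub ?_
  rw [measure_iUnion_null_iff]
  intro i
  exact hp i i.2

lemma restrict_ae (ρ : Measure (E d)) (P : ι → E d) (w : ι → ℝ) (p : ι → Prop)
    (hp : ∀ i, ¬ p i → ρ {x | ∀ j, ⟪x, P j⟫ - w j ≤ ⟪x, P i⟫ - w i} = 0) (T : E d → E d)
    (h : ∀ᵐ x ∂ρ, ∃ i, T x = P i ∧ ∀ j, ⟪x, P j⟫ - w j ≤ ⟪x, P i⟫ - w i) :
    ∀ᵐ x ∂ρ, ∃ i : {i // p i}, T x = P i ∧
      ∀ j : {i // p i}, ⟪x, P j⟫ - w j ≤ ⟪x, P i⟫ - w i := by
  have hN : ∀ᵐ x ∂ρ, ¬ ∃ i, ¬ p i ∧ ∀ j, ⟪x, P j⟫ - w j ≤ ⟪x, P i⟫ - w i := by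
    rw [ae_iff]
    simpa only [not_not] using null_union ρ P w p hp
  filter_upwards [h, hN] with x hx hxN
  obtain ⟨i, hTi, hi⟩ := hx
  have hpi : p i := by
    by_contra hcon
    exact hxN ⟨i, hcon, hi⟩
  exact ⟨⟨i, hpi⟩, hTi, fun j => hi j⟩

lemma restrict_mass [Nonempty ι] (ρ : Measure (E d)) (P : ι → E d) (w : ι → ℝ) (p : ι → Prop)
    (hp : ∀ i, ¬ p i → ρ {x | ∀ j, ⟪x, P j⟫ - w j ≤ ⟪x, P i⟫ - w i} = 0) (i : {i // p i}) :
    ρ {x | ∀ j : {i // p i}, ⟪x, P j⟫ - w j ≤ ⟪x, P i⟫ - w i} =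
      ρ {x | ∀ j, ⟪x, P j⟫ - w j ≤ ⟪x, P i⟫ - w i} := by
  apply le_antisymm
  · have hsub : {x | ∀ j : {i // p i}, ⟪x, P j⟫ - w j ≤ ⟪x, P i⟫ - w i} ⊆
        {x | ∀ j, ⟪x, P j⟫ - w j ≤ ⟪x, P i⟫ - w i} ∪
          {x | ∃ i, ¬ p i ∧ ∀ j, ⟪x, P j⟫ - w j ≤ ⟪x, P i⟫ - w i} := by
      intro x hx
      obtain ⟨k, hk⟩ := Finite.exists_max (fun j => ⟪x, P j⟫ - w j)
      by_cases hpk : p k
      · left
        intro j
        exact (hk j).trans (hx ⟨k, hpk⟩)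
      · right
        exact ⟨k, hpk, hk⟩
    refine (measure_mono hsub).trans ((measure_union_le _ _).trans ?_)
    rw [null_union ρ P w p hp, add_zero]
  · apply measure_mono
    intro x hx j
    exact hx j

theorem stepProp_of_discStab (h : DiscStab d) (K : Set (E d)) (hK : IsCompact K)
    (hKc : Convex ℝ K) (hKi : (interior K).Nonempty) (R : ℝ≥0) : ∃ C : ℝ≥0, StepProp K R C := by
  classical
  obtain ⟨C, hC⟩ := h K hK hKc hKi R
  refine ⟨C, ?_⟩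
  intro ι _ _ j0 j1 hj P P' w w' hP hP' hsame hinj T S hT hS hTae hSae hmass
  have hv0 : volume K ≠ 0 := (Measure.measure_pos_of_nonempty_interior volume hKi).ne'
  have hvT : volume K ≠ ⊤ := hK.measure_lt_top.ne
  have hprob : IsProbabilityMeasure (unif K) :=
    Vale.Agent.Lib.P074q.isProbabilityMeasure_unif hv0 hvT
  obtain ⟨p, hpdef⟩ : ∃ p : ι → Prop, ∀ i,
      p i ↔ unif K {x | ∀ j, ⟪x, P j⟫ - w j ≤ ⟪x, P i⟫ - w i} ≠ 0 := ⟨_, fun _ => Iff.rfl⟩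
  have hp : ∀ i, ¬ p i → unif K {x | ∀ j, ⟪x, P j⟫ - w j ≤ ⟪x, P i⟫ - w i} = 0 := by
    intro i hi
    rw [hpdef] at hi
    exact not_not.mp hi
  have hp' : ∀ i, ¬ p i → unif K {x | ∀ j, ⟪x, P' j⟫ - w' j ≤ ⟪x, P' i⟫ - w' i} = 0 := by
    intro i hi
    rw [← hmass i]
    exact hp i hi
  have hTae' := restrict_ae (unif K) P w p hp T hTae
  have hSae' := restrict_ae (unif K) P' w' p hp' S hSae
  have hne : Nonempty {i // p i} := by
    obtain ⟨x, hx⟩ := hTae'.exists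
    exact ⟨hx.choose⟩
  have hres := hC {i // p i} j0 j1 hj (fun i => P i) (fun i => P' i) (fun i => w i)
    (fun i => w' i) (fun i => hP i) (fun i => hP' i) (fun i => hsame i)
    (fun a b hab => Subtype.ext (hinj hab)) T S hT hS hTae' hSae'
    (fun i => by
      rw [restrict_mass (unif K) P w p hp i, restrict_mass (unif K) P' w' p hp' i, hmass])
    (fun i => by
      rw [restrict_mass (unif K) P w p hp i]
      exact (hpdef i).mp i.2)
  refine hres.trans ?_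
  gcongr
  rw [ENNReal.ofReal_sum_of_nonneg (fun i _ => by positivity)]
  have h1 : ∀ i : {i // p i}, ENNReal.ofReal
      ((unif K {x | ∀ j : {i // p i}, ⟪x, P j⟫ - w j ≤ ⟪x, P i⟫ - w i}).toReal *
        (P i j0 - P' i j0) ^ 2) =
      unif K {x | ∀ j, ⟪x, P j⟫ - w j ≤ ⟪x, P i⟫ - w i} *
        ENNReal.ofReal ((P i j0 - P' i j0) ^ 2) := by
    intro i
    rw [ENNReal.ofReal_mul ENNReal.toReal_nonneg, ENNReal.ofReal_toReal (measure_ne_top _ _),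
      restrict_mass (unif K) P w p hp i]
  rw [Finset.sum_congr rfl (fun i _ => h1 i)]
  rw [← Finset.sum_subtype (Finset.univ.filter p) (fun x => by simp)
    (fun i => unif K {x | ∀ j, ⟪x, P j⟫ - w j ≤ ⟪x, P i⟫ - w i} *
        ENNReal.ofReal ((P i j0 - P' i j0) ^ 2))]
  exact Finset.sum_le_sum_of_subset (Finset.filter_subset _ _)

/-- Admissibility of one third in every dimension at least two, from the discrete stability. -/
theorem admissible_third_of_discStab26 (hd : 2 ≤ d) (h : DiscStab d) : Admissible d (1 / 3) :=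
  admissible_third_of_step hd fun K hK hKc hKi R => stepProp_of_discStab h K hK hKc hKi R

end Vale.Agent.Lib.P074u
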