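import Vale.Agent.Lib.P074u.Mixed
import Vale.Agent.Lib.P074u.Cont

open MeasureTheory Filter Topology
open scoped NNReal RealInnerProductSpace

namespace Vale.Agent.Lib.P074u

open Vale.Agent.Lib.P074q (E)
open Vale.Agent.Lib.P074b (unif)

variable {d : ℕ} {ι : Type} [Fintype ι]

/-- From `V ≤ c √V √W` to `V ≤ c² W`. -/
theorem le_sq_of_le_sqrt {V W c : ℝ} (hV : 0 ≤ V) (hW : 0 ≤ W) (hc : 0 ≤ c)
    (h : V ≤ c * Real.sqrt V * Real.sqrt W) : V ≤ c ^ 2 * W := by
  rcases hV.eq_or_lt with h0 | h0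
  · rw [← h0]; positivity
  · have hs : 0 < Real.sqrt V := Real.sqrt_pos.mpr h0
    have h1 : Real.sqrt V * Real.sqrt V = V := Real.mul_self_sqrt hV
    have h2 : Real.sqrt V ≤ c * Real.sqrt W := by
      have : Real.sqrt V * Real.sqrt V ≤ (c * Real.sqrt W) * Real.sqrt V := by
        rw [h1]; linarith
      exact le_of_mul_le_mul_right this hs
    have h3 : Real.sqrt W * Real.sqrt W = W := Real.mul_self_sqrt hW
    calc V = Real.sqrt V * Real.sqrt V := h1.symm
      _ ≤ (c * Real.sqrt W) * (c * Real.sqrt W) :=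
          mul_le_mul h2 h2 hs.le (by positivity)
      _ = c ^ 2 * (Real.sqrt W * Real.sqrt W) := by ring
      _ = c ^ 2 * W := by rw [h3]

/-- Weighted variance of the difference of the weights. -/
theorem weights_var19 [Nonempty ι] {K : Set (E d)} (hK : IsCompact K) (hKc : Convex ℝ K)
    (hKi : (interior K).Nonempty) {M : ℝ} (hM : 0 < M) (hKM : ∀ x ∈ K, ‖x‖ ≤ M)
    (j1 : Fin d) (P P' : ι → E d) (hj : ∀ i, P i j1 = P' i j1)
    (hinj : Function.Injective (fun i => P i j1)) (w w' : ι → ℝ)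
    (hm : ∀ i, 0 < mass K P w i) (hmass : ∀ i, mass K P w i = mass K P' w' i) :
    ∑ i, mass K P w i * ((w' i - w i) - ∑ k, mass K P w k * (w' k - w k)) ^ 2 ≤
      729 * M ^ 2 * ∑ i, mass K P w i * ‖P' i - P i‖ ^ 2 := by
  classical
  have hP : Function.Injective P := fun i j hij => hinj (by simp only [hij])
  have hP' : Function.Injective P' := fun i j hij => hinj (by
    show P i j1 = P j j1
    rw [hj i, hj j, hij])
  set m : ι → ℝ := fun i => mass K P w i with hmdef
  have hsum : ∑ i, m i = 1 := sum_mass hK hKi hP w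
  set ub : ℝ := ∑ k, m k * (w' k - w k) with hub
  set F0 : ι → ℝ := fun i => (w' i - w i) - ub with hF0
  have hF0sum : ∑ i, m i * F0 i = 0 := by
    have : ∑ i, m i * F0 i = ∑ i, m i * (w' i - w i) - (∑ i, m i) * ub := by
      rw [Finset.sum_mul, ← Finset.sum_sub_distrib]
      exact Finset.sum_congr rfl (fun i _ => by simp only [hF0]; ring)
    rw [this, hsum, one_mul, ← hub, sub_self]
  set V : ℝ := ∑ i, m i * F0 i ^ 2 with hV
  set W : ℝ := ∑ i, m i * ‖P' i - P i‖ ^ 2 with hW
  have hV0 : 0 ≤ V := Finset.sum_nonneg (fun i _ => mul_nonneg (hm i).le (sq_nonneg _))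
  have hW0 : 0 ≤ W := Finset.sum_nonneg (fun i _ => mul_nonneg (hm i).le (sq_nonneg _))
  set B : ℝ := ∑ i, |F0 i| with hB
  have hB0 : 0 ≤ B := Finset.sum_nonneg (fun i _ => abs_nonneg _)
  have hBi : ∀ i, |F0 i| ≤ B := fun i =>
    Finset.single_le_sum (f := fun i => |F0 i|) (fun i _ => abs_nonneg _) (Finset.mem_univ i)
  set ε : ℕ → ℝ := fun n => 1 / (2 * (B + 1) * ((n : ℝ) + 1)) with hε
  have hεpos : ∀ n, 0 < ε n := fun n => by simp only [hε]; positivity
  have hεF : ∀ n i, |ε n * F0 i| ≤ 1 / 2 := by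
    intro n i
    rw [abs_mul, abs_of_pos (hεpos n)]
    have h1 : ε n * |F0 i| ≤ ε n * B := mul_le_mul_of_nonneg_left (hBi i) (hεpos n).le
    have h2 : ε n * B ≤ 1 / 2 := by
      simp only [hε]
      rw [div_mul_eq_mul_div, one_mul, div_le_iff₀ (by positivity)]
      have : (0 : ℝ) ≤ n := Nat.cast_nonneg n
      nlinarith
    linarith
  have hεlim : Tendsto ε atTop (𝓝 0) := by
    have h1 : Tendsto (fun n : ℕ => 1 / ((n : ℝ) + 1)) atTop (𝓝 0) :=
      tendsto_one_div_add_atTop_nhds_zero_nat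
    have h2 : Tendsto (fun n : ℕ => (1 / (2 * (B + 1))) * (1 / ((n : ℝ) + 1))) atTop
        (𝓝 ((1 / (2 * (B + 1))) * 0)) := h1.const_mul _
    rw [mul_zero] at h2
    refine h2.congr (fun n => ?_)
    simp only [hε]
    rw [div_mul_div_comm, one_mul]
  -- the perturbed weights
  have hex : ∀ n, ∃ v : ι → ℝ, ∀ i, mass K P' v i = m i * (1 + ε n * F0 i) := by
    intro n
    apply exists_weights hK hKi hP'
    · intro i
      have := abs_le.mp (hεF n i)
      exact mul_nonneg (hm i).le (by linarith [this.1])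
    · have : ∑ i, m i * (1 + ε n * F0 i) = ∑ i, m i + ε n * ∑ i, m i * F0 i := by
        rw [Finset.mul_sum, ← Finset.sum_add_distrib]
        exact Finset.sum_congr rfl (fun i _ => by ring)
      rw [this, hsum, hF0sum, mul_zero, add_zero]
  choose wn hwn using hex
  have hbound : ∀ n, ∑ i, (m i * F0 i) * wn n i - ∑ i, (m i * F0 i) * w i ≤
      27 * M * Real.sqrt V * Real.sqrt W := by
    intro n
    have h := dual_bound hK hKc hKi hM hKM j1 P P' hj hinj w (wn n) m (fun i => ε n * F0 i)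
      hm (fun i => rfl) (hεF n)
      (by
        have : ∑ i, m i * (ε n * F0 i) = ε n * ∑ i, m i * F0 i := by
          rw [Finset.mul_sum]
          exact Finset.sum_congr rfl (fun i _ => by ring)
        rw [this, hF0sum, mul_zero])
      (hwn n)
    have h1 : ∑ i, m i * (ε n * F0 i) * (wn n i - w i) =
        ε n * (∑ i, (m i * F0 i) * wn n i - ∑ i, (m i * F0 i) * w i) := by
      rw [← Finset.sum_sub_distrib, Finset.mul_sum]
      exact Finset.sum_congr rfl (fun i _ => by ring)
    have h2 : ∑ i, m i * (ε n * F0 i) ^ 2 = ε n ^ 2 * V := by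
      rw [hV, Finset.mul_sum]
      exact Finset.sum_congr rfl (fun i _ => by ring)
    have h3 : Real.sqrt (ε n ^ 2 * V) = ε n * Real.sqrt V := by
      rw [Real.sqrt_mul (sq_nonneg _), Real.sqrt_sq (hεpos n).le]
    rw [h1, h2, h3] at h
    have h4 : ε n * (∑ i, (m i * F0 i) * wn n i - ∑ i, (m i * F0 i) * w i) ≤
        ε n * (27 * M * Real.sqrt V * Real.sqrt W) := by
      calc _ ≤ 27 * M * (ε n * Real.sqrt V) * Real.sqrt W := h
        _ = _ := by ring
    exact le_of_mul_le_mul_left h4 (hεpos n)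
  have hconv : ∀ i, Tendsto (fun n => mass K P' (wn n) i) atTop (𝓝 (mass K P' w' i)) := by
    intro i
    have h1 : Tendsto (fun n => m i * (1 + ε n * F0 i)) atTop (𝓝 (m i * (1 + 0 * F0 i))) :=
      ((hεlim.mul_const _).const_add _).const_mul _
    rw [zero_mul, add_zero, mul_one] at h1
    rw [← hmass i]
    exact h1.congr (fun n => (hwn n i).symm)
  have hlim := weights_tendsto_mass hK hKc hKi P' w' (fun i => by rw [← hmass i]; exact hm i)
    wn hconv (fun i => m i * F0 i) hF0sum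
  have hfin : ∑ i, (m i * F0 i) * w' i - ∑ i, (m i * F0 i) * w i ≤
      27 * M * Real.sqrt V * Real.sqrt W :=
    le_of_tendsto' (hlim.sub_const _) hbound
  have hVeq : ∑ i, (m i * F0 i) * w' i - ∑ i, (m i * F0 i) * w i = V := by
    have : ∑ i, (m i * F0 i) * w' i - ∑ i, (m i * F0 i) * w i =
        V + ub * ∑ i, m i * F0 i := by
      rw [hV, ← Finset.sum_sub_distrib, Finset.mul_sum, ← Finset.sum_add_distrib]
      exact Finset.sum_congr rfl (fun i _ => by simp only [hF0]; ring)
    rw [this, hF0sum, mul_zero, add_zero]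
  rw [hVeq] at hfin
  have := le_sq_of_le_sqrt hV0 hW0 (by positivity : (0 : ℝ) ≤ 27 * M) hfin
  calc V ≤ (27 * M) ^ 2 * W := this
    _ = 729 * M ^ 2 * W := by ring

end Vale.Agent.Lib.P074u
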